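import Mathlib

/-! Jordan normal form over an algebraically closed field. -/

namespace P002
open Polynomial Module

theorem quot_basis {K : Type} [Field K] [IsAlgClosed K] (p : K[X]) (hp : Irreducible p) (e : ℕ) :
    ∃ (l : K) (b : Basis (Fin e) K (K[X] ⧸ K[X] ∙ p ^ e)), ∀ j : Fin e,
      (X : K[X]) • b j = l • b j + if h : j.val + 1 < e then b ⟨j + 1, h⟩ else 0 := by
  obtain ⟨l, hl⟩ := IsAlgClosed.exists_root p (degree_pos_of_irreducible hp).ne'
  have ha : Associated (X - C l) p :=
    (irreducible_X_sub_C l).associated_of_dvd hp (dvd_iff_isRoot.2 hl)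
  have hI : Ideal.span {p ^ e} =
      (Ideal.span {(X : K[X]) ^ e}).map (algEquivAevalXAddC (-l) : K[X] →+* K[X]) := by
    rw [Ideal.map_span, Set.image_singleton, Ideal.span_singleton_eq_span_singleton]
    have e1 : (algEquivAevalXAddC (-l) : K[X] →+* K[X]) (X ^ e) = (X - C l) ^ e := by
      simp [algEquivAevalXAddC, sub_eq_add_neg]
    rw [e1]
    exact (ha.pow_pow (n := e)).symm
  let E := Ideal.quotientEquivAlg _ _ (algEquivAevalXAddC (-l)) hI
  let b0 := (AdjoinRoot.powerBasis' (monic_X_pow (R := K) e)).basis.reindex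
    (finCongr (natDegree_X_pow (R := K) e))
  let b : Basis (Fin e) K (K[X] ⧸ Ideal.span {p ^ e}) := b0.map E.toLinearEquiv
  have hb : ∀ j : Fin e, b j = Ideal.Quotient.mk _ ((X - C l) ^ j.val) := by
    intro j
    have h0 : b0 j = Ideal.Quotient.mk (Ideal.span {(X : K[X]) ^ e}) (X ^ j.val) := by
      simp only [b0, Basis.reindex_apply, PowerBasis.coe_basis, map_pow]
      rfl
    change E (b0 j) = _
    rw [h0, Ideal.quotientEquivAlg_mk]
    simp [algEquivAevalXAddC, sub_eq_add_neg]
  refine ⟨l, b, fun j => ?_⟩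
  have h1 : (X : K[X]) • b j = l • b j + Ideal.Quotient.mk _ ((X - C l) ^ (j.val + 1)) := by
    rw [hb]
    change Ideal.Quotient.mk _ (X * (X - C l) ^ j.val) =
      Ideal.Quotient.mk _ (l • (X - C l) ^ j.val) + _
    rw [← map_add, smul_eq_C_mul]
    congr 1
    ring
  refine h1.trans ?_
  congr 1
  split_ifs with h
  · exact (hb ⟨j + 1, h⟩).symm
  · rw [Ideal.Quotient.eq_zero_iff_mem, Ideal.mem_span_singleton]
    have : j.val + 1 = e := by omega
    rw [this]
    exact (ha.pow_pow (n := e)).symm.dvd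

theorem jnf_basis {K V : Type} [Field K] [IsAlgClosed K] [AddCommGroup V] [Module K V]
    [FiniteDimensional K V] (f : V →ₗ[K] V) :
    ∃ (ι : Type) (_ : Fintype ι) (e : ι → ℕ) (l : ι → K) (b : Basis (Σ i, Fin (e i)) K V),
      ∀ i (j : Fin (e i)), f (b ⟨i, j⟩) = l i • b ⟨i, j⟩ +
        if h : j.val + 1 < e i then b ⟨i, ⟨j + 1, h⟩⟩ else 0 := by
  classical
  obtain ⟨ι, _, p, hp, e, ⟨E⟩⟩ := Module.equiv_directSum_of_isTorsion (R := K[X])
    (M := AEval' f) (AEval.isTorsion_of_finiteDimensional K V f)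
  choose l b hb using fun i => quot_basis (p i) (hp i) (e i)
  let E' := E.trans (DirectSum.linearEquivFunOnFintype K[X] ι _)
  let F : V ≃ₗ[K] _ := (AEval'.of f).trans (E'.restrictScalars K)
  have hF : ∀ v, F (f v) = (X : K[X]) • F v := by
    intro v
    change E' (AEval'.of f (f v)) = X • E' (AEval'.of f v)
    rw [← AEval'.X_smul_of, map_smul]
  refine ⟨ι, inferInstance, e, l, (Pi.basis b).map F.symm, fun i j => ?_⟩
  apply F.injective
  rw [hF]
  simp only [Basis.map_apply, LinearEquiv.apply_symm_apply, map_add, map_smul, Pi.basis_apply]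
  rw [← Pi.single_smul, hb, Pi.single_add]
  congr 1
  · exact Pi.single_smul (f := fun i => K[X] ⧸ K[X] ∙ p i ^ e i) i (l i) (b i j)
  split_ifs with h
  · simp
  · simp

theorem jnf' {K : Type} [Field K] [IsAlgClosed K] {r : ℕ} (M : Matrix (Fin r) (Fin r) K) :
    ∃ (g : GL (Fin r) K) (T : Matrix (Fin r) (Fin r) K), M * g.val = g.val * T ∧
      (∀ i j, j < i → T i j = 0) ∧ ∀ i j, i ≠ j → T i j = 0 ∨ (T i j = 1 ∧ T i i = T j j) := by
  classical
  obtain ⟨ι, _, e, l, b, hb⟩ := jnf_basis (Matrix.toLin' M)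
  have hc : Fintype.card (Σ i, Fin (e i)) = r := by
    rw [← finrank_eq_card_basis b]; simp
  let ε0 := (Fintype.equivFinOfCardEq hc).symm
  let φ : Fin r → ℤ := fun k => -((ε0 k).2.val : ℤ)
  let ε := (Tuple.sort φ).trans ε0
  have hmono : ∀ k k', k ≤ k' → (ε k').2.val ≤ (ε k).2.val := by
    intro k k' h
    have : -((ε k).2.val : ℤ) ≤ -((ε k').2.val : ℤ) := Tuple.monotone_sort φ h
    omega
  let c := b.reindex ε.symm
  let T := LinearMap.toMatrix c c (Matrix.toLin' M)
  have hd : ∀ k, T k k = l (ε k).1 := by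
    intro k
    simp only [T, LinearMap.toMatrix_apply, c, Basis.reindex_apply, Basis.repr_reindex_apply,
      Equiv.symm_symm]
    generalize ε k = y
    obtain ⟨i, j⟩ := y
    rw [hb]
    split_ifs with h
    · have : (⟨i, ⟨j + 1, h⟩⟩ : Σ i, Fin (e i)) ≠ ⟨i, j⟩ := by
        intro e
        have := congrArg (fun x : Σ i, Fin (_) => x.2.val) e
        simp at this
      simp [Finsupp.single_apply, this]
    · simp
  have hT : ∀ k k', k ≠ k' → T k k' = 0 ∨
      (T k k' = 1 ∧ (ε k).2.val = (ε k').2.val + 1 ∧ (ε k).1 = (ε k').1) := by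
    intro k k' hk
    have hne : ε k' ≠ ε k := fun h => hk (ε.injective h).symm
    simp only [T, LinearMap.toMatrix_apply, c, Basis.reindex_apply, Basis.repr_reindex_apply,
      Equiv.symm_symm]
    generalize ε k = x at *
    generalize ε k' = y at *
    obtain ⟨i, j⟩ := y
    rw [hb]
    split_ifs with h
    · by_cases hx : x = ⟨i, ⟨j + 1, h⟩⟩
      · right
        subst hx
        simp [Finsupp.single_apply, hne]
      · left
        simp [Finsupp.single_apply, hne, Ne.symm hx]
    · left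
      simp [Finsupp.single_apply, hne]
  let g0 := (Pi.basisFun K (Fin r)).toMatrix c
  have hg : IsUnit g0 := by
    have := (Pi.basisFun K (Fin r)).invertibleToMatrix c
    exact isUnit_of_invertible _
  refine ⟨hg.unit, T, ?_, fun i j h => ?_, fun i j h => ?_⟩
  · change M * g0 = g0 * T
    have h1 : M = LinearMap.toMatrix (Pi.basisFun K (Fin r)) (Pi.basisFun K (Fin r))
        (Matrix.toLin' M) := by simp
    rw [basis_toMatrix_mul_linearMap_toMatrix]
    conv_lhs => rw [h1]
    rw [linearMap_toMatrix_mul_basis_toMatrix]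
  · rcases hT i j h.ne' with h1 | ⟨_, h1, _⟩
    · exact h1
    · have := hmono j i h.le
      omega
  · exact (hT i j h).imp id fun h => ⟨h.1, by rw [hd, hd, h.2.2]⟩

theorem jnf {K : Type} [Field K] [IsAlgClosed K] {r : ℕ} (M : Matrix (Fin r) (Fin r) K) :
    ∃ (g : GL (Fin r) K) (T : Matrix (Fin r) (Fin r) K), M * g.val = g.val * T ∧
      (∀ i j, j < i → T i j = 0) ∧ ∀ i j, i ≠ j → T i j = 0 ∨ T i j = 1 := by
  obtain ⟨g, T, h1, h2, h3⟩ := jnf' M
  exact ⟨g, T, h1, h2, fun i j h => (h3 i j h).imp id And.left⟩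

end P002
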