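import Vale.Agent.P002.Lin
import Vale.Agent.P002.JNF

/-! Bounds for the values of derivations on a handle. -/

namespace P002
open Matrix Module

variable {r : ℕ} {k K : Type} [Field k] [Field K] [Algebra k K]

theorem der_mul (D : Derivation k K K) (M N : Mat r K) :
    (M * N).map D = M.map D * N + M * N.map D := by
  ext i j
  simp only [map_apply, mul_apply, map_sum, Derivation.leibniz, Matrix.add_apply, smul_eq_mul,
    ← Finset.sum_add_distrib]
  exact Finset.sum_congr rfl fun l _ => by ring

theorem der_one (D : Derivation k K K) : (1 : Mat r K).map D = 0 := by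
  ext i j
  by_cases h : i = j <;> simp [one_apply, h]

/-- logarithmic derivative -/
def th (D : Derivation k K K) (g : GL (Fin r) K) : Mat r K := g⁻¹.val * g.val.map D

theorem mul_th (D : Derivation k K K) (g : GL (Fin r) K) : g.val * th D g = g.val.map D := by
  rw [th, ← mul_assoc, Units.mul_inv, one_mul]

theorem th_mul (D : Derivation k K K) (g h : GL (Fin r) K) :
    th D (g * h) = h⁻¹.val * th D g * h.val + th D h := by
  rw [th, Units.val_mul, der_mul, ← mul_th, ← mul_th, _root_.mul_inv_rev, Units.val_mul, mul_add]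
  simp only [mul_assoc, Units.inv_mul_cancel_left]

theorem th_one (D : Derivation k K K) : th D (1 : GL (Fin r) K) = 0 := by
  rw [th, Units.val_one, der_one, mul_zero]

theorem th_inv (D : Derivation k K K) (g : GL (Fin r) K) :
    th D g⁻¹ = -(g.val * th D g * g⁻¹.val) := by
  have := th_mul D g g⁻¹
  rw [mul_inv_cancel, th_one, inv_inv] at this
  exact (neg_eq_of_add_eq_zero_right this.symm).symm

/-- matrices killed by a derivation -/
def KD (D : Derivation k K K) (r : ℕ) : Subgroup (GL (Fin r) K) where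
  carrier := {g | th D g = 0}
  one_mem' := th_one D
  mul_mem' := by
    intro a b ha hb
    simp only [Set.mem_setOf_eq] at ha hb ⊢
    rw [th_mul, ha, hb]; simp
  inv_mem' := by
    intro a ha
    simp only [Set.mem_setOf_eq] at ha ⊢
    rw [th_inv, ha]; simp

theorem mem_KD {D : Derivation k K K} {g : GL (Fin r) K} : g ∈ KD D r ↔ th D g = 0 := Iff.rfl

theorem gm_mem_KD (D : Derivation k K K) (g : GL (Fin r) k) : gm (Algebra.ofId k K) g ∈ KD D r := by
  rw [mem_KD, th]
  have : (gm (Algebra.ofId k K) g).val.map D = 0 := by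
    ext i j
    simp
  rw [this, mul_zero]

/-- differential of the commutator map -/
def nu (A B : GL (Fin r) K) : (Mat r K × Mat r K) →ₗ[K] Mat r K where
  toFun x := B⁻¹.val * x.1 * B.val - x.1 + x.2 - A⁻¹.val * x.2 * A.val
  map_add' x y := by simp only [Prod.fst_add, Prod.snd_add, mul_add, add_mul]; abel
  map_smul' c x := by simp [smul_sub, smul_add]

theorem nu_apply (A B : GL (Fin r) K) (x : Mat r K × Mat r K) :
    nu A B x = B⁻¹.val * x.1 * B.val - x.1 + x.2 - A⁻¹.val * x.2 * A.val := rfl

theorem nu_th (D : Derivation k K K) {A B : GL (Fin r) K} (h : cm A B ∈ KD D r) :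
    nu A B (th D A, th D B) = 0 := by
  have e : cm A B * (B * A) = A * B := by unfold cm; group
  have h1 := th_mul D (cm A B) (B * A)
  rw [e, mem_KD.1 h, th_mul, th_mul] at h1
  rw [nu_apply]
  simp only [mul_zero, zero_mul, zero_add] at h1
  rw [sub_add_eq_add_sub, h1]
  abel

/-- commutator with a fixed matrix -/
def adm (ξ : Mat r K) : Mat r K →ₗ[K] Mat r K := LinearMap.mulRight K ξ - LinearMap.mulLeft K ξ

theorem adm_apply (ξ X : Mat r K) : adm ξ X = X * ξ - ξ * X := rfl

theorem rank_adm (ξ : Mat r K) (h : ¬ ∃ c : K, ξ = c • 1) :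
    r ≤ finrank K (LinearMap.range (adm ξ)) := by
  obtain ⟨v, ψ, h1, h2⟩ : ∃ v ψ : Fin r → K, ψ ⬝ᵥ v = 0 ∧ ψ ⬝ᵥ (ξ *ᵥ v) ≠ 0 := by
    by_contra hc
    push Not at hc
    apply h
    rcases Nat.eq_zero_or_pos r with rfl | hr
    · exact ⟨0, Subsingleton.elim _ _⟩
    have ho : ∀ i j, i ≠ j → ξ i j = 0 := fun i j hij => by
      simpa using hc (Pi.single j 1) (Pi.single i 1) (by simp [hij])
    refine ⟨ξ ⟨0, hr⟩ ⟨0, hr⟩, ?_⟩
    ext i j
    by_cases hij : i = j
    · subst hij
      by_cases hi : i = ⟨0, hr⟩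
      · simp [hi]
      · have := hc (Pi.single i 1 + Pi.single ⟨0, hr⟩ 1) (Pi.single i 1 - Pi.single ⟨0, hr⟩ 1)
          (by simp [hi, Ne.symm hi])
        simp [mulVec_add, ho _ _ hi, ho _ _ (Ne.symm hi), sub_eq_zero] at this
        simpa [add_neg_eq_zero] using this
    · simp [hij, ho i j hij]
  let f0 : (Fin r → K) →ₗ[K] Mat r K :=
    { toFun := fun φ => vecMulVec v φ
      map_add' := fun a b => vecMulVec_add _ _ _
      map_smul' := fun c a => vecMulVec_smul c v a }
  let f := (adm ξ).comp f0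
  have hf : Function.Injective f := by
    rw [← LinearMap.ker_eq_bot, eq_bot_iff]
    intro φ hφ
    have h3 : vecMulVec v φ * ξ - ξ * vecMulVec v φ = 0 := hφ
    have h4 := congrArg (fun M => ψ ᵥ* M) h3
    simp only [vecMul_sub, ← vecMul_vecMul, vecMul_vecMulVec, h1, zero_smul, zero_vecMul,
      vecMul_zero, zero_sub, neg_eq_zero, ← dotProduct_mulVec] at h4
    exact (smul_eq_zero.1 h4).resolve_left h2
  have h5 := LinearMap.finrank_range_of_inj hf
  rw [Module.finrank_fin_fun] at h5
  exact h5.symm.le.trans (Submodule.finrank_mono (LinearMap.range_comp_le_range _ _))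

theorem der_jnf [IsAlgClosed K] (ξ : Mat r K) : ∃ Δ : Submodule K (Mat r K), finrank K Δ ≤ r ∧
    ∀ D : Derivation k K K, ∃ E : Mat r K, ∃ δ ∈ Δ, ξ.map D = adm ξ E + δ ∧
      ∀ A : Mat r K, A * ξ = ξ * A → A * δ = δ * A := by
  obtain ⟨g, T, h1, h2, h3⟩ := jnf' ξ
  let c : (Fin r → K) →ₗ[K] Mat r K := (LinearMap.mulRight K g⁻¹.val).comp
    ((LinearMap.mulLeft K g.val).comp (diagonalLinearMap (Fin r) K K))
  have hc : ∀ d, c d = g.val * diagonal d * g⁻¹.val := fun _ => rfl
  refine ⟨LinearMap.range c, (LinearMap.finrank_range_le c).trans (by simp), fun D => ?_⟩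
  have hT : T.map D = diagonal fun i => D (T i i) := by
    ext i j
    by_cases hij : i = j
    · simp [hij]
    · rcases h3 i j hij with h | h <;> simp [h, hij]
  refine ⟨g.val.map D * g⁻¹.val, c fun i => D (T i i), ⟨_, rfl⟩, ?_, fun A hA => ?_⟩
  · have h4 := congrArg (fun M => M.map D * g⁻¹.val) h1
    simp only [der_mul, add_mul, hT] at h4
    have h5 : g⁻¹.val * ξ = T * g⁻¹.val := by
      rw [← Units.inv_mul_cancel_left g (T * _), ← mul_assoc g.val, ← h1,
        Units.mul_inv_cancel_right]
    rw [Units.mul_inv_cancel_right] at h4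
    rw [adm_apply, hc, mul_assoc _ _ ξ, h5, ← mul_assoc, ← mul_assoc, sub_add_eq_add_sub, ← h4]
    abel
  · set A' := g⁻¹.val * A * g.val with hA'
    have h4 : A' * T = T * A' := by
      have h5 : g⁻¹.val * ξ = T * g⁻¹.val := by
        rw [← Units.inv_mul_cancel_left g (T * _), ← mul_assoc g.val, ← h1,
          Units.mul_inv_cancel_right]
      rw [hA', mul_assoc, ← h1, ← mul_assoc, mul_assoc _ A, hA, ← mul_assoc, h5]
      simp only [mul_assoc]
    have h6 : ∀ n, ∀ i j : Fin r, j.val + (r - i.val) = n → T i i ≠ T j j → A' i j = 0 := by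
      intro n
      induction n using Nat.strong_induction_on with
      | _ n ih =>
        intro i j hn hne
        have h7 := congrFun (congrFun h4 i) j
        rw [mul_apply, mul_apply, Finset.sum_eq_single j, Finset.sum_eq_single i, mul_comm,
          ← sub_eq_zero, ← sub_mul] at h7
        · exact (mul_eq_zero.1 h7).resolve_left (sub_ne_zero.2 hne.symm)
        · intro l _ hl
          rcases h3 i l hl.symm with h | h
          · rw [h, zero_mul]
          · have : i < l := lt_of_le_of_ne (not_lt.1 fun hh => by simp [h2 i l hh] at h) hl.symm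
            rw [ih _ (by have : i.val < l.val := this; have := l.2; omega) l j rfl (h.2 ▸ hne),
              mul_zero]
        · simp
        · intro l _ hl
          rcases h3 l j hl with h | h
          · rw [h, mul_zero]
          · have : l < j := lt_of_le_of_ne (not_lt.1 fun hh => by simp [h2 l j hh] at h) hl
            rw [ih _ (by have : l.val < j.val := this; omega) i l rfl (h.2 ▸ hne), zero_mul]
        · simp
    have h8 : A' * diagonal (fun i => D (T i i)) = diagonal (fun i => D (T i i)) * A' := by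
      ext i j
      rw [mul_diagonal, diagonal_mul]
      by_cases h : T i i = T j j
      · rw [h, mul_comm]
      · rw [h6 _ i j rfl h, mul_zero, zero_mul]
    have h9 := congrArg (fun M => g.val * M * g⁻¹.val) h8
    simp only [hA', mul_assoc, Units.mul_inv_cancel_left, Units.mul_inv, mul_one] at h9
    simpa only [hc, mul_assoc] using h9

theorem bound1 [IsAlgClosed K] (A B : GL (Fin r) K) (ξ : Mat r K) (hA : A.val * ξ = ξ * A.val)
    (hB : B.val * ξ = ξ * B.val) (h : ¬ ∃ c : K, ξ = c • 1) :
    ∃ S : Submodule K (Mat r K × Mat r K), finrank K S + r ≤ 2 * (r * r) ∧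
      ∀ D : Derivation k K K, (th D A, th D B) ∈ S := by
  let Φ : (Mat r K × Mat r K) →ₗ[K] (Mat r K × Mat r K) :=
    ((adm ξ).comp (LinearMap.mulLeft K A.val)).prodMap ((adm ξ).comp (LinearMap.mulLeft K B.val))
  let Ψ : Mat r K →ₗ[K] (Mat r K × Mat r K) := (adm A.val).prod (adm B.val)
  let T := (LinearMap.range (adm ξ)).map Ψ
  let Z := LinearMap.ker (adm ξ)
  refine ⟨T.comap Φ, ?_, fun D => ?_⟩
  · have h1 : finrank K (T.comap Φ) ≤ finrank K T + finrank K (Z.prod Z) :=
      fr_le Φ ((LinearMap.mulLeft K A.val).prodMap (LinearMap.mulLeft K B.val))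
      (T.comap Φ) T (Z.prod Z) (fun v hv => hv)
      (fun v _ hv => ⟨congrArg Prod.fst hv, congrArg Prod.snd hv⟩)
      (fun v _ _ hv => Prod.ext ((Units.mul_right_eq_zero A).1 (congrArg Prod.fst hv))
        ((Units.mul_right_eq_zero B).1 (congrArg Prod.snd hv)))
    have h2 : finrank K (Z.prod Z) ≤ finrank K Z + finrank K Z :=
      fr_le (LinearMap.fst K _ _) (LinearMap.snd K _ _) (Z.prod Z) Z Z (fun v hv => hv.1)
      (fun v hv _ => hv.2) (fun v _ h1 h2 => Prod.ext h1 h2)
    have h3 : finrank K T ≤ _ := Submodule.finrank_map_le Ψ (LinearMap.range (adm ξ))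
    have h4 := LinearMap.finrank_range_add_finrank_ker (adm ξ)
    have h5 := rank_adm ξ h
    rw [finrank_Mat] at h4
    change _ + finrank K Z = _ at h4
    omega
  · obtain ⟨Δ, -, hΔ⟩ := der_jnf (k := k) ξ
    obtain ⟨E, δ, -, h1, h2⟩ := hΔ D
    have key : ∀ C : GL (Fin r) K, C.val * ξ = ξ * C.val →
        adm C.val (adm ξ E) = adm ξ (C.val * th D C) := by
      intro C hC
      have h3 := congrArg (fun M => M.map D) hC
      simp only [der_mul, h1, mul_add, add_mul, h2 _ hC] at h3
      rw [mul_th, adm_apply, adm_apply (X := C.val.map D), sub_eq_sub_iff_add_eq_add]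
      rw [← add_assoc, add_right_comm _ (δ * _), add_left_inj] at h3
      exact h3.symm
    exact ⟨adm ξ E, ⟨E, rfl⟩, Prod.ext (key A hA) (key B hB)⟩

theorem bound2 [IsAlgClosed K] (a b : GL (Fin r) K) :
    ∃ S : Submodule K (Mat r K × Mat r K), finrank K S ≤ r * r + r ∧
      ∀ D : Derivation k K K, cm a b ∈ KD D r → (th D a, th D b) ∈ S := by
  obtain ⟨Δ, hd, hΔ⟩ := der_jnf (k := k) b.val
  let f : (Mat r K × Mat r K) →ₗ[K] Mat r K := (LinearMap.mulLeft K b.val).comp (LinearMap.snd K _ _)
  let T := LinearMap.range (adm b.val) ⊔ Δ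
  refine ⟨LinearMap.ker (nu a b) ⊓ T.comap f, ?_, fun D hD => ⟨nu_th D hD, ?_⟩⟩
  · have h1 := fr_le f (LinearMap.fst K _ _) (LinearMap.ker (nu a b) ⊓ T.comap f) T
      (LinearMap.ker (adm b.val)) (fun v hv => hv.2) (fun v hv h0 => by
        have h2 : v.2 = 0 := (Units.mul_right_eq_zero b).1 h0
        have h3 : nu a b v = 0 := hv.1
        rw [nu_apply, h2, mul_zero, zero_mul, add_zero, sub_zero, sub_eq_zero] at h3
        change v.1 * b.val - b.val * v.1 = 0
        conv_lhs => rw [← h3]
        rw [h3, ← Units.mul_inv_cancel_left b (v.1 * b.val), ← mul_assoc b⁻¹.val, h3, sub_self])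
      (fun v _ h1 h2 => Prod.ext h2 ((Units.mul_right_eq_zero b).1 h1))
    have h2 := Submodule.finrank_add_le_finrank_add_finrank (LinearMap.range (adm b.val)) Δ
    have h4 := LinearMap.finrank_range_add_finrank_ker (adm b.val)
    rw [finrank_Mat] at h4
    change finrank K T ≤ _ at h2
    omega
  · obtain ⟨E, δ, h0, h1, -⟩ := hΔ D
    change b.val * th D b ∈ T
    rw [mul_th, h1]
    exact Submodule.add_mem_sup ⟨E, rfl⟩ h0

theorem bound3 (A B : GL (Fin r) K) (h : ∀ ξ : Mat r K, A.val * ξ = ξ * A.val →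
    B.val * ξ = ξ * B.val → ∃ c : K, ξ = c • 1) :
    finrank K (LinearMap.ker (nu A B)) ≤ r * r + 1 := by
  have h1 := fr_ann (LinearMap.range (nu A B)) (K ∙ 1) fun ξ hξ => by
    have e : ∀ (C : GL (Fin r) K), (∀ X, trace (ξ * (C⁻¹.val * X * C.val - X)) = 0) →
        C.val * ξ = ξ * C.val := by
      intro C hC
      have : C.val * ξ * C⁻¹.val = ξ := by
        refine ext_iff_trace_mul_right.2 fun X => ?_
        have := hC X
        rw [mul_sub, trace_sub, sub_eq_zero, ← mul_assoc, trace_mul_comm] at this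
        rw [← this]
        simp only [mul_assoc]
      rw [← this, Units.inv_mul_cancel_right, this]
    obtain ⟨c, hc⟩ := h ξ (e A fun X => by
      have := hξ _ ⟨(0, -X), rfl⟩
      rw [← this, nu_apply]
      simp [sub_eq_add_neg, add_comm]) (e B fun X => by
      have := hξ _ ⟨(X, 0), rfl⟩
      rw [← this, nu_apply]
      simp)
    exact Submodule.mem_span_singleton.2 ⟨c, hc.symm⟩
  have h2 : finrank K (K ∙ (1 : Mat r K)) ≤ 1 := finrank_span_le_card _ |>.trans (by simp)
  have h3 := LinearMap.finrank_range_add_finrank_ker (nu A B)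
  rw [Module.finrank_prod, finrank_Mat] at h3
  omega

theorem ker_nu_ge (A B : GL (Fin r) K) (e : Fin r) :
    r * r + 1 ≤ finrank K (LinearMap.ker (nu A B)) := by
  have h1 : LinearMap.range (nu A B) < ⊤ := by
    rw [lt_top_iff_ne_top]
    intro h
    obtain ⟨x, hx⟩ : single e e (1 : K) ∈ LinearMap.range (nu A B) := h ▸ Submodule.mem_top
    have := congrArg trace hx
    rw [nu_apply, trace_sub, trace_add, trace_sub, trace_units_conj', trace_units_conj'] at this
    simp at this
  have h2 := Submodule.finrank_lt_finrank_of_lt h1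
  have h3 := LinearMap.finrank_range_add_finrank_ker (nu A B)
  rw [Module.finrank_prod, finrank_Mat] at h3
  rw [finrank_top, finrank_Mat] at h2
  omega

end P002
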