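import Vale.Agent.P002.Bounds

/-! The chart on the last handle. -/

namespace P002
open Matrix Module

variable {r : ℕ} {k K : Type} [Field k] [Field K]

/-- the all ones vector is cyclic -/
def Cy (B : Mat r K) : Prop :=
  ∀ c : Fin r → K, (∀ n : ℕ, ∑ a, c a * (B ^ n *ᵥ 1) a = 0) → c = 0

def Ch (A B : Mat r K) (e : Fin r) : Prop :=
  ∀ c : Fin r → K, ∑ a, c a * B e a = 0 →
    (∀ n : ℕ, ∑ a, c a * (A * B ^ n * adjugate A - A.det • B ^ n) e a = 0) → c = 0

def Sp (A B : Mat r K) : Prop :=
  ∀ c : Fin r × Fin r → K, (∀ i j : ℕ, ∑ a, c a * (B ^ i * A * B ^ j) a.1 a.2 = 0) → c = 0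

/-- free entries of the last matrix -/
abbrev Sx (e : Fin r) := {v : Fin r × Fin r // v.2 ≠ e ∨ v.1 = e}

theorem card_Sx (e : Fin r) : Fintype.card (Sx e) + r = r * r + 1 := by
  have h1 := Fintype.card_subtype_compl fun v : Fin r × Fin r => v.2 ≠ e ∨ v.1 = e
  have h2 := Fintype.card_subtype_le fun v : Fin r × Fin r => v.2 ≠ e ∨ v.1 = e
  have h3 : Fintype.card {v : Fin r × Fin r // ¬ (v.2 ≠ e ∨ v.1 = e)} =
      Fintype.card {i : Fin r // ¬ i = e} := Fintype.card_congr
    { toFun := fun v => ⟨v.1.1, fun h => v.2 (Or.inr h)⟩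
      invFun := fun i => ⟨(i.1, e), by simpa using i.2⟩
      left_inv := fun v => Subtype.ext (Prod.ext rfl (by
        have := v.2
        push Not at this
        exact this.1.symm))
      right_inv := fun _ => rfl }
  rw [Fintype.card_subtype_compl fun i : Fin r => i = e, Fintype.card_subtype_eq,
    Fintype.card_fin] at h3
  simp only [Fintype.card_prod, Fintype.card_fin] at h1 h2
  have := e.2
  change Fintype.card {v : Fin r × Fin r // v.2 ≠ e ∨ v.1 = e} + r = _
  omega

theorem Cy.eq_zero {B ζ : Mat r K} (h : Cy B) (hc : ζ * B = B * ζ) (h1 : ζ *ᵥ 1 = 0) : ζ = 0 := by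
  ext i j
  refine congrFun (h (ζ i) fun n => ?_) j
  have : (ζ *ᵥ (B ^ n *ᵥ 1)) i = 0 := by
    rw [mulVec_mulVec, ((show Commute ζ B from hc).pow_right n).eq, ← mulVec_mulVec, h1]
    simp
  exact this

theorem Cy.adm {B ζ : GL (Fin r) K} (h : Cy B.val) (hc : ζ * B = B * ζ) : Adm B ζ := by
  have hs := span_top_of_ann (Set.range fun n : ℕ => B.val ^ n *ᵥ 1) fun c hc =>
    h c fun n => hc _ ⟨n, rfl⟩
  obtain ⟨t, ht⟩ := Finsupp.mem_span_range_iff_exists_finsupp.1
    (hs ▸ Submodule.mem_top : ζ.val *ᵥ 1 ∈ _)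
  have h1 : ζ.val - t.sum (fun n a => a • B.val ^ n) = 0 := by
    refine h.eq_zero ?_ ?_
    · have h2 : Commute ζ.val B.val := congrArg Units.val hc
      exact (h2.sub_left (Commute.sum_left _ _ _ fun n _ =>
        ((Commute.refl B.val).pow_left n).smul_left _)).eq
    · rw [sub_mulVec, ← ht, Finsupp.sum, Finsupp.sum, sum_mulVec, sub_eq_zero]
      simp [smul_mulVec]
  rw [Adm, sub_eq_zero.1 h1]
  exact Subalgebra.sum_mem _ fun i _ => Subalgebra.smul_mem _
    (Subalgebra.pow_mem _ (Algebra.self_mem_adjoin_singleton _ _) _) _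

theorem adjugate_val (A : GL (Fin r) K) : adjugate A.val = A.val.det • A⁻¹.val := by
  rw [← Units.inv_mul_cancel_left A (adjugate A.val), mul_adjugate]
  simp

theorem Ch.use {A B : GL (Fin r) K} {e : Fin r} (h : Ch A.val B.val e) (v : Fin r → K)
    (h0 : (B.val *ᵥ v) e = 0)
    (h1 : ∀ n : ℕ, ((A.val * B.val ^ (n + 1) * A⁻¹.val) *ᵥ v) e = (B.val ^ (n + 1) *ᵥ v) e) :
    v = 0 := by
  refine h v (by simpa [mulVec, dotProduct, mul_comm] using h0) fun n => ?_
  have : ((A.val * B.val ^ n * adjugate A.val - A.val.det • B.val ^ n) *ᵥ v) e = 0 := by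
    rw [adjugate_val, Matrix.mul_smul, ← smul_sub, smul_mulVec, Pi.smul_apply, sub_mulVec,
      Pi.sub_apply]
    cases n with
    | zero => simp
    | succ n => rw [h1, sub_self, smul_zero]
  simpa [mulVec, dotProduct, mul_comm] using this

theorem eq_vecMulVec {X : Mat r K} {e : Fin r} (h : ∀ v : Sx e, X v.1.1 v.1.2 = 0) :
    X = vecMulVec (fun i => X i e) (Pi.single e 1) ∧ X e e = 0 := by
  refine ⟨?_, h ⟨(e, e), Or.inr rfl⟩⟩
  ext i j
  by_cases hj : j = e
  · simp [vecMulVec_apply, hj]
  · simp [vecMulVec_apply, hj, h ⟨(i, j), Or.inl hj⟩]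

theorem trace_mul_vecMulVec (M : Mat r K) (v : Fin r → K) (e : Fin r) :
    trace (M * vecMulVec v (Pi.single e 1)) = (M *ᵥ v) e := by
  rw [mul_vecMulVec, trace_vecMulVec]; simp

theorem bound4 (A B : GL (Fin r) K) (e : Fin r) (h1 : Cy B.val) (h2 : Ch A.val B.val e)
    (c : Sx e → K) : ∃ x, nu A B x = 0 ∧ ∀ v : Sx e, (B.val * x.2) v.1.1 v.1.2 = c v := by
  let f : (Mat r K × Mat r K) →ₗ[K] (Sx e → K) :=
    { toFun := fun x v => (B.val * x.2) v.1.1 v.1.2
      map_add' := fun a b => by ext v; simp [mul_add]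
      map_smul' := fun a b => by ext v; simp }
  let g : (Mat r K × Mat r K) →ₗ[K] (Fin r → K) :=
    { toFun := fun x => x.1 *ᵥ 1
      map_add' := fun a b => add_mulVec _ _ _
      map_smul' := fun a b => smul_mulVec _ _ _ }
  obtain ⟨x, hx, e1⟩ := (fr_eq f g (LinearMap.ker (nu A B)) ⊤ ⊤ (fun _ _ => trivial)
    (fun _ _ _ => trivial) (fun x hx hf hg => by
      have hx : nu A B x = 0 := hx
      obtain ⟨h3, h4⟩ := eq_vecMulVec (X := B.val * x.2) (congrFun hf)
      set u : Fin r → K := fun i => (B.val * x.2) i e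
      have h5 : x.2 = vecMulVec (B⁻¹.val *ᵥ u) (Pi.single e 1) := by
        rw [← mul_vecMulVec, ← h3, Units.inv_mul_cancel_left]
      have h6 : B⁻¹.val *ᵥ u = 0 := by
        refine h2.use _ (by rw [mulVec_mulVec, Units.mul_inv, one_mulVec]; exact h4) fun n => ?_
        have h7 := congrArg (fun X => trace (B.val ^ (n + 1) * X)) hx
        simp only [nu_apply, mul_sub, mul_add, trace_sub, trace_add, mul_zero, trace_zero] at h7
        have h8 : trace (B.val ^ (n + 1) * (B⁻¹.val * x.1 * B.val)) =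
            trace (B.val ^ (n + 1) * x.1) := by
          rw [← mul_assoc, trace_mul_comm, ← mul_assoc, ← mul_assoc, ← pow_succ', pow_succ _ (n + 1),
            Units.mul_inv_cancel_right]
        rw [h8, sub_self, zero_add, sub_eq_zero, ← mul_assoc, trace_mul_comm _ A.val, ← mul_assoc,
          ← mul_assoc, h5, trace_mul_vecMulVec, trace_mul_vecMulVec] at h7
        exact h7.symm
      rw [h6, zero_vecMulVec] at h5
      rw [nu_apply, h5, mul_zero, zero_mul, add_zero, sub_zero, sub_eq_zero] at hx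
      refine Prod.ext (h1.eq_zero ?_ hg) h5
      rw [← Units.mul_inv_cancel_left B (x.1 * B.val), ← mul_assoc B⁻¹.val, hx]) (by
      have := ker_nu_ge A B e
      have := card_Sx e
      simp only [finrank_top, Module.finrank_fintype_fun_eq_card, Fintype.card_fin]
      omega)).1 c trivial
  exact ⟨x, hx, congrFun e1⟩

open PowerSeries in
theorem det_rank_one (M : Mat r K) (u : Fin r → K) (e : Fin r) :
    (1 - (X : K⟦X⟧) • (M + vecMulVec u (Pi.single e 1)).map C).det =
      (1 - (X : K⟦X⟧) • M.map C).det * (1 - X * mk fun n => (M ^ n *ᵥ u) e) := by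
  let G : Mat r K⟦X⟧ := Matrix.of fun i j => mk fun n => (M ^ n) i j
  have hG : (1 - (X : K⟦X⟧) • M.map C) * G = 1 := by
    rw [sub_mul, one_mul, smul_mul_assoc]
    ext i j n
    cases n with
    | zero => simp [G, one_apply, apply_ite]
    | succ n =>
      simp only [G, Matrix.sub_apply, Matrix.smul_apply, smul_eq_mul, map_sub, coeff_succ_X_mul,
        of_apply, coeff_mk, mul_apply, map_apply, map_sum, coeff_C_mul, pow_succ']
      simp [one_apply, apply_ite, coeff_one]
  have h1 : 1 - (X : K⟦X⟧) • (M + vecMulVec u (Pi.single e 1)).map C =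
      (1 - (X : K⟦X⟧) • M.map C) *
        (1 + vecMulVec (-((X : K⟦X⟧) • (G *ᵥ fun i => C (u i)))) (Pi.single e 1)) := by
    rw [mul_add, mul_one, mul_vecMulVec, mulVec_neg, mulVec_smul, mulVec_mulVec, hG, one_mulVec]
    refine Matrix.ext fun i j => ?_
    by_cases hj : j = e
    · simp [vecMulVec_apply, hj]; ring
    · simp [vecMulVec_apply, hj]
  rw [h1, det_mul, vecMulVec_eq Unit, det_one_add_replicateCol_mul_replicateRow]
  congr 1
  rw [single_dotProduct, one_mul, Pi.neg_apply, ← sub_eq_add_neg, Pi.smul_apply, smul_eq_mul]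
  congr 2
  ext n
  simp [G, mulVec, dotProduct, coeff_mul_C]

open PowerSeries in
theorem det_conj_aux (A : GL (Fin r) K) (M : Mat r K) :
    (1 - (X : K⟦X⟧) • (A.val * M * A⁻¹.val).map C).det = (1 - (X : K⟦X⟧) • M.map C).det := by
  have h : A.val.map (C (R := K)) * A⁻¹.val.map C = 1 := by
    rw [← Matrix.map_mul, Units.mul_inv, Matrix.map_one _ (map_zero _) (map_one _)]
  have : 1 - (X : K⟦X⟧) • (A.val * M * A⁻¹.val).map C =
      A.val.map C * (1 - (X : K⟦X⟧) • M.map C) * A⁻¹.val.map C := by
    rw [mul_sub, sub_mul, mul_one, h, Matrix.map_mul, Matrix.map_mul]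
    simp
  rw [this, det_mul, det_mul, mul_right_comm, ← det_mul, h, det_one, one_mul]

theorem last_unique {A B A' B' : GL (Fin r) K} {e : Fin r} (h : Ch A.val B.val e)
    (hc : cm A B = cm A' B') (hS : ∀ v : Sx e, B'.val v.1.1 v.1.2 = B.val v.1.1 v.1.2) :
    B' = B := by
  obtain ⟨h3, h4⟩ := eq_vecMulVec (X := B'.val - B.val) (e := e) fun v => by simp [hS v]
  set u : Fin r → K := fun i => (B'.val - B.val) i e
  have h5 : B'.val = B.val + vecMulVec u (Pi.single e 1) := by rw [← h3]; abel
  have e1 : (cm A B).val * B.val = A.val * B.val * A⁻¹.val := by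
    simp only [← Units.val_mul]; congr 1; unfold cm; group
  have e2 : (cm A B).val * B'.val = A'.val * B'.val * A'⁻¹.val := by
    simp only [← Units.val_mul, hc]; congr 1; unfold cm; group
  have h6 := det_rank_one B.val u e
  have h7 := det_rank_one ((cm A B).val * B.val) ((cm A B).val *ᵥ u) e
  rw [← h5] at h6
  rw [← mul_vecMulVec, ← mul_add, ← h5, e2, det_conj_aux, e1, det_conj_aux, h6] at h7
  have h8 : (1 - (PowerSeries.X : PowerSeries K) • B.val.map PowerSeries.C).det ≠ 0 := by
    intro h0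
    have := congrArg PowerSeries.constantCoeff h0
    rw [RingHom.map_det] at this
    have e3 : PowerSeries.constantCoeff.mapMatrix
        (1 - (PowerSeries.X : PowerSeries K) • B.val.map PowerSeries.C) = 1 := by
      ext i j; simp [one_apply, apply_ite]
    simp [e3] at this
  have h9 := mul_left_cancel₀ PowerSeries.X_ne_zero (sub_right_injective (mul_left_cancel₀ h8 h7))
  have h10 : B⁻¹.val *ᵥ u = 0 := by
    refine h.use _ (by rw [mulVec_mulVec, Units.mul_inv, one_mulVec]; exact h4) fun n => ?_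
    have := congrArg (PowerSeries.coeff n) h9
    rw [PowerSeries.coeff_mk, PowerSeries.coeff_mk] at this
    have e4 : A.val * B.val ^ (n + 1) * A⁻¹.val * B⁻¹.val =
        (A.val * B.val * A⁻¹.val) ^ n * (cm A B).val := by
      simp only [← Units.val_mul, ← Units.val_pow_eq_pow_val, conj_pow]
      congr 1
      unfold cm; group
    rw [mulVec_mulVec, mulVec_mulVec, e4, pow_succ _ n, Units.mul_inv_cancel_right, this,
      mulVec_mulVec]
  have h11 : u = 0 := by
    rw [← one_mulVec u, ← B.mul_inv, ← mulVec_mulVec, h10, mulVec_zero]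
  rw [h11, zero_vecMulVec, add_zero] at h5
  exact Units.ext h5

section generic
variable [Algebra k K] [CharZero k]

theorem map_pow' {R S : Type} [CommRing R] [CommRing S] (φ : R →+* S) (M : Mat r R) (n : ℕ) :
    (M ^ n).map φ = M.map φ ^ n := map_pow φ.mapMatrix M n

theorem generic_chart (A B : Mat r K) (e : Fin r)
    (h : AlgebraicIndependent k fun v : Bool × Fin r × Fin r => (if v.1 then B else A) v.2.1 v.2.2) :
    Cy B ∧ Ch A B e ∧ Sp A B := by
  let R := MvPolynomial (Bool × Fin r × Fin r) k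
  let a : Mat r R := Matrix.of fun i j => MvPolynomial.X (false, i, j)
  let b : Mat r R := Matrix.of fun i j => MvPolynomial.X (true, i, j)
  let ev : ∀ {Λ : Type} [Field Λ] [Algebra k Λ], Mat r Λ → Mat r Λ → R →+* Λ := fun A B =>
    (MvPolynomial.aeval fun v : Bool × Fin r × Fin r =>
      (if v.1 then B else A) v.2.1 v.2.2 : R →ₐ[k] _).toRingHom
  have ha : ∀ {Λ : Type} [Field Λ] [Algebra k Λ] (A B : Mat r Λ), a.map (ev A B) = A := by
    intro Λ _ _ A B; ext i j; exact MvPolynomial.aeval_X _ _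
  have hb : ∀ {Λ : Type} [Field Λ] [Algebra k Λ] (A B : Mat r Λ), b.map (ev A B) = B := by
    intro Λ _ _ A B; ext i j; exact MvPolynomial.aeval_X _ _
  have key : ∀ {ι κ : Type} [Fintype κ] (v : ι → κ → R) (A0 B0 : Mat r k),
      (∀ c : κ → k, (∀ i, ∑ x, c x * ev A0 B0 (v i x) = 0) → c = 0) →
      ∀ c : κ → K, (∀ i, ∑ x, c x * ev A B (v i x) = 0) → c = 0 := by
    intro ι κ _ v A0 B0 h0 c hc
    obtain ⟨δ, h1, h2⟩ := semi v (fun _ => 1) (ev A0 B0) fun c hc => h0 c fun i => hc i (by simp)
    refine h2 K (ev A B) (fun h3 => h1 ?_) c fun i _ => hc i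
    rw [h.eq_zero_of_aeval_eq_zero δ h3, map_zero]
  let β : Fin r → k := fun i => (i.val : k) + 1
  have hβ : Function.Injective β := fun i j h => Fin.ext (by simpa [β] using h)
  have hβ0 : ∀ i, β i ≠ 0 := fun i => Nat.cast_add_one_ne_zero _
  have van : ∀ c : Fin r → k, (∀ n : ℕ, ∑ x, c x * β x ^ n = 0) → c = 0 := fun c hc =>
    eq_zero_of_forall_pow_sum_mul_pow_eq_zero hβ fun i => hc i
  refine ⟨fun c hc => ?_, fun c hc0 hc => ?_, fun c hc => ?_⟩
  · have e1 : ∀ {Λ : Type} [Field Λ] [Algebra k Λ] (A B : Mat r Λ) (n : ℕ) (x : Fin r),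
        ev A B ((b ^ n *ᵥ 1) x) = (B ^ n *ᵥ 1) x := by
      intro Λ _ _ A B n x
      have e0 : (ev A B) ∘ (1 : Fin r → R) = 1 := by ext; simp
      rw [RingHom.map_mulVec, map_pow', hb, e0]
    refine key (fun n x => (b ^ n *ᵥ 1) x) 1 (diagonal β) (fun c hc => van c fun n => ?_) c
      fun n => by simpa only [e1] using hc n
    simpa [e1, diagonal_pow, mulVec_diagonal] using hc n
  · have e1 : ∀ {Λ : Type} [Field Λ] [Algebra k Λ] (A B : Mat r Λ) (n : ℕ) (x : Fin r),
        ev A B ((a * b ^ n * adjugate a - a.det • b ^ n) e x) =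
          (A * B ^ n * adjugate A - A.det • B ^ n) e x := by
      intro Λ _ _ A B n x
      have e2 : (adjugate a).map (ev A B) = adjugate A := by
        rw [← RingHom.mapMatrix_apply, RingHom.map_adjugate, RingHom.mapMatrix_apply, ha]
      have e3 : ev A B a.det = A.det := by rw [RingHom.map_det, RingHom.mapMatrix_apply, ha]
      rw [Matrix.sub_apply, Matrix.sub_apply, Matrix.smul_apply, Matrix.smul_apply, map_sub,
        smul_eq_mul, map_mul, e3, ← map_apply (f := ev A B), ← map_apply (f := ev A B),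
        Matrix.map_mul, Matrix.map_mul, map_pow', ha, hb, e2, smul_eq_mul]
    have e2 : ∀ {Λ : Type} [Field Λ] [Algebra k Λ] (A B : Mat r Λ) (x : Fin r),
        ev A B (b e x) = B e x := fun A B x => congrFun (congrFun (hb A B) e) x
    refine key (fun (n : Option ℕ) x => n.elim (b e x)
      fun n => (a * b ^ n * adjugate a - a.det • b ^ n) e x) (vandermonde β) (diagonal β)
      (fun c hc => ?_) c fun n => by
        cases n with
        | none => simpa only [Option.elim, e2] using hc0
        | some n => simpa only [Option.elim, e1] using hc n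
    have h1 : c e = 0 := by
      have := hc none
      simp only [Option.elim, e2] at this
      rw [Finset.sum_eq_single e (fun x _ hx => by simp [hx.symm]) (by simp)] at this
      simpa [hβ0] using this
    have h2 : adjugate (vandermonde β) *ᵥ c = 0 := by
      have := van (fun x => β e ^ x.val * (adjugate (vandermonde β) *ᵥ c) x) fun n => by
        have := hc (some n)
        simp only [Option.elim, e1] at this
        have h3 : ((vandermonde β * diagonal β ^ n * adjugate (vandermonde β) -
            (vandermonde β).det • diagonal β ^ n) *ᵥ c) e = 0 := by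
          simpa [mulVec, dotProduct, mul_comm] using this
        rw [sub_mulVec, smul_mulVec, ← mulVec_mulVec, diagonal_pow] at h3
        simp only [Pi.sub_apply, Pi.smul_apply, mulVec_diagonal, h1, mul_zero, smul_zero,
          sub_zero] at h3
        rw [← h3]
        generalize adjugate (vandermonde β) *ᵥ c = w
        simp [mulVec, dotProduct, mul_diagonal, vandermonde_apply, mul_right_comm]
      ext x
      simpa [hβ0] using congrFun this x
    have h3 := congrArg (vandermonde β *ᵥ ·) h2
    simp only [mulVec_mulVec, mul_adjugate, mulVec_zero, smul_mulVec, one_mulVec] at h3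
    exact (smul_eq_zero.1 h3).resolve_left (det_vandermonde_ne_zero_iff.2 hβ)
  · have e1 : ∀ {Λ : Type} [Field Λ] [Algebra k Λ] (A B : Mat r Λ) (i j : ℕ) (x y : Fin r),
        ev A B ((b ^ i * a * b ^ j) x y) = (B ^ i * A * B ^ j) x y := by
      intro Λ _ _ A B i j x y
      rw [← map_apply (f := ev A B), Matrix.map_mul, Matrix.map_mul, map_pow', map_pow', ha, hb]
    refine key (fun (n : ℕ × ℕ) (x : Fin r × Fin r) => (b ^ n.1 * a * b ^ n.2) x.1 x.2)
      (Matrix.of fun _ _ => 1) (diagonal β) (fun c hc => ?_) c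
      fun n => by simpa only [e1] using hc n.1 n.2
    ext ⟨x, y⟩
    refine congrFun (van (fun y => c (x, y)) fun j => ?_) y
    refine congrFun (van (fun x => ∑ y, c (x, y) * β y ^ j) fun i => ?_) x
    have := hc (i, j)
    simp only [e1, diagonal_pow, mul_diagonal, diagonal_mul, Fintype.sum_prod_type] at this
    rw [← this]
    simp [Finset.sum_mul, mul_right_comm, mul_assoc]

end generic

end P002
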