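import Vale.Agent.P002.Defs

/-! Units of the order generated by an integral matrix are Zariski dense. -/

namespace P002
open NumberField Polynomial

section nt
variable {L K : Type} [Field L] [NumberField L] [Field K] [NumberField K] [Algebra L K]

open InfinitePlace Units.dirichletUnitTheorem in
theorem exp_unique (i : L) (hi : i ^ 2 = -1) (h3 : 3 ≤ Module.finrank ℚ L)
    (a b : (K ≃ₐ[L] K) → ℕ)
    (h : ∀ u : (𝓞 K)ˣ, ∏ τ : K ≃ₐ[L] K, τ (u : K) ^ a τ = ∏ τ : K ≃ₐ[L] K, τ (u : K) ^ b τ) :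
    a = b := by
  classical
  have hc : 1 < Fintype.card (InfinitePlace L) := by
    have := card_add_two_mul_card_eq_rank L
    have := card_eq_nrRealPlaces_add_nrComplexPlaces L
    omega
  obtain ⟨v, hv⟩ := Fintype.exists_ne_of_one_lt_card hc ((w₀ (K := K)).comap (algebraMap L K))
  obtain ⟨w, hw⟩ := comap_surjective (K := K) v
  let W : (K ≃ₐ[L] K) → {w : InfinitePlace K // w ≠ w₀} := fun τ =>
    ⟨w.comap (τ : K →+* K), fun e => hv (by
      rw [← e, ← comap_comp, ← hw]
      congr 1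
      ext x; simp)⟩
  have hW : Function.Injective W := by
    intro τ τ' e
    have e1 : mk (w.embedding.comp (τ : K →+* K)) = mk (w.embedding.comp (τ' : K →+* K)) := by
      rw [← comap_mk, ← comap_mk, mk_embedding]
      exact congrArg Subtype.val e
    rcases mk_eq_iff.1 e1 with e2 | e2
    · ext x
      exact w.embedding.injective (DFunLike.congr_fun e2 x)
    · exfalso
      have e3 := DFunLike.congr_fun e2 (algebraMap L K i)
      simp only [ComplexEmbedding.conjugate_coe_eq, RingHom.coe_comp, RingHom.coe_coe,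
        Function.comp, AlgEquiv.commutes] at e3
      have e4 : w.embedding (algebraMap L K i) ^ 2 = -1 := by
        rw [← map_pow, ← map_pow, hi]; simp
      obtain ⟨x, hx⟩ := Complex.conj_eq_iff_real.1 e3
      rw [hx] at e4
      have : x ^ 2 = -1 := by exact_mod_cast e4
      nlinarith [sq_nonneg x]
  let ℓ : logSpace K →ₗ[ℝ] ℝ := ∑ τ, (((a τ : ℝ) - b τ) / mult (W τ).1) • LinearMap.proj (W τ)
  have h1 : Submodule.span ℝ (Units.unitLattice K : Set (logSpace K)) ≤ LinearMap.ker ℓ := by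
    rw [Submodule.span_le]
    rintro _ ⟨u, -, rfl⟩
    have h2 := congrArg (fun x => Real.log (w x)) (h (Additive.toMul u))
    have h4 : ∀ τ : K ≃ₐ[L] K, w (τ ((Additive.toMul u : (𝓞 K)ˣ) : K)) ≠ 0 := fun τ => by simp
    simp only [map_prod, map_pow] at h2
    rw [Real.log_prod fun τ _ => pow_ne_zero _ (h4 τ),
      Real.log_prod fun τ _ => pow_ne_zero _ (h4 τ), ← sub_eq_zero, ← Finset.sum_sub_distrib] at h2
    rw [SetLike.mem_coe, LinearMap.mem_ker, ← h2]
    simp only [ℓ, LinearMap.sum_apply, LinearMap.smul_apply, LinearMap.proj_apply]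
    refine Finset.sum_congr rfl fun τ _ => ?_
    change _ * ((mult (W τ).1 : ℝ) * Real.log (w (τ ((Additive.toMul u : (𝓞 K)ˣ) : K)))) = _
    rw [Real.log_pow, Real.log_pow]
    field_simp [mult_coe_ne_zero]
  ext τ
  have h2 : ℓ (Pi.single (W τ) 1) = 0 := h1 (unitLattice_span_eq_top K ▸ Submodule.mem_top)
  simp only [ℓ, LinearMap.sum_apply, LinearMap.smul_apply, LinearMap.proj_apply] at h2
  rw [Finset.sum_eq_single τ (fun σ _ hσ => by simp [hW.ne hσ]) (by simp)] at h2
  simpa [sub_eq_zero] using h2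

omit [NumberField K] in
theorem descend [IsGalois L K] [FiniteDimensional L K] (p : K[X])
    (h1 : ∀ σ : K ≃ₐ[L] K, p.map (σ : K →+* K) = p) (h2 : p ∈ liftsRing (algebraMap (𝓞 K) K)) :
    ∃ P : (𝓞 L)[X], P.map (algebraMap (𝓞 L) K) = p := by
  refine (mem_lifts _).1 ((lifts_iff_coeff_lifts _).2 fun n => ?_)
  obtain ⟨x, hx⟩ := (IsGalois.mem_range_algebraMap_iff_fixed (F := L) (p.coeff n)).2 fun σ => by
    conv_rhs => rw [← h1 σ, coeff_map]
    rfl
  obtain ⟨y, hy⟩ := (lifts_iff_coeff_lifts _).1 ((lifts_iff_liftsRing _ _).2 h2) n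
  have : IsIntegral ℤ x := by
    rw [← isIntegral_algebraMap_iff (algebraMap L K).injective, hx, ← hy]
    exact y.isIntegral_coe
  exact ⟨⟨x, this⟩, hx⟩

/-- averaged units -/
noncomputable def av (L : Type) [Field L] [Algebra L K] [FiniteDimensional L K] (x : K) :
    (K → (𝓞 K)ˣ) →* (𝓞 K)ˣ :=
  ∏ τ : K ≃ₐ[L] K, (Units.map (RingOfIntegers.mapRingHom (τ : K →+* K)).toMonoidHom).comp
    (Pi.evalMonoidHom _ (τ.symm x))

omit [NumberField L] [NumberField K] in
theorem av_val [FiniteDimensional L K] (x : K) (v : K → (𝓞 K)ˣ) :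
    ((av L x v : (𝓞 K)ˣ) : K) = ∏ τ : K ≃ₐ[L] K, τ (v (τ.symm x) : K) := by
  simp only [av, MonoidHom.finsetProd_apply, Units.coe_prod, map_prod]
  rfl

omit [NumberField L] [NumberField K] in
theorem av_gal [FiniteDimensional L K] (σ : K ≃ₐ[L] K) (x : K) (v : K → (𝓞 K)ˣ) :
    σ (av L x v : K) = av L (σ x) v := by
  rw [av_val, av_val, map_prod]
  refine Fintype.prod_equiv (Equiv.mulLeft σ) _ _ fun τ => ?_
  have : (σ * τ).symm (σ x) = τ.symm x := by
    rw [AlgEquiv.symm_apply_eq]; simp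
  simp [this]

theorem interp_unit [IsGalois L K] (R : Finset K) (hR : ∀ σ : K ≃ₐ[L] K, ∀ x ∈ R, σ x ∈ R)
    (hI : ∀ x ∈ R, IsIntegral ℤ x) : ∃ N : ℕ, 0 < N ∧ ∀ v : K → (𝓞 K)ˣ, ∃ P : (𝓞 L)[X],
      P.degree < R.card ∧ ∀ x ∈ R, aeval x P = (av L x v : K) ^ N := by
  classical
  rcases R.eq_empty_or_nonempty with rfl | hne
  · exact ⟨1, one_pos, fun v => ⟨0, by simp, by simp⟩⟩
  obtain ⟨n, hn⟩ : ∃ n : K → 𝓞 K, ∀ x ∈ R, (n x : K) = x := by
    have : ∀ x : K, ∃ y : 𝓞 K, x ∈ R → (y : K) = x := fun x => by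
      by_cases h : x ∈ R
      · exact ⟨⟨x, hI x h⟩, fun _ => rfl⟩
      · exact ⟨0, fun h' => absurd h' h⟩
    choose n hn using this
    exact ⟨n, hn⟩
  let e : K → 𝓞 K := fun x => ∏ y ∈ R.erase x, (n x - n y)
  have he : ∀ x ∈ R, (e x : K) = ∏ y ∈ R.erase x, (x - y) := fun x hx => by
    simp only [e, RingOfIntegers.coe_eq_algebraMap, map_prod, map_sub]
    exact Finset.prod_congr rfl fun y hy => by
      rw [← hn x hx, ← hn y (Finset.mem_of_mem_erase hy)]
      simp only [hn x hx, hn y (Finset.mem_of_mem_erase hy)]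
  have he0 : ∀ x ∈ R, (e x : K) ≠ 0 := fun x hx => by
    rw [he x hx]
    exact Finset.prod_ne_zero_iff.2 fun y hy => sub_ne_zero.2 (Finset.ne_of_mem_erase hy).symm
  let I : Ideal (𝓞 K) := Ideal.span {∏ x ∈ R, e x}
  have : Finite (𝓞 K ⧸ I) := I.finiteQuotientOfFreeOfNeBot (by
    rw [Ne, Ideal.span_singleton_eq_bot]
    exact Finset.prod_ne_zero_iff.2 fun x hx h => he0 x hx (by simp [h]))
  refine ⟨Nat.card (𝓞 K ⧸ I)ˣ, Nat.card_pos, fun v => ?_⟩
  set N := Nat.card (𝓞 K ⧸ I)ˣ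
  let p := Lagrange.interpolate R id fun x => (av L x v : K) ^ N
  have hp : ∀ x ∈ R, p.eval x = (av L x v : K) ^ N := fun x hx =>
    Lagrange.eval_interpolate_at_node _ (Set.injOn_id _) hx
  have hd : p.degree < R.card := Lagrange.degree_interpolate_lt _ (Set.injOn_id _)
  obtain ⟨P, hP⟩ := descend (L := L) p (fun σ => eq_of_degrees_lt_of_eval_finset_eq R
    (by rwa [degree_map]) hd fun x hx => by
      have h1 : x = (σ : K →+* K) (σ.symm x) := by simp
      conv_lhs => rw [h1, eval_map, eval₂_at_apply, hp _ (hR σ.symm x hx), map_pow]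
      rw [hp x hx, RingHom.coe_coe, av_gal]
      simp) (by
    have h1 : p = 1 + Lagrange.interpolate R id fun x => (av L x v : K) ^ N - 1 := by
      rw [← Lagrange.interpolate_one (Set.injOn_id _) hne, ← map_add]
      exact congrArg (Lagrange.interpolate R id) (_root_.funext fun x => by simp)
    rw [h1, Lagrange.interpolate_apply]
    refine add_mem (one_mem _) (sum_mem fun x hx => ?_)
    obtain ⟨c, hc⟩ : e x ∣ (av L x v : 𝓞 K) ^ N - 1 := by
      refine (Finset.dvd_prod_of_mem e hx).trans (Ideal.mem_span_singleton.1 ?_)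
      rw [← Ideal.Quotient.eq, map_pow, map_one]
      exact congrArg Units.val (pow_card_eq_one' (G := (𝓞 K ⧸ I)ˣ)
        (x := Units.map (Ideal.Quotient.mk I).toMonoidHom (av L x v)))
    have h2 : (av L x v : K) ^ N - 1 = e x * c := by
      have := congrArg (algebraMap (𝓞 K) K) hc
      simpa using this
    rw [Lagrange.basis_eq_prod_sub_inv_mul_nodal_div hx, ← Lagrange.nodal_erase_eq_nodal_div hx,
      ← mul_assoc, ← C_mul, h2, Lagrange.nodalWeight, Finset.prod_inv_distrib]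
    simp only [id]
    rw [← he x hx, mul_right_comm, mul_inv_cancel₀ (he0 x hx), one_mul, Lagrange.nodal_eq]
    refine mul_mem ⟨C c, by simp⟩ (prod_mem fun y hy => ⟨X - C (n y), ?_⟩)
    simp [hn y (Finset.mem_of_mem_erase hy)])
  refine ⟨P, ?_, fun x hx => by rw [← hp x hx, ← hP, eval_map_algebraMap]⟩
  rwa [← hP, degree_map_eq_of_injective (FaithfulSMul.algebraMap_injective _ _)] at hd

theorem av_dense [FiniteDimensional L K] (i : L) (hi : i ^ 2 = -1) (h3 : 3 ≤ Module.finrank ℚ L)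
    (j : K →+* ℂ) (R : Finset K) (hR : ∀ σ : K ≃ₐ[L] K, ∀ x ∈ R, σ x ∈ R) {N : ℕ} (hN : 0 < N)
    (F : MvPolynomial R ℂ)
    (hF : ∀ v : K → (𝓞 K)ˣ, MvPolynomial.eval (fun x : R => j ((av L x.1 v : K) ^ N)) F = 0) :
    F = 0 := by
  classical
  let c : (R →₀ ℕ) → (K → (𝓞 K)ˣ) →* ℂ := fun d =>
    { toFun := fun v => ∏ x : R, j ((av L x.1 v : K) ^ N) ^ d x
      map_one' := by simp
      map_mul' := fun v w => by simp [mul_pow, Finset.prod_mul_distrib] }
  have hc : Function.Injective c := by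
    intro d d' e
    ext x
    have key : ∀ (d : R →₀ ℕ) (u : (𝓞 K)ˣ), c d (Pi.mulSingle x.1 u) =
        j (∏ τ : K ≃ₐ[L] K, τ (u : K) ^ (N * d ⟨τ x, hR τ x x.2⟩)) := by
      intro d u
      change ∏ y : R, _ = _
      simp only [← map_pow, ← map_prod, av_val, ← pow_mul, ← Finset.prod_pow]
      rw [Finset.prod_comm]
      refine congrArg _ (Finset.prod_congr rfl fun τ _ => ?_)
      rw [Finset.prod_eq_single ⟨τ x, hR τ x x.2⟩ (fun y _ hy => ?_) (by simp)]
      · simp
      · rw [Pi.mulSingle_eq_of_ne fun h => hy (Subtype.ext ((AlgEquiv.symm_apply_eq τ).1 h))]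
        simp
    have := exp_unique i hi h3 (fun τ => N * d ⟨τ x, hR τ x x.2⟩)
      (fun τ => N * d' ⟨τ x, hR τ x x.2⟩) fun u => j.injective (by rw [← key, ← key, e])
    exact Nat.eq_of_mul_eq_mul_left hN (congrFun this 1)
  have hl := (linearIndependent_monoidHom (K → (𝓞 K)ˣ) ℂ).comp c hc
  ext d
  by_contra hd
  refine hd (linearIndependent_iff'.1 hl F.support (fun d => F.coeff d) ?_ d
    (MvPolynomial.mem_support_iff.2 hd))
  ext v
  rw [Pi.zero_apply, ← hF v, MvPolynomial.eval_eq', Finset.sum_apply]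
  rfl

end nt

theorem affine_comp {K σ τ : Type} [Field K] [Fintype σ] (Φ : (σ → K) →ₗ[K] (τ → K)) (c : τ → K)
    (F : MvPolynomial τ K) : ∃ P : MvPolynomial σ K,
      ∀ x, MvPolynomial.eval x P = MvPolynomial.eval (Φ x + c) F := by
  classical
  refine ⟨MvPolynomial.bind₁ (fun i => ∑ a, MvPolynomial.C (Φ (Pi.single a 1) i) *
    MvPolynomial.X a + MvPolynomial.C (c i)) F, fun x => ?_⟩
  rw [← MvPolynomial.aeval_eq_eval, MvPolynomial.aeval_bind₁, MvPolynomial.aeval_eq_eval]
  congr 2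
  ext i
  rw [Pi.add_apply, LinearMap.pi_apply_eq_sum_univ Φ x, Finset.sum_apply i]
  simp only [map_add, map_sum, map_mul, MvPolynomial.aeval_C, MvPolynomial.aeval_X]
  refine congrArg₂ _ (Finset.sum_congr rfl fun a _ => ?_) rfl
  have : (fun b => if a = b then (1 : K) else 0) = Pi.single a 1 := by
    ext b; simp [Pi.single_apply, eq_comm]
  rw [Pi.smul_apply, smul_eq_mul, mul_comm, this]
  rfl

/-- matrices invertible over `O` -/
def GO (O : Type) [CommRing O] [Algebra O ℂ] (r : ℕ) : Subgroup (GL (Fin r) ℂ) :=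
  (Matrix.GeneralLinearGroup.map (algebraMap O ℂ)).range

theorem hu (L : Type) [Field L] [NumberField L] [Algebra L ℂ] (i : L) (hi : i ^ 2 = -1)
    (h3 : 3 ≤ Module.finrank ℚ L) (r : ℕ) : HU (GO (𝓞 L) r) := by
  classical
  rintro _ ⟨γ, rfl⟩ F hF
  rcases Nat.eq_zero_or_pos r with rfl | hr
  · exact MvPolynomial.funext fun t => hF t ⟨1, one_mem _, Subsingleton.elim _ _⟩
  let χ := γ.val.charpoly
  have hχ : χ.Monic := γ.val.charpoly_monic
  have hχd : χ.natDegree = r := by simp [χ]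
  let K := (χ.map (algebraMap (𝓞 L) L)).SplittingField
  have : NumberField K := NumberField.of_module_finite L K
  have : IsGalois L K := {}
  let j : K →ₐ[L] ℂ := IsAlgClosed.lift
  have hj : ∀ (x : K) (P : (𝓞 L)[X]), (P.map (algebraMap (𝓞 L) ℂ)).eval (j x) = j (aeval x P) :=
    fun x P => by rw [eval_map_algebraMap]; exact aeval_algHom_apply (j.restrictScalars (𝓞 L)) x P
  have hinj : Function.Injective (algebraMap (𝓞 L) K) := FaithfulSMul.algebraMap_injective _ _
  let R := (χ.map (algebraMap (𝓞 L) K)).roots.toFinset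
  have hm : ∀ x, x ∈ R ↔ aeval x χ = 0 := fun x => by
    rw [Multiset.mem_toFinset, mem_roots (hχ.map _).ne_zero, IsRoot, eval_map_algebraMap]
  have hR : ∀ σ : K ≃ₐ[L] K, ∀ x ∈ R, σ x ∈ R := fun σ x hx => by
    rw [hm] at hx ⊢
    exact (aeval_algHom_apply (σ.toAlgHom.restrictScalars (𝓞 L)) x χ).trans (by rw [hx, map_zero])
  have hI : ∀ x ∈ R, IsIntegral ℤ x := fun x hx => isIntegral_trans (A := 𝓞 L) x ⟨χ, hχ, (hm x).1 hx⟩
  obtain ⟨N, hN, hP⟩ := interp_unit (L := L) R hR hI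
  obtain ⟨Q, hQ⟩ := descend (L := L) (Lagrange.nodal R id) (fun σ => by
    simp only [Lagrange.nodal_eq, Polynomial.map_prod, Polynomial.map_sub, map_X, map_C, id]
    exact Finset.prod_nbij' σ σ.symm (hR σ) (hR σ.symm) (by simp) (by simp) (by simp))
    (prod_mem fun y hy => ⟨X - C ⟨y, hI y hy⟩, by
      rw [coe_mapRingHom, Polynomial.map_sub, map_X]; exact congrArg _ (map_C _)⟩)
  have hQ0 : ∀ x ∈ R, aeval x Q = 0 := fun x hx => by
    rw [← eval_map_algebraMap, hQ]; exact Lagrange.eval_nodal_at_node (v := id) hx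
  have hnil : ∀ P : (𝓞 L)[X], (∀ x ∈ R, aeval x P = 0) → IsNilpotent (aeval γ.val P) := by
    intro P h
    have hs : (χ.map (algebraMap (𝓞 L) K)).Splits := by
      rw [IsScalarTower.algebraMap_eq (𝓞 L) L K, ← Polynomial.map_map]
      exact SplittingField.splits _
    obtain ⟨n, c, hc⟩ : ∃ n, χ ∣ P ^ n := by
      refine ⟨(χ.map (algebraMap (𝓞 L) K)).roots.card, (map_dvd_map _ hinj hχ).1 ?_⟩
      conv_lhs => rw [hs.eq_prod_roots_of_monic (hχ.map _)]
      rw [Polynomial.map_pow, ← Multiset.prod_replicate, ← Multiset.map_const']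
      exact Multiset.prod_dvd_prod_of_dvd _ _ fun x hx => dvd_iff_isRoot.2 (by
        rw [IsRoot, eval_map_algebraMap]; exact h x (Multiset.mem_toFinset.2 hx))
    exact ⟨n, by rw [← map_pow, hc, map_mul, Matrix.aeval_self_charpoly, zero_mul]⟩
  let f := algebraMap (𝓞 L) ℂ
  let nd : R → ℂ := fun x => j x
  have hnd : Set.InjOn nd (Finset.univ : Finset R) := fun x _ y _ h => Subtype.ext (j.injective h)
  let c : ℂ[X] →ₗ[ℂ] (Fin r → ℂ) := (toFn r).comp (modByMonicHom (χ.map f))
  let Φ1 := c.comp (Lagrange.interpolate Finset.univ nd)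
  let Φ2 := c.comp ((LinearMap.mulRight ℂ (Q.map f)).comp (ofFn r))
  have h1 : ∀ (s : Fin r → 𝓞 L) w, MvPolynomial.eval (Φ1 w + Φ2 fun k => f (s k)) F = 0 := by
    intro s w
    obtain ⟨F', hF'⟩ := affine_comp Φ1 (Φ2 fun k => f (s k)) F
    rw [← hF', av_dense i hi h3 j.toRingHom R hR hN F' fun v => ?_, map_zero]
    obtain ⟨P, hd, hv⟩ := hP v
    obtain ⟨P', -, hv'⟩ := hP v⁻¹
    have hu : IsUnit (aeval γ.val (P + ofFn r s * Q)) := by
      have := (hnil ((P + ofFn r s * Q) * P' - 1) fun x hx => by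
        simp [hv x hx, hv' x hx, hQ0 x hx, ← mul_pow]).isUnit_add_one
      rw [map_sub, map_one, sub_add_cancel, map_mul, Matrix.isUnit_iff_isUnit_det,
        Matrix.det_mul] at this
      exact (Matrix.isUnit_iff_isUnit_det _).2 (isUnit_of_mul_isUnit_left this)
    rw [hF']
    refine hF _ ⟨_, ⟨hu.unit, rfl⟩, ?_⟩
    have e1 : P.map f = Lagrange.interpolate Finset.univ nd
        fun x : R => j.toRingHom ((av L x.1 v : K) ^ N) :=
      Lagrange.eq_interpolate_of_eval_eq _ hnd (degree_map_le.trans_lt (by simpa using hd))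
        fun x _ => by rw [hj, hv x x.2]; rfl
    have e2 : (ofFn r s).map f = ofFn r fun k => f (s k) := by
      simp [ofFn_eq_sum_monomial, Polynomial.map_sum]
    have e3 : (Φ1 (fun x : R => j.toRingHom ((av L x.1 v : K) ^ N)) + Φ2 fun k => f (s k)) =
        fun k : Fin r => f (((P + ofFn r s * Q) %ₘ χ).coeff k) := by
      ext k
      rw [← coeff_map, map_modByMonic _ hχ, Polynomial.map_add, Polynomial.map_mul, e1, e2,
        add_modByMonic]
      rfl
    have hlt := natDegree_modByMonic_lt (P + ofFn r s * Q) hχ (by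
      intro h; rw [h] at hχd; simp at hχd; omega)
    change f.mapMatrix (aeval γ.val (P + ofFn r s * Q)) = _
    rw [e3, Matrix.aeval_eq_aeval_mod_charpoly, aeval_eq_sum_range' (hχd ▸ hlt), Finset.sum_range,
      map_sum]
    refine Finset.sum_congr rfl fun k _ => ?_
    change _ = _ • (f.mapMatrix γ.val) ^ _
    rw [← map_pow]
    ext a b
    simp [χ]
  have h2 : ∀ w s, MvPolynomial.eval (Φ2 s + Φ1 w) F = 0 := by
    intro w s
    obtain ⟨F', hF'⟩ := affine_comp Φ2 (Φ1 w) F
    have : F' = 0 := MvPolynomial.funext_set (fun _ => Set.range f)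
      (fun _ => Set.infinite_range_of_injective (FaithfulSMul.algebraMap_injective _ _))
      fun s hs => by
        choose s' hs' using fun k => hs k trivial
        rw [hF', add_comm, ← funext hs', h1, map_zero]
    rw [← hF', this, map_zero]
  refine MvPolynomial.funext fun t => ?_
  have hQm : Q.Monic := monic_of_injective hinj (hQ ▸ Lagrange.nodal_monic)
  have hQd : (Q.map f).degree = (Finset.univ : Finset R).card := by
    rw [hQm.degree_map, ← hQm.degree_map (algebraMap (𝓞 L) K), hQ]; simp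
  have e1 : ofFn r t %ₘ Q.map f = Lagrange.interpolate Finset.univ nd
      fun x => (ofFn r t).eval (nd x) :=
    Lagrange.eq_interpolate_of_eval_eq _ hnd (hQd ▸ degree_modByMonic_lt _ (hQm.map f))
      fun x _ => by
        rw [modByMonic_eq_sub_mul_div, eval_sub, eval_mul, hj, hQ0 x x.2]; simp
  have e2 : ofFn r (toFn r (ofFn r t /ₘ Q.map f)) = ofFn r t /ₘ Q.map f :=
    ofFn_comp_toFn_eq_id_of_natDegree_lt ((natDegree_le_natDegree (degree_divByMonic_le _ _)).trans_lt
      (ofFn_natDegree_lt hr t))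
  rw [map_zero, ← h2 (fun x => (ofFn r t).eval (nd x)) (toFn r (ofFn r t /ₘ Q.map f))]
  congr 2
  change t = c (ofFn r _ * Q.map f) + c _
  rw [← map_add, e2, ← e1, add_comm, mul_comm, modByMonic_add_div]
  change t = toFn r (ofFn r t %ₘ _)
  rw [(modByMonic_eq_self_iff (hχ.map f)).2, toFn_comp_ofFn_eq_id]
  rw [hχ.degree_map, degree_eq_natDegree hχ.ne_zero, hχd]
  exact ofFn_degree_lt t

end P002
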