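import Vale.Agent.P002.Core
import Vale.Agent.P002.Units

/-! The base point for closed surfaces. -/

namespace P002
open Matrix

variable {r : ℕ}

section ring
variable {R : Type} [CommRing R]

/-- upper triangular matrix of ones -/
noncomputable def Uu (R : Type) [CommRing R] (r : ℕ) : GL (Fin r) R :=
  GeneralLinearGroup.mk'' (Matrix.of fun i j => if i ≤ j then 1 else 0) (by
    rw [det_of_upperTriangular]
    · simp
    · exact fun i j h => if_neg (not_le.2 h))

/-- column transvection -/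
def Cc (e : Fin r) (l : Fin r → R) (h : l e = 0) : GL (Fin r) R where
  val := 1 + vecMulVec l (Pi.single e 1)
  inv := 1 - vecMulVec l (Pi.single e 1)
  val_inv := by simp [mul_sub, add_mul, vecMulVec_mul_vecMulVec, h]
  inv_val := by simp [sub_mul, mul_add, vecMulVec_mul_vecMulVec, h]

def Dg (p : Fin r → Rˣ) : GL (Fin r) R where
  val := diagonal fun i => p i
  inv := diagonal fun i => (p i)⁻¹.val
  val_inv := by simp
  inv_val := by simp

end ring

variable {K : Type} [Field K]

theorem trace_cm (e : Fin r) (p : Fin r → Kˣ) (l : Fin r → K) (h : l e = 0) (U : GL (Fin r) K) :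
    trace (cm (Dg p) (Cc e l h * U)).val = trace (Dg p * (U * (Dg p)⁻¹ * U⁻¹)).val +
      ∑ i, (U * (Dg p)⁻¹ * U⁻¹).val e i * ((p i - p e) * l i) := by
  have : cm (Dg p) (Cc e l h * U) = Dg p * Cc e l h * (U * (Dg p)⁻¹ * U⁻¹) * (Cc e l h)⁻¹ := by
    unfold cm; group
  rw [this]
  generalize U * (Dg p)⁻¹ * U⁻¹ = V
  have e1 : (Cc e l h)⁻¹.val * ((Dg p).val * (Cc e l h).val) =
      (Dg p).val + vecMulVec (fun i => (p i - p e) * l i) (Pi.single e 1) := by
    change (1 - vecMulVec l (Pi.single e 1)) * (diagonal _ * (1 + vecMulVec l (Pi.single e 1))) =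
      diagonal _ + _
    rw [mul_add, mul_one, mul_vecMulVec, sub_mul, one_mul, mul_add, vecMulVec_mul,
      vecMulVec_mul_vecMulVec]
    ext i j
    by_cases hj : j = e <;> simp [vecMulVec_apply, hj, h, mulVec_diagonal, sub_mul, mul_comm]
    ring
  rw [Units.val_mul, trace_mul_comm, Units.val_mul, Units.val_mul, ← mul_assoc, e1, add_mul,
    trace_add, trace_mul_comm (vecMulVec _ _), trace_mul_vecMulVec]
  rfl

theorem gen_CU [CharZero K] (e : Fin r) (he : ∀ i, e ≤ i) (l : Fin r → ℕ) (h0 : l e = 0)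
    (h1 : ∀ i, i ≠ e → l i ≠ 0) :
    Gen (Cc e (fun i => (l i : K)) (by simp [h0]) * Uu K r).val e := by
  have hv : ∀ i j, (Cc e (fun i => (l i : K)) (by simp [h0]) * Uu K r).val i j =
      (((if i ≤ j then 1 else 0) + l i : ℕ) : K) := by
    intro i j
    have : (Cc e (fun i => (l i : K)) (by simp [h0])).val =
      1 + vecMulVec (fun i => (l i : K)) (Pi.single e 1) := rfl
    rw [Units.val_mul, this, add_mul, one_mul, vecMulVec_mul]
    simp [Uu, vecMulVec_apply, he]
  refine ⟨fun a b => ?_, fun b c hb hc hbc => ?_⟩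
  · rw [hv, Nat.cast_ne_zero]
    by_cases ha : a = e
    · simp [ha, he]
    · have := h1 a ha; omega
  · simp only [hv]
    norm_cast
    have hb' : ¬ b ≤ e := fun h => hb (le_antisymm h (he b))
    have hc' : ¬ c ≤ e := fun h => hc (le_antisymm h (he c))
    have := h1 b hb
    have := h1 c hc
    rcases lt_or_gt_of_ne hbc with h | h
    · simp [he, h0, hb', hc', h.le, not_le.2 h, add_mul, mul_add, mul_comm, *]
    · simp [he, h0, hb', hc', h.le, not_le.2 h, add_mul, mul_add, mul_comm, *]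

theorem exists_good [CharZero K] (hr : 2 ≤ r) (p : Fin r → Kˣ) (hp : Function.Injective p) :
    ∃ (e : Fin r) (l : Fin r → ℕ) (h0 : l e = 0),
      S1 K (Cc e (fun i => (l i : K)) (by simp [h0]) * Uu K r).val (Dg p).val ∧
      S2 K (Cc e (fun i => (l i : K)) (by simp [h0]) * Uu K r).val (Dg p).val e := by
  let e : Fin r := ⟨0, by omega⟩
  let e1 : Fin r := ⟨1, by omega⟩
  have he : ∀ i, e ≤ i := fun i => Nat.zero_le _
  have hne : e1 ≠ e := by simp [e, e1]
  let l : ℕ → Fin r → ℕ := fun t i => (if i = e then 0 else 1) + if i = e1 then t else 0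
  have h0 : ∀ t, l t e = 0 := fun t => by simp [l, hne.symm]
  have hβ : Function.Injective fun i => (p i : K) := Units.val_injective.comp hp
  obtain ⟨t, ht⟩ : ∃ t,
      trace (cm (Dg p) (Cc e (fun i => (l t i : K)) (by simp [h0]) * Uu K r)).val ≠ r := by
    by_contra hc
    push Not at hc
    have h1 := (hc 1).trans (hc 0).symm
    rw [trace_cm, trace_cm, add_right_inj, ← sub_eq_zero, ← Finset.sum_sub_distrib,
      Finset.sum_eq_single e1 (fun i _ hi => by simp [l, hi]) (by simp)] at h1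
    have h2 : (Uu K r * (Dg p)⁻¹ * (Uu K r)⁻¹).val * (Uu K r).val =
        (Uu K r).val * diagonal fun i => (p i)⁻¹.val := by
      rw [← Units.val_mul, inv_mul_cancel_right]; rfl
    generalize (Uu K r * (Dg p)⁻¹ * (Uu K r)⁻¹).val = V at *
    have h3 := congrFun (congrFun h2 e) e
    have h4 := congrFun (congrFun h2 e) e1
    rw [mul_diagonal, mul_apply, Finset.sum_eq_single e (fun i _ hi => by
      have : ¬ i ≤ e := fun h => hi (le_antisymm h (he i))
      simp [Uu, this]) (by simp)] at h3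
    rw [mul_diagonal, mul_apply, Finset.sum_eq_add e e1 hne.symm (fun i _ hi => by
      have : ¬ i ≤ e1 := fun h => by
        have h5 : i.val ≤ 1 := h
        have h6 : i.val ≠ 0 := fun h => hi.1 (Fin.ext h)
        have h7 : i.val ≠ 1 := fun h => hi.2 (Fin.ext h)
        omega
      simp [Uu, this]) (by simp) (by simp)] at h4
    simp only [Uu, GeneralLinearGroup.val_mk'', of_apply, he, le_refl, if_true, mul_one,
      one_mul, Units.val_inv_eq_inv_val] at h3 h4
    have h5 : V e e1 * ((p e1 : K) - p e) = 0 := by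
      rw [← h1]; simp [l, hne]; ring
    rcases mul_eq_zero.1 h5 with h6 | h6
    · rw [h6, add_zero, h3, _root_.inv_inj] at h4
      exact hne (hβ h4).symm
    · exact hne (hβ (sub_eq_zero.1 h6))
  have hg := gen_CU (K := K) e he (l t) (h0 t) fun i hi => by simp [l, hi]
  exact ⟨e, l t, h0 t, span1 _ _ e _ hβ rfl hg fun h => absurd h ht, span2 _ _ e _ hβ rfl hg⟩

variable {O : Type} [CommRing O] [Algebra O ℂ]

theorem Dg_mem (p : Fin r → Oˣ) :
    Dg (fun i => Units.map (algebraMap O ℂ).toMonoidHom (p i)) ∈ GO O r :=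
  ⟨Dg p, Units.ext (diagonal_map (map_zero _))⟩

theorem CU_mem (e : Fin r) (l : Fin r → ℕ) (h0 : l e = 0) :
    Cc e (fun i => (l i : ℂ)) (by simp [h0]) * Uu ℂ r ∈ GO O r := by
  refine mul_mem ⟨Cc e (fun i => (l i : O)) (by simp [h0]), ?_⟩ ⟨Uu O r, ?_⟩
  · ext i j
    by_cases h : i = j <;> by_cases h' : j = e <;>
      simp [Cc, vecMulVec_apply, h, h', one_apply, apply_ite (algebraMap O ℂ)]
  · ext i j
    simp [Uu, apply_ite]

theorem closed_core (hr : 2 ≤ r) (hU : HU (GO O r)) (ω : Oˣ)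
    (hω : IsPrimitiveRoot (algebraMap O ℂ ω) r) (c : ℂˣ) (hc : c ^ r = 1) {m : ℕ} (i : Fin m)
    (p : Tup m 1 r ℂ) (hp : Rel (fun _ => Dg fun _ => c) p) :
    InZ (fun _ => Dg fun _ => c) (GO O r) p := by
  have : NeZero r := ⟨by omega⟩
  let ζ : ℂˣ := Units.map (algebraMap O ℂ).toMonoidHom ω
  have hζ : IsPrimitiveRoot ζ r := IsPrimitiveRoot.coe_units_iff.1 hω
  obtain ⟨n, hn, e0⟩ := hω.eq_pow_of_pow_eq_one (ξ := c.val) (by simpa using congrArg Units.val hc)
  have hcζ : c = ζ ^ n := Units.ext e0.symm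
  let q : Fin r → ℂˣ := fun a => ζ ^ a.val
  have hq : Function.Injective q := fun a b h => Fin.ext (hζ.pow_inj a.2 b.2 h)
  obtain ⟨e, l, h0, h1, h2⟩ := exists_good hr q hq
  let σ : Equiv.Perm (Fin r) := Equiv.addRight ⟨n, hn⟩
  have hσ : ∀ a, q (σ a) = c * q a := fun a => by
    simp only [q, σ, Equiv.coe_addRight, Fin.val_add, hcζ]
    rw [← pow_eq_pow_mod _ hζ.pow_eq_one, pow_add, mul_comm]
  let w : GL (Fin r) ℂ := GeneralLinearGroup.mk'' (σ.permMatrix ℂ) (by
    rw [det_permutation]; exact (Equiv.Perm.sign σ).isUnit.map (Int.castRingHom ℂ))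
  have hw : w ∈ GO O r := ⟨GeneralLinearGroup.mk'' (σ.permMatrix O) (by
    rw [det_permutation]; exact (Equiv.Perm.sign σ).isUnit.map (Int.castRingHom O)), by
    ext a b
    simp [w, Equiv.Perm.permMatrix, PEquiv.toMatrix_apply, apply_ite]⟩
  have hx : Dg q ∈ GO O r := by simpa only [map_pow] using Dg_mem fun a : Fin r => ω ^ a.val
  have hJ : (Dg fun _ => c) ∈ GO O r := by
    simpa only [hcζ, map_pow] using Dg_mem (r := r) fun _ => ω ^ n
  have hwx : w * Dg q = (Dg fun _ => c) * Dg q * w := by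
    ext a b
    simp only [Units.val_mul, Dg, diagonal_mul, mul_diagonal, diagonal_mul_diagonal, w,
      GeneralLinearGroup.val_mk'', Equiv.Perm.permMatrix, PEquiv.toMatrix_apply]
    by_cases h : σ a = b
    · simp [← h, hσ]
    · simp [h]
  have hcen : ∀ g : GL (Fin r) ℂ, (Dg fun _ => c) * g = g * Dg fun _ => c := fun g => by
    ext a b
    simp [Dg, mul_comm]
  set y := Cc e (fun i => (l i : ℂ)) (by simp [h0]) * Uu ℂ r
  have hy : y ∈ GO O r := CU_mem e l h0
  let y0 : Tup m 1 r ℂ := fun v => if v = ia i then w⁻¹ * y⁻¹ else if v = ib i then y * Dg q * y⁻¹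
    else if v = iA then y else if v = iB then Dg q else 1
  have hy0 : y0 ∈ DD (fun _ => Dg fun _ => c) (GO O r) := by
    refine ⟨fun v => ?_, ?_⟩
    · simp only [y0]
      split_ifs
      exacts [mul_mem (inv_mem hw) (inv_mem hy), mul_mem (mul_mem hy hx) (inv_mem hy), hy, hx,
        one_mem _]
    · rw [Rel, rel, pr_split' 1 i fun j hj => by simp [hf, y0, hj, cm]]
      have e1 : pre (1 : Fin m → GL (Fin r) ℂ) i = 1 := pre_mem ⊥ fun _ _ => rfl
      have e2 : post (1 : Fin m → GL (Fin r) ℂ) i = 1 := post_mem ⊥ fun _ _ => rfl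
      simp only [e1, e2, pr, pf, hf, cm, y0, List.ofFn_succ, List.ofFn_zero, List.prod_cons,
        List.prod_nil, reduceCtorEq, if_true, if_false, Sum.inl.injEq, Sum.inr.injEq]
      calc _ = w⁻¹ * (Dg q * w * (Dg q)⁻¹ * Dg fun _ => c) := by group
        _ = w⁻¹ * ((Dg fun _ => c) * Dg q * w * (Dg q)⁻¹) := by
          rw [← hcen]; group
        _ = 1 := by rw [← hwx]; group
  intro F hF
  refine core (fun _ => hJ) (fun _ => ?_) hU i e y0 (InZ.of_DD hy0) (by simpa [y0] using h1)
    (by simpa [y0] using h2) p (by rwa [Jm_self]) F fun q hq _ => hF q hq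
  change det (diagonal _) = 1
  simpa using congrArg Units.val hc

end P002
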