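import Vale.Agent.P002.YGen

/-! The density theorem, given a good base point. -/

namespace P002
open Matrix

variable {m s r : ℕ} {k K : Type} [Field k] [Field K] [Algebra k K]

theorem cl_up_val {Λ : Type} [CommRing Λ] [Algebra k Λ] (p : Tup m s r Λ) (x : Ix m s) :
    (cl k p).mapMatrix (up m s r k x).val = (p x).val :=
  congrArg Units.val (congrFun (gm_cl_up (k := k) p) x)

theorem cl_zz {Λ : Type} [CommRing Λ] [Algebra k Λ] (p : Tup m s r Λ) (t : Fin r → k) :
    (cl k p).mapMatrix (zz t (up m s r k iB).val) = zz t (p iB).val := by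
  rw [AlgHom.mapMatrix_apply, map_zz, ← AlgHom.mapMatrix_apply, cl_up_val]

theorem cl_entry {Λ : Type} [CommRing Λ] [Algebra k Λ] (p : Tup m s r Λ) (M : Mat r (UU m s r k))
    (a b : Fin r) : (cl k p).toRingHom (M a b) = (cl k p).mapMatrix M a b := rfl

theorem cl_det_zz {Λ : Type} [CommRing Λ] [Algebra k Λ] (p : Tup m s r Λ) (t : Fin r → k) :
    (cl k p).toRingHom (zz t (up m s r k iB).val).det = (zz t (p iB).val).det := by
  rw [← cl_zz p]; exact AlgHom.map_det (cl k p) (zz t (up m s r k iB).val)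

theorem S1.gen {y0 : Tup m s r k} {y : Tup m s r K}
    (hk : RingHom.ker (cl k y) ≤ RingHom.ker (cl k y0)) (h : S1 k (y0 iA).val (y0 iB).val) :
    S1 k (y iA).val (y iB).val := by
  let u := up m s r k
  obtain ⟨δ, h1, h2⟩ := semi (fun (n : Option ((Fin r → k) × ℕ × ℕ)) (a : Fin r × Fin r) =>
    (n.elim 1 fun n => wd (u iA).val (u iB).val (zz n.1 (u iB).val) n.2.1 n.2.2) a.1 a.2)
    (fun n => n.elim 1 fun n => (zz n.1 (u iB).val).det) (cl k y0).toRingHom fun c hc =>
      h c (by simpa only [Option.elim, cl_entry, map_one] using hc none (by simp))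
        fun t p q hd => by
          simpa only [u, Option.elim, cl_entry, map_wd, cl_up_val, cl_zz] using
            hc (some (t, p, q)) (by simpa only [u, Option.elim, cl_det_zz] using hd)
  intro c a1 a2
  refine h2 K (cl k y).toRingHom (fun h => h1 (hk h)) c fun n hn => ?_
  cases n with
  | none => simpa only [Option.elim, cl_entry, map_one] using a1
  | some n =>
    simpa only [u, Option.elim, cl_entry, map_wd, cl_up_val, cl_zz] using
      a2 n.1 n.2.1 n.2.2 (by simpa only [u, Option.elim, cl_det_zz] using hn)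

theorem S2.gen {y0 : Tup m s r k} {y : Tup m s r K} {e : Fin r}
    (hk : RingHom.ker (cl k y) ≤ RingHom.ker (cl k y0)) (h : S2 k (y0 iA).val (y0 iB).val e) :
    S2 k (y iA).val (y iB).val e := by
  let u := up m s r k
  obtain ⟨δ, h1, h2⟩ := semi (fun (n : (Fin r → k) × ℕ) (a : Sx e) =>
    ((u iB).val * ((u iA).val * zz n.1 (u iB).val) ^ n.2) a.1.1 a.1.2)
    (fun n => (zz n.1 (u iB).val).det) (cl k y0).toRingHom fun c hc =>
      h c fun t p hd => by
        simpa only [u, cl_entry, map_mul, map_pow, cl_up_val, cl_zz] using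
          hc (t, p) (by simpa only [u, cl_det_zz] using hd)
  intro c a2
  refine h2 K (cl k y).toRingHom (fun h => h1 (hk h)) c fun n hn => ?_
  simpa only [u, cl_entry, map_mul, map_pow, cl_up_val, cl_zz] using
    a2 n.1 n.2 (by simpa only [u, cl_det_zz] using hn)

theorem Sp.witness {x : Tup m s r K} (h : Sp (x iA).val (x iB).val) :
    ∃ δ : UU m s r k, cl k x δ ≠ 0 ∧ ∀ q : Tup m s r k, cl k q δ ≠ 0 →
      Sp (q iA).val (q iB).val := by
  let u := up m s r k
  obtain ⟨δ, h1, h2⟩ := semi (fun (n : ℕ × ℕ) (a : Fin r × Fin r) =>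
    ((u iB).val ^ n.1 * (u iA).val * (u iB).val ^ n.2) a.1 a.2)
    (fun _ => 1) (cl k x).toRingHom fun c hc =>
      h c fun i j => by
        simpa only [u, cl_entry, map_mul, map_pow, cl_up_val] using hc (i, j) (by simp)
  refine ⟨δ, h1, fun q hq c hc => h2 k (cl k q).toRingHom hq c fun n _ => ?_⟩
  simpa only [u, cl_entry, map_mul, map_pow, cl_up_val] using hc n.1 n.2

theorem amalg {σ K' : Type} [Field K'] [Algebra k K'] {x : σ → K} {y : σ → K'}
    (hx : AlgebraicIndependent k x) (hy : AlgebraicIndependent k y) :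
    ∃ (Ω : Type) (_ : Field Ω) (_ : Algebra k Ω) (φ : K →ₐ[k] Ω) (ψ : K' →ₐ[k] Ω),
      ∀ v, φ (x v) = ψ (y v) := by
  let P := MvPolynomial σ k
  let F := FractionRing P
  let f : F →ₐ[k] K := IsFractionRing.liftAlgHom (g := MvPolynomial.aeval x) hx
  let g : F →ₐ[k] K' := IsFractionRing.liftAlgHom (g := MvPolynomial.aeval y) hy
  let _ : Algebra F K := f.toAlgebra
  let _ : Algebra F K' := g.toAlgebra
  have : IsScalarTower k F K := IsScalarTower.of_algebraMap_eq fun a => (f.commutes a).symm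
  have : IsScalarTower k F K' := IsScalarTower.of_algebraMap_eq fun a => (g.commutes a).symm
  let T := TensorProduct F K K'
  obtain ⟨M, hM⟩ := Ideal.exists_maximal T
  let _ : Field (T ⧸ M) := Ideal.Quotient.field M
  let a : K →ₐ[F] T ⧸ M := (Ideal.Quotient.mkₐ F M).comp Algebra.TensorProduct.includeLeft
  let b : K' →ₐ[F] T ⧸ M := (Ideal.Quotient.mkₐ F M).comp Algebra.TensorProduct.includeRight
  refine ⟨T ⧸ M, inferInstance, inferInstance, a.restrictScalars k, b.restrictScalars k,
    fun v => ?_⟩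
  have h1 : x v = algebraMap F K (algebraMap P F (MvPolynomial.X v)) := by
    exact ((IsFractionRing.lift_algebraMap hx _).trans (MvPolynomial.aeval_X _ _)).symm
  have h2 : y v = algebraMap F K' (algebraMap P F (MvPolynomial.X v)) := by
    exact ((IsFractionRing.lift_algebraMap hy _).trans (MvPolynomial.aeval_X _ _)).symm
  rw [h1, h2]
  exact (a.commutes _).trans (b.commutes _).symm

variable {J : Fin s → GL (Fin r) k} {G : Subgroup (GL (Fin r) k)}

theorem exists_y [CharZero k] (hJ : ∀ j, J j ∈ G) (hU : HU G) (e : Fin r) (y0 : Tup m s r k)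
    (h0 : InZ J G y0) (h1 : S1 k (y0 iA).val (y0 iB).val) (h2 : S2 k (y0 iA).val (y0 iB).val e) :
    ∃ (Ω : Type) (_ : Field Ω) (_ : Algebra k Ω) (y : Tup m s r Ω), InZ J G y ∧
      AlgebraicIndependent k (par e y) := by
  let I : Ideal (UU m s r k) := ⨅ q ∈ DD J G, RingHom.ker (cl k q)
  have hI : ∀ (Λ : Type) [CommRing Λ] [Algebra k Λ] (p : Tup m s r Λ),
      InZ J G p ↔ I ≤ RingHom.ker (cl k p) := fun Λ _ _ p =>
    ⟨fun h F hF => h F (by simpa [I] using hF), fun h F hF => h (by simpa [I] using hF)⟩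
  have : (RingHom.ker (cl k y0)).IsPrime := RingHom.ker_isPrime _
  obtain ⟨P, hP, hle⟩ := Ideal.exists_minimalPrimes_le ((hI k y0).1 h0)
  have := hP.1.1
  obtain ⟨Ω, _, _, _, y, hy, -⟩ := exists_gp P
  have hz : InZ J G y := (hI Ω y).2 (hy ▸ hP.1.2)
  refine ⟨Ω, inferInstance, inferInstance, y, hz, ygen hJ hU e y hz (fun z hz e1 => ?_)
    (h1.gen (hy ▸ hle)) (h2.gen (hy ▸ hle))⟩
  rw [hy]
  refine hP.2 ⟨RingHom.ker_isPrime _, (hI _ z).1 hz⟩ ?_
  rw [← hy, ← e1, cl_gm]
  intro F hF
  rw [RingHom.mem_ker] at hF ⊢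
  rw [AlgHom.comp_apply, hF, map_zero]

theorem Cy.map {K' : Type} [Field K'] (φ : K →+* K') {B : Mat r K} (h : Cy B) : Cy (B.map φ) := by
  obtain ⟨δ, h1, h2⟩ := semi (fun (n : ℕ) a => (B ^ n *ᵥ 1) a) (fun _ => 1) (RingHom.id K)
    fun c hc => h c fun n => hc n (by simp)
  intro c hc
  refine h2 K' φ ((map_ne_zero φ).2 h1) c fun n _ => ?_
  have e0 : φ ∘ (1 : Fin r → K) = 1 := by ext; simp
  simpa only [RingHom.map_mulVec, map_pow', e0] using hc n

theorem Ch.map {K' : Type} [Field K'] (φ : K →+* K') {A B : Mat r K} {e : Fin r} (h : Ch A B e) :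
    Ch (A.map φ) (B.map φ) e := by
  obtain ⟨δ, h1, h2⟩ := semi (fun (n : Option ℕ) x => n.elim (B e x)
    fun n => (A * B ^ n * adjugate A - A.det • B ^ n) e x) (fun _ => 1) (RingHom.id K)
    fun c hc => h c (hc none (by simp)) fun n => hc (some n) (by simp)
  intro c a1 a2
  refine h2 K' φ ((map_ne_zero φ).2 h1) c fun n _ => ?_
  cases n with
  | none => exact a1
  | some n =>
    rw [← a2 n]
    refine Finset.sum_congr rfl fun x _ => congrArg _ ?_
    have e2 : (adjugate A).map φ = adjugate (A.map φ) := RingHom.map_adjugate φ A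
    have e3 : φ A.det = (A.map φ).det := RingHom.map_det φ A
    rw [Option.elim, Matrix.sub_apply, Matrix.sub_apply, Matrix.smul_apply, Matrix.smul_apply,
      map_sub, smul_eq_mul, map_mul, e3, ← map_apply (f := φ), ← map_apply (f := φ),
      Matrix.map_mul, Matrix.map_mul, map_pow', e2, smul_eq_mul]

theorem core [CharZero k] (hJ : ∀ j, J j ∈ G) (hd : ∀ j, (J j).val.det = 1) (hU : HU G)
    (i : Fin m) (e : Fin r) (y0 : Tup m s r k) (h0 : InZ J G y0)
    (h1 : S1 k (y0 iA).val (y0 iB).val) (h2 : S2 k (y0 iA).val (y0 iB).val e)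
    (p : Tup m s r K) (hp : Rel (Jm K J) p) (F : UU m s r k)
    (hF : ∀ q ∈ DD J G, Sp (q iA).val (q iB).val → cl k q F = 0) : cl k p F = 0 := by
  obtain ⟨Ω, _, _, x, hle, hx, a1, a2, a3, a4⟩ := comp_gp i e J hd p hp
  obtain ⟨Ω', _, _, y, hy, b1⟩ := exists_y hJ hU e y0 h0 h1 h2
  obtain ⟨T, _, _, φ, ψ, h⟩ := amalg a1 b1
  have hz : InZ J G x := by
    refine InZ.of_map φ φ.injective ?_
    have c1 := hy.map ψ
    have c2 : Rel (Jm T J) (gm φ ∘ x) := by
      rw [Rel, ← gm_Jm φ, ← map_rel, show rel _ x = 1 from hx, map_one]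
    have c3 := c1.isRel
    have c4 : Cy ((gm φ ∘ x) iB).val := a2.map φ.toRingHom
    have c5 : Ch ((gm φ ∘ x) iA).val ((gm φ ∘ x) iB).val e := a3.map φ.toRingHom
    simp only [← par_gm] at h
    generalize gm φ ∘ x = x at *
    generalize gm ψ ∘ y = y at *
    have d1 : ∀ o, x (.inl o) = y (.inl o) := fun o =>
      Units.ext (Matrix.ext fun a b => h (.inl (o, a, b)))
    have d2 : cm (x iA) (x iB) = cm (y iA) (y iB) := by
      have e1 : hf x = hf y := by ext1 i; simp only [hf, d1]
      have e2 : pf (Jm T J) x = pf (Jm T J) y := by ext1 i; simp only [pf, d1]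
      have h3 : rel (Jm T J) x = rel (Jm T J) y := c2.trans c3.symm
      rw [rel, rel, e1, e2] at h3
      exact mul_left_cancel (mul_right_cancel h3)
    have d3 : y iB = x iB := last_unique c5 d2 fun v => (h (.inr v)).symm
    have d4 : Adm (y iB) ((y iA)⁻¹ * x iA) := by
      rw [d3]
      refine c4.adm ?_
      rw [d3, cm, cm, mul_left_inj] at d2
      calc _ = (y iA)⁻¹ * (x iA * x iB * (x iA)⁻¹) * x iA := by group
        _ = _ := by rw [d2]; group
    convert c1.twist (RA m s) hJ hU d4 using 1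
    ext1 v
    rcases v with o | _ | _
    · simp [RA, d1]
    · simp [RA]
    · simp [RA, d3]
  obtain ⟨δ, c1, c2⟩ := a4.witness (k := k)
  have := hz (F * δ) fun q hq => by
    rw [map_mul]
    by_cases h : cl k q δ = 0
    · rw [h, mul_zero]
    · rw [hF q hq (c2 q h), zero_mul]
  rw [map_mul] at this
  exact hle ((mul_eq_zero.1 this).resolve_right c1)

end P002
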