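import Mathlib

/-! Surface group tuples, universal point, Zariski closure, twist schemes. -/

namespace P002
open Matrix

abbrev Old (m s : ℕ) := Fin m ⊕ Fin m ⊕ Fin s
abbrev Ix (m s : ℕ) := Old m s ⊕ Bool

variable {m s r : ℕ}

abbrev ia (i : Fin m) : Ix m s := .inl (.inl i)
abbrev ib (i : Fin m) : Ix m s := .inl (.inr (.inl i))
abbrev ih (j : Fin s) : Ix m s := .inl (.inr (.inr j))
abbrev iA : Ix m s := .inr false
abbrev iB : Ix m s := .inr true

section grp
variable {Γ Γ' : Type} [Group Γ] [Group Γ']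

def cm (a b : Γ) : Γ := a * b * a⁻¹ * b⁻¹
def hf (M : Ix m s → Γ) (i : Fin m) : Γ := cm (M (ia i)) (M (ib i))
def pf (J : Fin s → Γ) (M : Ix m s → Γ) (j : Fin s) : Γ := M (ih j) * J j * (M (ih j))⁻¹
def pr {n : ℕ} (f : Fin n → Γ) : Γ := (List.ofFn f).prod
def pre {n : ℕ} (f : Fin n → Γ) (i : Fin n) : Γ := ((List.ofFn f).take i).prod
def post {n : ℕ} (f : Fin n → Γ) (i : Fin n) : Γ := ((List.ofFn f).drop (i + 1)).prod
def rel (J : Fin s → Γ) (M : Ix m s → Γ) : Γ := pr (hf M) * cm (M iA) (M iB) * pr (pf J M)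
def Rel (J : Fin s → Γ) (M : Ix m s → Γ) : Prop := rel J M = 1

theorem pr_split {n : ℕ} (f : Fin n → Γ) (i : Fin n) : pr f = pre f i * f i * post f i := by
  have h : i.val < (List.ofFn f).length := by simp
  rw [pr, pre, post, ← List.prod_take_mul_prod_drop (List.ofFn f) (i + 1),
    List.prod_take_succ _ _ h]
  simp

theorem pre_congr {n : ℕ} {f g : Fin n → Γ} {i : Fin n} (h : ∀ j, j ≠ i → f j = g j) :
    pre f i = pre g i := by
  unfold pre
  congr 1
  apply List.ext_getElem (by simp)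
  intro j h1 h2
  simp only [List.getElem_take, List.getElem_ofFn]
  apply h
  intro e
  have := congrArg Fin.val e
  simp at h1 this
  omega

theorem post_congr {n : ℕ} {f g : Fin n → Γ} {i : Fin n} (h : ∀ j, j ≠ i → f j = g j) :
    post f i = post g i := by
  unfold post
  congr 1
  apply List.ext_getElem (by simp)
  intro j h1 h2
  simp only [List.getElem_drop, List.getElem_ofFn]
  apply h
  intro e
  have := congrArg Fin.val e
  simp at this
  omega

theorem map_cm (φ : Γ →* Γ') (a b : Γ) : φ (cm a b) = cm (φ a) (φ b) := by simp [cm]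
theorem map_hf (φ : Γ →* Γ') (M : Ix m s → Γ) : φ ∘ hf M = hf (φ ∘ M) := by
  ext i; simp [hf, map_cm]
theorem map_pf (φ : Γ →* Γ') (J : Fin s → Γ) (M : Ix m s → Γ) :
    φ ∘ pf J M = pf (φ ∘ J) (φ ∘ M) := by
  ext i; simp [pf]
theorem map_pr (φ : Γ →* Γ') {n : ℕ} (f : Fin n → Γ) : φ (pr f) = pr (φ ∘ f) := by
  simp [pr, map_list_prod, List.map_ofFn]
theorem map_pre (φ : Γ →* Γ') {n : ℕ} (f : Fin n → Γ) (i) : φ (pre f i) = pre (φ ∘ f) i := by
  simp [pre, map_list_prod, List.map_ofFn]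
theorem map_post (φ : Γ →* Γ') {n : ℕ} (f : Fin n → Γ) (i) : φ (post f i) = post (φ ∘ f) i := by
  simp [post, map_list_prod, List.map_ofFn]
theorem map_rel (φ : Γ →* Γ') (J : Fin s → Γ) (M : Ix m s → Γ) :
    φ (rel J M) = rel (φ ∘ J) (φ ∘ M) := by
  simp [rel, map_pr, map_cm, map_hf, map_pf]

theorem pr_mem (H : Subgroup Γ) {n : ℕ} {f : Fin n → Γ} (h : ∀ j, f j ∈ H) : pr f ∈ H :=
  H.list_prod_mem fun x hx => by
    obtain ⟨j, rfl⟩ := List.mem_ofFn.1 hx
    exact h j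

theorem pre_mem (H : Subgroup Γ) {n : ℕ} {f : Fin n → Γ} {i : Fin n} (h : ∀ j, j ≠ i → f j ∈ H) :
    pre f i ∈ H := by
  classical
  rw [pre_congr (g := Function.update f i 1) fun j hj => by simp [hj]]
  refine H.list_prod_mem fun x hx => ?_
  obtain ⟨j, rfl⟩ := List.mem_ofFn.1 (List.mem_of_mem_take hx)
  by_cases hj : j = i
  · simp [hj]
  · simp [hj, h j hj]

theorem post_mem (H : Subgroup Γ) {n : ℕ} {f : Fin n → Γ} {i : Fin n} (h : ∀ j, j ≠ i → f j ∈ H) :
    post f i ∈ H := by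
  classical
  rw [post_congr (g := Function.update f i 1) fun j hj => by simp [hj]]
  refine H.list_prod_mem fun x hx => ?_
  obtain ⟨j, rfl⟩ := List.mem_ofFn.1 (List.mem_of_mem_drop hx)
  by_cases hj : j = i
  · simp [hj]
  · simp [hj, h j hj]

end grp

/-- a twist along a curve, natural in the group -/
structure Sch (m s : ℕ) where
  gam : ∀ {Γ : Type} [Group Γ], (Fin s → Γ) → (Ix m s → Γ) → Γ
  mv : ∀ {Γ : Type} [Group Γ], (Fin s → Γ) → (Ix m s → Γ) → Γ → Ix m s → Γ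
  gam_nat : ∀ {Γ Γ' : Type} [Group Γ] [Group Γ'] (φ : Γ →* Γ') (J : Fin s → Γ) (M : Ix m s → Γ),
    φ (gam J M) = gam (φ ∘ J) (φ ∘ M)
  mv_nat : ∀ {Γ Γ' : Type} [Group Γ] [Group Γ'] (φ : Γ →* Γ') (J : Fin s → Γ) (M : Ix m s → Γ)
    (ζ : Γ), φ ∘ mv J M ζ = mv (φ ∘ J) (φ ∘ M) (φ ζ)
  rel_mv : ∀ {Γ : Type} [Group Γ] (J : Fin s → Γ) (M : Ix m s → Γ) (ζ : Γ),
    Commute ζ (gam J M) → rel J (mv J M ζ) = rel J M
  mv_one : ∀ {Γ : Type} [Group Γ] (J : Fin s → Γ) (M : Ix m s → Γ), mv J M 1 = M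

abbrev Tup (m s r : ℕ) (Λ : Type) [CommRing Λ] := Ix m s → GL (Fin r) Λ
abbrev Mat (r : ℕ) (Λ : Type) := Matrix (Fin r) (Fin r) Λ

variable {k : Type} [Field k] {Λ Λ' Λ'' : Type} [CommRing Λ] [CommRing Λ'] [CommRing Λ'']
  [Algebra k Λ] [Algebra k Λ'] [Algebra k Λ'']

def gm (φ : Λ →ₐ[k] Λ') : GL (Fin r) Λ →* GL (Fin r) Λ' := GeneralLinearGroup.map φ.toRingHom

@[simp] theorem gm_val (φ : Λ →ₐ[k] Λ') (g : GL (Fin r) Λ) : (gm φ g).val = g.val.map φ := rfl

theorem gm_inv_val (φ : Λ →ₐ[k] Λ') (g : GL (Fin r) Λ) : (gm φ g)⁻¹.val = g⁻¹.val.map φ := rfl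

theorem gm_gm (φ : Λ →ₐ[k] Λ') (ψ : Λ' →ₐ[k] Λ'') (g : GL (Fin r) Λ) :
    gm ψ (gm φ g) = gm (ψ.comp φ) g := Units.ext rfl

@[simp] theorem gm_id (g : GL (Fin r) Λ) : gm (AlgHom.id k Λ) g = g := Units.ext rfl

theorem gm_injective (φ : Λ →ₐ[k] Λ') (h : Function.Injective φ) :
    Function.Injective (gm (r := r) φ) := fun a b e =>
  Units.ext (Matrix.map_injective h (congrArg Units.val e))

/-- base change of constants -/
def Jm (Λ : Type) [CommRing Λ] [Algebra k Λ] (J : Fin s → GL (Fin r) k) : Fin s → GL (Fin r) Λ :=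
  gm (Algebra.ofId k Λ) ∘ J

theorem gm_Jm (φ : Λ →ₐ[k] Λ') (J : Fin s → GL (Fin r) k) : gm φ ∘ Jm Λ J = Jm Λ' J := by
  ext j : 1
  simp only [Jm, Function.comp, gm_gm]
  congr 2
  exact Subsingleton.elim _ _

@[simp] theorem Jm_self (J : Fin s → GL (Fin r) k) : Jm k J = J := by
  ext j : 1
  exact Units.ext rfl

abbrev Var (m s r : ℕ) := Ix m s × Fin r × Fin r

def ent (p : Tup m s r Λ) (v : Var m s r) : Λ := (p v.1).val v.2.1 v.2.2

noncomputable def gX (m s r : ℕ) (k : Type) [Field k] (x : Ix m s) :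
    Mat r (MvPolynomial (Var m s r) k) := Matrix.of fun i j => MvPolynomial.X (x, i, j)

noncomputable def Del (m s r : ℕ) (k : Type) [Field k] : MvPolynomial (Var m s r) k :=
  ∏ x, (gX m s r k x).det

abbrev UU (m s r : ℕ) (k : Type) [Field k] := Localization.Away (Del m s r k)

theorem aeval_gX (p : Tup m s r Λ) (x : Ix m s) :
    (gX m s r k x).map (MvPolynomial.aeval (ent p) : _ →ₐ[k] Λ) = (p x).val := by
  ext i j; simp [gX, ent]

theorem aeval_Del (p : Tup m s r Λ) :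
    IsUnit ((MvPolynomial.aeval (ent p) : _ →ₐ[k] Λ) (Del m s r k)) := by
  rw [Del, map_prod, IsUnit.prod_univ_iff]
  intro x
  rw [AlgHom.map_det, AlgHom.mapMatrix_apply, aeval_gX]
  exact (Matrix.isUnit_iff_isUnit_det _).1 (p x).isUnit

/-- classifying homomorphism of a point -/
noncomputable def cl (k : Type) [Field k] [Algebra k Λ] (p : Tup m s r Λ) : UU m s r k →ₐ[k] Λ :=
  IsLocalization.liftAlgHom (M := Submonoid.powers (Del m s r k)) (f := MvPolynomial.aeval (ent p))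
    (by rintro ⟨_, n, rfl⟩; simpa using (aeval_Del p).pow n)

@[simp] theorem cl_algebraMap (p : Tup m s r Λ) (F : MvPolynomial (Var m s r) k) :
    cl k p (algebraMap _ _ F) = MvPolynomial.aeval (ent p) F := by
  simp [cl]

/-- universal point -/
noncomputable def up (m s r : ℕ) (k : Type) [Field k] : Tup m s r (UU m s r k) := fun x =>
  GeneralLinearGroup.mk'' ((gX m s r k x).map (algebraMap _ _)) (by
    have h := IsLocalization.Away.algebraMap_isUnit (S := UU m s r k) (Del m s r k)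
    have e : algebraMap _ (UU m s r k) (Del m s r k) =
        ∏ x, algebraMap _ (UU m s r k) (gX m s r k x).det := map_prod _ _ _
    rw [e, IsUnit.prod_univ_iff] at h
    have := h x
    rwa [RingHom.map_det] at this)

theorem up_val (x : Ix m s) : (up m s r k x).val = (gX m s r k x).map (algebraMap _ _) := rfl

theorem gm_cl_up (p : Tup m s r Λ) : gm (cl k p) ∘ up m s r k = p := by
  ext x i j
  simp [up_val, gX, ent]

theorem cl_gm (φ : Λ →ₐ[k] Λ') (p : Tup m s r Λ) : cl k (gm φ ∘ p) = φ.comp (cl k p) := by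
  apply Localization.algHom_ext
  refine MvPolynomial.algHom_ext fun v => ?_
  change cl k _ (algebraMap _ _ (MvPolynomial.X v)) = φ (cl k _ (algebraMap _ _ (MvPolynomial.X v)))
  simp [ent]

theorem cl_up : cl k (up m s r k) = AlgHom.id k _ := by
  apply Localization.algHom_ext
  refine MvPolynomial.algHom_ext fun v => ?_
  change cl k _ (algebraMap _ _ (MvPolynomial.X v)) = algebraMap _ _ (MvPolynomial.X v)
  rw [cl_algebraMap, MvPolynomial.aeval_X]
  rfl

theorem cl_gm_up (φ : UU m s r k →ₐ[k] Λ) : cl k (gm φ ∘ up m s r k) = φ := by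
  rw [cl_gm, cl_up]; rfl

/-- integral points -/
def DD (J : Fin s → GL (Fin r) k) (G : Subgroup (GL (Fin r) k)) : Set (Tup m s r k) :=
  {M | (∀ x, M x ∈ G) ∧ Rel J M}

/-- the density property of units -/
def HU (G : Subgroup (GL (Fin r) k)) : Prop :=
  ∀ γ ∈ G, ∀ F : MvPolynomial (Fin r) k,
    (∀ t : Fin r → k, (∃ ζ ∈ G, ζ.val = ∑ i, t i • γ.val ^ i.val) → MvPolynomial.eval t F = 0) →
      F = 0

/-- membership in the Zariski closure of the integral points -/
def InZ (J : Fin s → GL (Fin r) k) (G : Subgroup (GL (Fin r) k)) (p : Tup m s r Λ) : Prop :=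
  ∀ F : UU m s r k, (∀ q ∈ DD J G, cl k q F = 0) → cl k p F = 0

def Adm (γ ζ : GL (Fin r) Λ) : Prop := ζ.val ∈ Algebra.adjoin Λ {γ.val}

end P002
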