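import Mathlib

/-! Derivations, algebraic independence and the Krull bound. -/

namespace P002
open MvPolynomial

theorem chain {k Λ Ω σ : Type*} [CommRing k] [CommRing Λ] [CommRing Ω] [Algebra k Λ] [Algebra k Ω]
    [Fintype σ] (c0 : Λ →ₐ[k] Ω) (c1 : Λ →ₗ[k] Ω) (h1 : c1 1 = 0)
    (hm : ∀ a b, c1 (a * b) = c0 a * c1 b + c0 b * c1 a) (z : σ → Λ) (F : MvPolynomial σ k) :
    c1 (aeval z F) = ∑ v, aeval (fun v => c0 (z v)) (pderiv v F) * c1 (z v) := by
  classical
  induction F using MvPolynomial.induction_on with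
  | C a =>
    rw [aeval_C, Algebra.algebraMap_eq_smul_one, map_smul, h1]
    simp
  | add p q hp hq => simp [hp, hq, add_mul, Finset.sum_add_distrib]
  | mul_X p i hp =>
    rw [map_mul, hm, hp, aeval_X]
    have e : c0 (aeval z p) = aeval (fun v => c0 (z v)) p := by
      rw [← AlgHom.comp_apply, comp_aeval]
    simp only [Derivation.leibniz, pderiv_X, smul_eq_mul, map_add, map_mul, aeval_X, add_mul,
      Finset.sum_add_distrib, Finset.mul_sum, e]
    congr 1
    · rw [Finset.sum_eq_single i]
      · simp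
      · intro b _ hb
        simp [Pi.single_apply, hb.symm]
      · simp
    · exact Finset.sum_congr rfl fun v _ => by ring

/-- `w` is tangent at `x` to the Zariski closure of `x`. -/
def Tan (k : Type*) {Ω σ : Type*} [CommRing k] [CommRing Ω] [Algebra k Ω] [Fintype σ]
    (x w : σ → Ω) : Prop :=
  ∀ F : MvPolynomial σ k, aeval x F = 0 → ∑ v, aeval x (pderiv v F) * w v = 0

theorem totalDegree_pderiv_lt {k σ : Type*} [CommRing k] (F : MvPolynomial σ k) (v : σ)
    (h : pderiv v F ≠ 0) : (pderiv v F).totalDegree < F.totalDegree := by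
  classical
  obtain ⟨m, hm, e⟩ := Finset.exists_mem_eq_sup (pderiv v F).support (support_nonempty.2 h)
    (fun s => s.sum fun _ e => e)
  have h1 : m + Finsupp.single v 1 ∈ F.support := by
    rw [mem_support_iff] at hm ⊢
    intro h0
    apply hm
    rw [coeff_pderiv, h0, zero_mul]
  have h2 := le_totalDegree h1
  rw [Finsupp.sum_add_index' (by simp) (by simp), Finsupp.sum_single_index rfl] at h2
  rw [totalDegree, e]
  omega

theorem eq_C_of_pderiv {k σ : Type*} [Field k] [CharZero k] (F : MvPolynomial σ k)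
    (h : ∀ v, pderiv v F = 0) : F = C (coeff 0 F) := by
  classical
  ext m
  rw [coeff_C]
  split_ifs with hm
  · rw [hm]
  · obtain ⟨v, hv⟩ : ∃ v, m v ≠ 0 := by
      by_contra hc
      push Not at hc
      exact hm (Finsupp.ext fun v => by simp [hc v])
    have e : m = (m - Finsupp.single v 1) + Finsupp.single v 1 := by
      rw [tsub_add_cancel_of_le]
      rw [Finsupp.single_le_iff]; omega
    have := congrArg (coeff (m - Finsupp.single v 1)) (h v)
    rw [coeff_pderiv, ← e, coeff_zero] at this
    rcases mul_eq_zero.1 this with h0 | h0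
    · exact h0
    · exact absurd h0 (Nat.cast_add_one_ne_zero _)

theorem beta {k Ω σ : Type*} [Field k] [CharZero k] [Field Ω] [Algebra k Ω] [Fintype σ]
    (x : σ → Ω) (h : ∀ c : σ → Ω, (∀ w, Tan k x w → ∑ v, c v * w v = 0) → c = 0) :
    AlgebraicIndependent k x := by
  rw [algebraicIndependent_iff]
  intro F
  induction hn : F.totalDegree using Nat.strong_induction_on generalizing F with
  | _ n ih =>
    intro hF
    have h1 := h (fun v => aeval x (pderiv v F)) fun w hw => hw F hF
    have h2 : ∀ v, pderiv v F = 0 := by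
      intro v
      by_contra hne
      exact hne (ih _ (hn ▸ totalDegree_pderiv_lt F v hne) _ rfl (congrFun h1 v))
    have h3 := eq_C_of_pderiv F h2
    rw [h3, aeval_C, map_eq_zero] at hF
    rw [h3, hF, map_zero]

theorem tan_der {k Ω σ : Type*} [Field k] [Field Ω] [Algebra k Ω] [Fintype σ]
    (x : σ → Ω) (D : Derivation k Ω Ω) : Tan k x fun v => D (x v) := by
  intro F hF
  have := chain (AlgHom.id k Ω) (D : Ω →ₗ[k] Ω) (by simp) (by intro a b; simp) x F
  rw [hF, map_zero] at this
  exact this.symm

theorem beta_der {k Ω σ : Type*} [Field k] [CharZero k] [Field Ω] [Algebra k Ω] [Fintype σ]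
    (x : σ → Ω) (h : ∀ w : σ → Ω, ∃ D : Derivation k Ω Ω, ∀ v, D (x v) = w v) :
    AlgebraicIndependent k x := by
  classical
  refine beta x fun c hc => funext fun v => ?_
  obtain ⟨D, hD⟩ := h (Pi.single v 1)
  have := hc _ (tan_der x D)
  simp only [hD] at this
  rw [Finset.sum_eq_single v] at this
  · simpa using this
  · intro b _ hb; simp [Pi.single_apply, hb]
  · simp

theorem ext_der {k Ω ι : Type} [Field k] [CharZero k] [Field Ω] [Algebra k Ω] (x : ι → Ω)
    (hx : IsTranscendenceBasis k x) (w : ι → Ω) :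
    ∃ D : Derivation k Ω Ω, ∀ i, D (x i) = w i := by
  let P := MvPolynomial ι k
  let _ : Algebra P Ω := (aeval x : P →ₐ[k] Ω).toAlgebra
  have hP : ∀ p : P, algebraMap P Ω p = aeval x p := fun _ => rfl
  have : IsScalarTower k P Ω := IsScalarTower.of_algebraMap_eq fun a => by
    rw [hP, AlgHom.commutes]
  have : FaithfulSMul P Ω := (faithfulSMul_iff_algebraMap_injective P Ω).2 hx.1
  have : Algebra.IsAlgebraic P Ω := by
    have := hx.isAlgebraic
    refine ⟨fun z => ?_⟩
    exact IsAlgebraic.of_ringHom_of_comp_eq (f := hx.1.aevalEquiv.toRingHom) (g := RingHom.id Ω)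
      (this.isAlgebraic z) hx.1.aevalEquiv.surjective Function.injective_id
      (RingHom.ext fun p => hx.1.algebraMap_aevalEquiv p)
  let K := FractionRing P
  let _ : Algebra K Ω := FractionRing.liftAlgebra P Ω
  have : IsScalarTower P K Ω := FractionRing.isScalarTower_liftAlgebra P Ω
  have : Algebra.IsAlgebraic K Ω := Algebra.IsAlgebraic.extendScalars (R := P)
    (IsFractionRing.injective P K)
  have : CharZero K := by infer_instance
  have : Algebra.FormallyEtale K Ω := Algebra.FormallyEtale.of_isSeparable K Ω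
  have : Algebra.FormallySmooth P K := Algebra.FormallySmooth.of_isLocalization (nonZeroDivisors P)
  have : Algebra.FormallySmooth P Ω := Algebra.FormallySmooth.comp P K Ω
  let φ : P →ₐ[k] DualNumber Ω := aeval fun i => TrivSqZeroExt.inl (x i) + TrivSqZeroExt.inr (w i)
  have hφ : ∀ p, (φ p).fst = aeval x p := by
    intro p
    have : (TrivSqZeroExt.fstHom k Ω Ω).comp φ = aeval x := by
      ext i; simp [φ]
    exact DFunLike.congr_fun this p
  obtain ⟨l, hl, hlφ⟩ : ∃ l : Ω →+* DualNumber Ω, (∀ a, (l a).fst = a) ∧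
      ∀ p, l (aeval x p) = φ p := by
    let _ : Algebra P (DualNumber Ω) := φ.toAlgebra
    let g : DualNumber Ω →ₐ[P] Ω :=
      { (TrivSqZeroExt.fstHom k Ω Ω).toRingHom with commutes' := hφ }
    have hg : Function.Surjective g := fun a => ⟨TrivSqZeroExt.inl a, rfl⟩
    have hn : IsNilpotent (RingHom.ker (g : DualNumber Ω →+* Ω)) := by
      refine ⟨2, ?_⟩
      have e2 : ∀ I : Ideal (DualNumber Ω), I ^ 2 = I * I := fun I => sq I
      rw [e2, Ideal.zero_eq_bot, eq_bot_iff, Ideal.mul_le]
      intro a ha b hb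
      have ha' : a.fst = 0 := ha
      have hb' : b.fst = 0 := hb
      rw [Ideal.mem_bot]
      ext <;> simp [ha', hb']
    let l := Algebra.FormallySmooth.liftOfSurjective (AlgHom.id P Ω) g hg hn
    exact ⟨l.toRingHom, fun a =>
      Algebra.FormallySmooth.liftOfSurjective_apply (AlgHom.id P Ω) g hg hn a, l.commutes⟩
  have hk : ∀ c : k, l (algebraMap k Ω c) = algebraMap k (DualNumber Ω) c := by
    intro c
    rw [← (aeval x : P →ₐ[k] Ω).commutes, hlφ, φ.commutes]
  refine ⟨Derivation.mk' ⟨⟨fun a => (l a).snd, fun a b => by simp⟩, fun c a => ?_⟩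
    fun a b => ?_, fun i => ?_⟩
  · simp only [Algebra.smul_def, map_mul, hk, RingHom.id_apply]
    rw [← Algebra.smul_def, ← Algebra.smul_def, TrivSqZeroExt.snd_smul]
  · simp [map_mul, hl, mul_comm]
  · have := hlφ (X i)
    rw [aeval_X] at this
    change (l (x i)).snd = _
    have e : φ (X i) = TrivSqZeroExt.inl (x i) + TrivSqZeroExt.inr (w i) := aeval_X _ _
    rw [this, e]
    simp

theorem height_max (K : Type) [Field K] (σ : Type) [Finite σ] :
    ∀ (m : Ideal (MvPolynomial σ K)), m.IsMaximal → m.height = Nat.card σ := by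
  induction σ using Finite.induction_empty_option with
  | of_equiv e H =>
    intro m hm
    have := H (m.comap (renameEquiv K e).toRingEquiv) (Ideal.comap_isMaximal_of_equiv _)
    rw [RingEquiv.height_comap] at this
    rw [this, Nat.card_congr e]
  | h_empty =>
    intro m hm
    have : m = ⊥ := by
      let e := (isEmptyRingEquiv K PEmpty)
      have h1 : (m.map e).IsMaximal := Ideal.map_isMaximal_of_equiv e
      have h2 := Ideal.eq_bot_of_prime (m.map e)
      rwa [Ideal.map_eq_bot_iff_of_injective e.injective] at h2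
    simp [this]
  | @h_option α _ IH =>
    intro m hm
    let e := (optionEquivLeft K α).toRingEquiv
    have h1 : (m.map e).IsMaximal := Ideal.map_isMaximal_of_equiv e
    rw [← e.height_map]
    generalize m.map e = m' at h1
    have h2 : m'.LiesOver (m'.under (MvPolynomial α K)) := ⟨rfl⟩
    rw [Polynomial.height_eq_height_add_one (m'.under (MvPolynomial α K)) m',
      IH (m'.under (MvPolynomial α K)) (Polynomial.isMaximal_comap_C_of_isJacobsonRing m')]
    simp

theorem krull_basis {k Ω σ : Type} [Field k] [Field Ω] [Algebra k Ω] [Fintype σ] (x : σ → Ω)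
    [Algebra.IsAlgebraic (Algebra.adjoin k (Set.range x)) Ω] :
    ∃ s : Set σ, IsTranscendenceBasis k (fun i : s => x i) ∧
      (RingHom.ker (aeval x : MvPolynomial σ k →ₐ[k] Ω)).height = Nat.card (sᶜ : Set σ) := by
  classical
  obtain ⟨t, ht, hb⟩ := exists_isTranscendenceBasis_subset (R := k) (Set.range x)
  choose g hg using fun y : t => ht y.2
  have ginj : Function.Injective g := fun a b h => Subtype.ext (by rw [← hg a, ← hg b, h])
  let s := Set.range g
  have hs : IsTranscendenceBasis k (fun i : s => x i) := by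
    have := (isTranscendenceBasis_equiv (R := k) (Equiv.ofInjective g ginj)
      (f := fun i : s => x i)).1
    apply this
    convert hb using 1
    ext y
    exact hg y
  refine ⟨s, hs, ?_⟩
  let P := MvPolynomial s k
  let _ : Algebra P Ω := (aeval (fun i : s => x i) : P →ₐ[k] Ω).toAlgebra
  have hP : ∀ p : P, algebraMap P Ω p = aeval (fun i : s => x i) p := fun _ => rfl
  have : FaithfulSMul P Ω := (faithfulSMul_iff_algebraMap_injective P Ω).2 hs.1
  have : Algebra.IsAlgebraic P Ω := by
    have := hs.isAlgebraic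
    refine ⟨fun z => ?_⟩
    exact IsAlgebraic.of_ringHom_of_comp_eq (f := hs.1.aevalEquiv.toRingHom) (g := RingHom.id Ω)
      (this.isAlgebraic z) hs.1.aevalEquiv.surjective Function.injective_id
      (RingHom.ext fun p => hs.1.algebraMap_aevalEquiv p)
  let K := FractionRing P
  let _ : Algebra K Ω := FractionRing.liftAlgebra P Ω
  have : IsScalarTower P K Ω := FractionRing.isScalarTower_liftAlgebra P Ω
  have : Algebra.IsAlgebraic K Ω := Algebra.IsAlgebraic.extendScalars (R := P)
    (IsFractionRing.injective P K)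
  let τ := (sᶜ : Set σ)
  let ψ : MvPolynomial τ K →ₐ[K] Ω := aeval fun i => x i
  have hm : (RingHom.ker ψ).IsMaximal := by
    have : Algebra.IsAlgebraic K ψ.range :=
      Algebra.IsAlgebraic.of_injective ψ.range.val Subtype.val_injective
    have hf : IsField ψ.range := isField_of_isIntegral_of_isField' (Field.toIsField K)
    let _ := hf.toField
    rw [← AlgHom.ker_rangeRestrict]
    exact RingHom.ker_isMaximal_of_surjective _ ψ.rangeRestrict_surjective
  rw [← height_max K τ _ hm]
  let _ : Algebra (MvPolynomial τ P) (MvPolynomial τ K) := MvPolynomial.algebraMvPolynomial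
  rw [← IsLocalization.height_under ((nonZeroDivisors P).map (C (σ := τ))) (RingHom.ker ψ)]
  let e : MvPolynomial σ k ≃+* MvPolynomial τ P :=
    ((renameEquiv k ((Equiv.Set.sumCompl s).symm.trans (Equiv.sumComm _ _))).trans
      (sumAlgEquiv k τ s)).toRingEquiv
  rw [← e.height_comap]
  congr 1
  have : (ψ.toRingHom.comp (algebraMap (MvPolynomial τ P) (MvPolynomial τ K))).comp e.toRingHom =
      (aeval x : MvPolynomial σ k →ₐ[k] Ω).toRingHom := by
    refine MvPolynomial.ringHom_ext (fun a => ?_) fun i => ?_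
    · simp [e, ψ, algebraMap_eq]
      rw [sumAlgEquiv_C_inl, map_C, aeval_C, ← IsScalarTower.algebraMap_apply, hP, aeval_C]
    · by_cases hi : i ∈ s
      · simp [e, ψ, Equiv.Set.sumCompl_symm_apply_of_mem hi]
        erw [sumAlgEquiv_X_inr]
        rw [map_C, aeval_C, ← IsScalarTower.algebraMap_apply, hP, aeval_X]
      · simp [e, ψ, Equiv.Set.sumCompl_symm_apply_of_notMem hi]
        erw [sumAlgEquiv_X_inl]
        rw [map_X, aeval_X]
  ext F
  rw [RingHom.mem_ker, Ideal.mem_comap, Ideal.mem_comap, RingHom.mem_ker]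
  have := DFunLike.congr_fun this F
  exact this ▸ Iff.rfl

/-- evaluation of derivations on a family -/
def ev (k : Type) {Ω σ : Type} [Field k] [Field Ω] [Algebra k Ω] (x : σ → Ω) :
    Derivation k Ω Ω →ₗ[Ω] (σ → Ω) where
  toFun D v := D (x v)
  map_add' _ _ := rfl
  map_smul' _ _ := rfl

theorem krull {k Ω σ : Type} [Field k] [CharZero k] [Field Ω] [Algebra k Ω] [Fintype σ]
    (x : σ → Ω) [Algebra.IsAlgebraic (Algebra.adjoin k (Set.range x)) Ω] (c : ℕ)
    (hc : (RingHom.ker (aeval x : MvPolynomial σ k →ₐ[k] Ω)).height ≤ c) :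
    Fintype.card σ ≤ Module.finrank Ω (LinearMap.range (ev k x)) + c := by
  classical
  obtain ⟨s, hs, e⟩ := krull_basis (k := k) x
  rw [e, Nat.cast_le] at hc
  let π : (σ → Ω) →ₗ[Ω] (s → Ω) := LinearMap.funLeft Ω Ω Subtype.val
  have h1 : (LinearMap.range (ev k x)).map π = ⊤ := by
    rw [eq_top_iff]
    intro w _
    obtain ⟨D, hD⟩ := ext_der _ hs w
    exact ⟨_, ⟨D, rfl⟩, funext hD⟩
  have h2 := Submodule.finrank_map_le π (LinearMap.range (ev k x))
  rw [h1, finrank_top, Module.finrank_fintype_fun_eq_card] at h2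
  have h3 := Fintype.card_compl_set s
  have h4 := set_fintype_card_le_univ s
  rw [Nat.card_eq_fintype_card] at hc
  omega

end P002
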