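import Vale.Agent.P002.Defs

/-! Linear algebra: dimension counts, trace pairing, determinant witnesses. -/

namespace P002
open Matrix Module

section fr
variable {K E F E' : Type} [Field K] [AddCommGroup E] [Module K E] [AddCommGroup F] [Module K F]
  [AddCommGroup E'] [Module K E'] [FiniteDimensional K E] [FiniteDimensional K F]
  [FiniteDimensional K E']

theorem fr_split (f : E →ₗ[K] F) (g : E →ₗ[K] E') (V : Submodule K E)
    (hi : ∀ v ∈ V, f v = 0 → g v = 0 → v = 0) :
    finrank K V = finrank K (V.map f) + finrank K ((V ⊓ LinearMap.ker f).map g) := by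
  have h1 := LinearMap.finrank_range_add_finrank_ker (f.domRestrict V)
  rw [LinearMap.range_domRestrict] at h1
  have h2 : finrank K (LinearMap.ker (f.domRestrict V)) = finrank K (V ⊓ LinearMap.ker f :) := by
    rw [LinearMap.ker_domRestrict, ← Submodule.finrank_map_subtype_eq V, Submodule.map_comap_subtype]
  have h3 := LinearMap.finrank_range_of_inj (f := g.domRestrict (V ⊓ LinearMap.ker f)) (by
    rw [← LinearMap.ker_eq_bot, eq_bot_iff]
    rintro ⟨v, hv⟩ h
    exact Subtype.ext (hi v hv.1 hv.2 h))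
  rw [LinearMap.range_domRestrict] at h3
  omega

theorem fr_le (f : E →ₗ[K] F) (g : E →ₗ[K] E') (V : Submodule K E) (T : Submodule K F)
    (S : Submodule K E') (hT : ∀ v ∈ V, f v ∈ T) (hS : ∀ v ∈ V, f v = 0 → g v ∈ S)
    (hi : ∀ v ∈ V, f v = 0 → g v = 0 → v = 0) : finrank K V ≤ finrank K T + finrank K S := by
  rw [fr_split f g V hi]
  refine add_le_add (Submodule.finrank_mono ?_) (Submodule.finrank_mono ?_)
  · rintro _ ⟨v, hv, rfl⟩; exact hT v hv
  · rintro _ ⟨v, hv, rfl⟩; exact hS v hv.1 hv.2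

theorem fr_eq (f : E →ₗ[K] F) (g : E →ₗ[K] E') (V : Submodule K E) (T : Submodule K F)
    (S : Submodule K E') (hT : ∀ v ∈ V, f v ∈ T) (hS : ∀ v ∈ V, f v = 0 → g v ∈ S)
    (hi : ∀ v ∈ V, f v = 0 → g v = 0 → v = 0) (h : finrank K T + finrank K S ≤ finrank K V) :
    (∀ t ∈ T, ∃ v ∈ V, f v = t) ∧ ∀ x ∈ S, ∃ v ∈ V, f v = 0 ∧ g v = x := by
  rw [fr_split f g V hi] at h
  have h1 : V.map f ≤ T := by rintro _ ⟨v, hv, rfl⟩; exact hT v hv
  have h2 : (V ⊓ LinearMap.ker f).map g ≤ S := by rintro _ ⟨v, hv, rfl⟩; exact hS v hv.1 hv.2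
  have h3 := Submodule.finrank_mono h1
  have h4 := Submodule.finrank_mono h2
  have h5 := Submodule.eq_of_le_of_finrank_le h1 (by omega)
  have h6 := Submodule.eq_of_le_of_finrank_le h2 (by omega)
  refine ⟨fun t ht => ?_, fun x hx => ?_⟩
  · rw [← h5] at ht; exact ht
  · rw [← h6] at hx
    obtain ⟨v, hv, e⟩ := hx
    exact ⟨v, hv.1, hv.2, e⟩

end fr

variable {r : ℕ} {K : Type} [Field K]

theorem finrank_Mat : finrank K (Mat r K) = r * r := by
  simp [Module.finrank_matrix]

theorem exists_trace_rep (φ : Dual K (Mat r K)) : ∃ ξ : Mat r K, ∀ w, φ w = trace (ξ * w) := by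
  refine ⟨Matrix.of fun j i => φ (single i j 1), fun w => ?_⟩
  conv_lhs => rw [matrix_eq_sum_single w]
  simp only [map_sum, trace, diag, mul_apply, of_apply]
  rw [Finset.sum_comm]
  refine Finset.sum_congr rfl fun j _ => Finset.sum_congr rfl fun i _ => ?_
  rw [mul_comm, ← smul_eq_mul, ← map_smul, smul_single, smul_eq_mul, mul_one]

theorem fr_ann (W S : Submodule K (Mat r K))
    (h : ∀ ξ, (∀ w ∈ W, trace (ξ * w) = 0) → ξ ∈ S) : r * r ≤ finrank K W + finrank K S := by
  have h1 := Subspace.finrank_add_finrank_dualAnnihilator_eq W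
  rw [finrank_Mat] at h1
  let τ : Mat r K →ₗ[K] Dual K (Mat r K) := (LinearMap.mul K (Mat r K)).compr₂ (traceLinearMap _ K K)
  have h2 : W.dualAnnihilator ≤ S.map τ := by
    intro φ hφ
    obtain ⟨ξ, hξ⟩ := exists_trace_rep φ
    refine ⟨ξ, h ξ fun w hw => ?_, LinearMap.ext fun w => (hξ w).symm⟩
    rw [← hξ]
    exact (Submodule.mem_dualAnnihilator φ).1 hφ w hw
  have h3 := Submodule.finrank_mono h2
  have h4 := Submodule.finrank_map_le τ S
  omega

theorem span_top_of_ann {κ : Type} [Fintype κ] (s : Set (κ → K))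
    (h : ∀ c : κ → K, (∀ w ∈ s, ∑ v, c v * w v = 0) → c = 0) : Submodule.span K s = ⊤ := by
  classical
  by_contra hne
  obtain ⟨φ, hφ, hs⟩ := Submodule.exists_le_ker_of_lt_top _ (lt_top_iff_ne_top.2 hne)
  apply hφ
  have h1 := h (fun v => φ (Pi.single v 1)) fun w hw => by
    have := hs (Submodule.subset_span hw)
    rw [LinearMap.mem_ker, LinearMap.pi_apply_eq_sum_univ] at this
    rw [← this]
    refine Finset.sum_congr rfl fun v _ => ?_
    rw [smul_eq_mul, mul_comm]
    congr 2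
    ext j; simp [Pi.single_apply, eq_comm]
  refine (Pi.basisFun K κ).ext fun v => ?_
  simpa using congrFun h1 v

theorem ann_of_span_top {κ : Type} [Fintype κ] {s : Set (κ → K)} (h : Submodule.span K s = ⊤)
    (c : κ → K) (hc : ∀ w ∈ s, ∑ v, c v * w v = 0) : c = 0 := by
  classical
  have : ∀ w ∈ Submodule.span K s, ∑ v, c v * w v = 0 := by
    intro w hw
    induction hw using Submodule.span_induction with
    | mem x hx => exact hc x hx
    | zero => simp
    | add x y _ _ hx hy => simp [mul_add, Finset.sum_add_distrib, hx, hy]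
    | smul a x _ hx =>
      simp only [Pi.smul_apply, smul_eq_mul, mul_left_comm _ a, ← Finset.mul_sum, hx, mul_zero]
  ext v
  have h1 := this (Pi.single v 1) (h ▸ Submodule.mem_top)
  rw [Finset.sum_eq_single v] at h1
  · simpa using h1
  · intro b _ hb; simp [hb]
  · simp

/-- determinant witness for a spanning condition -/
theorem semi {R ι κ : Type} [CommRing R] [Fintype κ] (v : ι → κ → R) (d : ι → R) (ψ : R →+* K)
    (h : ∀ c : κ → K, (∀ i, ψ (d i) ≠ 0 → ∑ a, c a * ψ (v i a) = 0) → c = 0) :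
    ∃ δ : R, ψ δ ≠ 0 ∧ ∀ (Ω : Type) [Field Ω] (φ : R →+* Ω), φ δ ≠ 0 →
      ∀ c : κ → Ω, (∀ i, φ (d i) ≠ 0 → ∑ a, c a * φ (v i a) = 0) → c = 0 := by
  classical
  let s : Set (κ → K) := {w | ∃ i, ψ (d i) ≠ 0 ∧ w = fun a => ψ (v i a)}
  have hs : Submodule.span K s = ⊤ := span_top_of_ann s fun c hc =>
    h c fun i hi => hc _ ⟨i, hi, rfl⟩
  obtain ⟨t, hts, ht, hli⟩ := exists_linearIndependent K s
  let b : Basis t K (κ → K) := Basis.mk hli (by rw [Subtype.range_coe, ht, hs])
  have : Finite t := Module.Finite.finite_basis b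
  let e : κ ≃ t := Basis.indexEquiv (Pi.basisFun K κ) b
  choose I hI using fun a : κ => hts (e a).2
  let M : Matrix κ κ R := Matrix.of fun a a' => v (I a) a'
  refine ⟨M.det * ∏ a, d (I a), ?_, fun Ω _ φ hφ c hc => ?_⟩
  · rw [map_mul, map_prod]
    refine mul_ne_zero ?_ (Finset.prod_ne_zero_iff.2 fun a _ => (hI a).1)
    rw [RingHom.map_det]
    refine ((isUnit_iff_isUnit_det _).1 (linearIndependent_rows_iff_isUnit.1 ?_)).ne_zero
    have e1 : (ψ.mapMatrix M).row = Subtype.val ∘ e := by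
      ext a a'
      exact (congrFun (hI a).2 a').symm
    rw [e1]
    exact hli.comp e e.injective
  · rw [map_mul, map_prod, RingHom.map_det] at hφ
    refine eq_zero_of_mulVec_eq_zero (left_ne_zero_of_mul hφ) (funext fun a => ?_)
    have := hc (I a) (Finset.prod_ne_zero_iff.1 (right_ne_zero_of_mul hφ) a (Finset.mem_univ _))
    rw [Pi.zero_apply, ← this]
    simp [mulVec, dotProduct, M, mul_comm]

end P002
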