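import Vale.Agent.P002.Defs

/-! The twists used in the proof. -/

namespace P002

variable {m s : ℕ}

theorem conj_of_commute {Γ : Type} [Group Γ] {ζ γ : Γ} (h : Commute ζ γ) : ζ * γ * ζ⁻¹ = γ := by
  rw [h.eq]; group

theorem pr_split' {Γ : Type} [Group Γ] {n : ℕ} {f : Fin n → Γ} (g : Fin n → Γ) (i : Fin n)
    (h : ∀ j, j ≠ i → f j = g j) : pr f = pre g i * f i * post g i := by
  rw [pr_split f i, pre_congr h, post_congr h]

/-- twist of `A` along `B` -/
def RA (m s : ℕ) : Sch m s where
  gam _ M := M iB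
  mv _ M ζ x := if x = iA then M iA * ζ else M x
  gam_nat _ _ _ := rfl
  mv_nat φ J M ζ := by ext x; by_cases h : x = iA <;> simp [h]
  rel_mv J M ζ h := by
    have e := conj_of_commute h
    unfold rel hf pf
    simp only [reduceCtorEq, if_false, if_true, Sum.inr.injEq, cm]
    conv_rhs => rw [← e]
    congr 2
    conv_rhs => rw [e]
    calc _ = M iA * (ζ * M iB * ζ⁻¹) * (M iA)⁻¹ * (M iB)⁻¹ := by group
      _ = _ := by rw [e]
  mv_one J M := by ext x; by_cases h : x = iA <;> simp [h]

/-- twist of `B` along `A` -/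
def RB (m s : ℕ) : Sch m s where
  gam _ M := M iA
  mv _ M ζ x := if x = iB then M iB * ζ else M x
  gam_nat _ _ _ := rfl
  mv_nat φ J M ζ := by ext x; by_cases h : x = iB <;> simp [h]
  rel_mv J M ζ h := by
    have e := conj_of_commute h.inv_right
    unfold rel hf pf
    simp only [reduceCtorEq, if_false, if_true, Sum.inr.injEq, cm]
    congr 2
    calc _ = M iA * M iB * (ζ * (M iA)⁻¹ * ζ⁻¹) * (M iB)⁻¹ := by group
      _ = _ := by rw [e]
  mv_one J M := by ext x; by_cases h : x = iB <;> simp [h]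

/-- cross twists between an old handle and the last handle -/
def XH (i : Fin m) (two fl : Bool) : Sch m s where
  gam _ M := (if two then (M (ib i) * M (ia i))⁻¹ else (M (ib i))⁻¹) *
    (if fl then post (hf M) i * M iA * (post (hf M) i)⁻¹ else 1)
  mv _ M ζ x := if x = ia i then M (ia i) * ζ⁻¹ else if x = ib i then
      (if two then ζ * M (ib i) else ζ * M (ib i) * ζ⁻¹) else if x = iA then
      (if fl then (post (hf M) i)⁻¹ * ζ * post (hf M) i * M iA *
        ((post (hf M) i)⁻¹ * ζ * post (hf M) i)⁻¹ else M iA) else if x = iB then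
      (if fl then M iB * ((post (hf M) i)⁻¹ * ζ * post (hf M) i)⁻¹ else M iB) else M x
  gam_nat φ J M := by cases two <;> cases fl <;> simp [map_post, map_hf]
  mv_nat φ J M ζ := by
    ext x
    simp only [Function.comp]
    split_ifs <;> simp [map_post, map_hf]
  rel_mv J M ζ h := by
    have e := conj_of_commute h
    unfold rel
    rw [pr_split (hf M) i, pr_split' (hf M) i]
    · unfold pf
      simp only [hf, reduceCtorEq, if_false, if_true, Sum.inr.injEq, Sum.inl.injEq, cm]
      generalize post (hf M) i = P at *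
      generalize pre (hf M) i = Q
      congr 1
      cases two <;> cases fl <;> simp only [reduceCtorEq, if_false, if_true, mul_one] at e ⊢
      · calc _ = Q * M (ia i) * M (ib i) * (M (ia i))⁻¹ * (ζ * (M (ib i))⁻¹ * ζ⁻¹) * P *
            (M iA * M iB * (M iA)⁻¹ * (M iB)⁻¹) := by group
          _ = _ := by rw [e]; group
      · calc _ = Q * M (ia i) * M (ib i) * (M (ia i))⁻¹ *
            (ζ * ((M (ib i))⁻¹ * (P * M iA * P⁻¹)) * ζ⁻¹) * P *
            (M iB * (M iA)⁻¹ * (M iB)⁻¹) := by group
          _ = _ := by rw [e]; group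
      · calc _ = Q * M (ia i) * M (ib i) * (ζ * (M (ib i) * M (ia i))⁻¹ * ζ⁻¹) * P *
            (M iA * M iB * (M iA)⁻¹ * (M iB)⁻¹) := by group
          _ = _ := by rw [e]; group
      · calc _ = Q * M (ia i) * M (ib i) *
            (ζ * ((M (ib i) * M (ia i))⁻¹ * (P * M iA * P⁻¹)) * ζ⁻¹) * P *
            (M iB * (M iA)⁻¹ * (M iB)⁻¹) := by group
          _ = _ := by rw [e]; group
    · intro j hj; simp [hf, hj]
  mv_one J M := by
    ext x
    split_ifs <;> simp [*]

/-- cross twists between a puncture and the last handle -/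
def XP (j : Fin s) (fl : Bool) : Sch m s where
  gam J M := (if fl then (cm (M iA) (M iB))⁻¹ * M iA * cm (M iA) (M iB) else 1) *
    (pre (pf J M) j * pf J M j * (pre (pf J M) j)⁻¹)
  mv J M ζ x := if x = ih j then (pre (pf J M) j)⁻¹ * ζ * pre (pf J M) j * M (ih j)
      else if x = iA then
      (if fl then (M iB * M iA * (M iB)⁻¹)⁻¹ * ζ * (M iB * M iA * (M iB)⁻¹) * M iA *
        ((M iB * M iA * (M iB)⁻¹)⁻¹ * ζ * (M iB * M iA * (M iB)⁻¹))⁻¹ else M iA)
      else if x = iB then
      (if fl then M iB * ((M iB * M iA * (M iB)⁻¹)⁻¹ * ζ * (M iB * M iA * (M iB)⁻¹))⁻¹ else M iB)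
      else M x
  gam_nat φ J M := by cases fl <;> simp [map_pre, map_pf, map_cm, pf]
  mv_nat φ J M ζ := by
    ext x
    simp only [Function.comp]
    split_ifs <;> simp [map_pre, map_pf]
  rel_mv J M ζ h := by
    have e := conj_of_commute h
    unfold rel
    rw [pr_split (pf J M) j, pr_split' (pf J M) j]
    · unfold hf
      simp only [pf, reduceCtorEq, if_false, if_true, Sum.inr.injEq, Sum.inl.injEq, cm] at e ⊢
      generalize post (pf J M) j = P at *
      generalize pre (pf J M) j = Q at *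
      rw [mul_assoc, mul_assoc (pr _)]
      congr 1
      cases fl <;> simp only [reduceCtorEq, if_false, if_true, one_mul] at e ⊢
      · calc _ = (M iA * M iB * (M iA)⁻¹ * (M iB)⁻¹) *
            (ζ * (Q * (M (ih j) * J j * (M (ih j))⁻¹) * Q⁻¹) * ζ⁻¹) * Q * P := by group
          _ = _ := by rw [e]; group
      · calc _ = (M iB * M iA * (M iB)⁻¹)⁻¹ *
            (ζ * ((M iA * M iB * (M iA)⁻¹ * (M iB)⁻¹)⁻¹ * M iA *
              (M iA * M iB * (M iA)⁻¹ * (M iB)⁻¹) *
              (Q * (M (ih j) * J j * (M (ih j))⁻¹) * Q⁻¹)) * ζ⁻¹) * Q * P := by group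
          _ = _ := by rw [e]; group
    · intro j hj; simp [pf, hj]
  mv_one J M := by
    ext x
    split_ifs <;> subst_vars <;> group

end P002
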