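import Vale.Agent.P002.Chart

/-! Spanning properties of words at the base point. -/

namespace P002
open Matrix

variable {r : ℕ} {k : Type} [Field k]

section defs
variable {Λ Λ' : Type} [CommRing Λ] [CommRing Λ'] [Algebra k Λ] [Algebra k Λ']

def zz (t : Fin r → k) (B : Mat r Λ) : Mat r Λ := ∑ i, t i • B ^ i.val

def wd {Γ : Type} [Monoid Γ] (A B z : Γ) (p q : ℕ) : Γ := A * z * (B * (A * z) ^ p) ^ q

theorem map_zz (φ : Λ →ₐ[k] Λ') (t : Fin r → k) (B : Mat r Λ) :
    (zz t B).map φ = zz t (B.map φ) := by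
  change φ.mapMatrix _ = zz t (φ.mapMatrix B)
  simp only [zz, map_sum, map_smul, map_pow]

theorem map_wd {Γ Γ' F : Type} [Monoid Γ] [Monoid Γ'] [FunLike F Γ Γ'] [MonoidHomClass F Γ Γ']
    (φ : F) (A B z : Γ) (p q : ℕ) : φ (wd A B z p q) = wd (φ A) (φ B) (φ z) p q := by
  simp only [wd, map_mul, map_pow]

end defs

variable (k) in
def S1 {K : Type} [Field K] [Algebra k K] (A B : Mat r K) : Prop :=
  ∀ c : Fin r × Fin r → K, ∑ a, c a * (1 : Mat r K) a.1 a.2 = 0 →
    (∀ (t : Fin r → k) (p q : ℕ), (zz t B).det ≠ 0 →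
      ∑ a, c a * wd A B (zz t B) p q a.1 a.2 = 0) → c = 0

variable (k) in
def S2 {K : Type} [Field K] [Algebra k K] (A B : Mat r K) (e : Fin r) : Prop :=
  ∀ c : Sx e → K, (∀ (t : Fin r → k) (n : ℕ), (zz t B).det ≠ 0 →
      ∑ a, c a * (B * (A * zz t B) ^ n) a.1.1 a.1.2 = 0) → c = 0

variable [CharZero k]

theorem polar (ξ A C : Mat r k) (p q : ℕ)
    (h : ∀ d : Fin r → k, (∀ i, d i ≠ 0) → trace (ξ * wd A C (diagonal d) p q) = 0)
    (d : Fin r → k) : trace (ξ * wd A C (diagonal d) p q) = 0 := by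
  let R := MvPolynomial (Fin r) k
  let P : R := trace (ξ.map MvPolynomial.C * wd (A.map MvPolynomial.C) (C.map MvPolynomial.C)
    (diagonal MvPolynomial.X) p q)
  have hP : ∀ d : Fin r → k, MvPolynomial.eval d P = trace (ξ * wd A C (diagonal d) p q) := by
    intro d
    have e : ∀ M : Mat r k, (MvPolynomial.eval d).mapMatrix (M.map MvPolynomial.C) = M := by
      intro M; ext i j; simp
    have e' : (MvPolynomial.eval d).mapMatrix (diagonal MvPolynomial.X) = diagonal d := by
      ext i j; by_cases h : i = j <;> simp [h]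
    rw [AddMonoidHom.map_trace (MvPolynomial.eval d), ← RingHom.mapMatrix_apply, map_mul, map_wd,
      e, e, e, e']
  have : P = 0 := MvPolynomial.funext_set (fun _ => {0}ᶜ)
    (fun _ => (Set.finite_singleton _).infinite_compl) fun d hd => by
      rw [hP, map_zero]
      exact h d fun i => hd i trivial
  rw [← hP, this, map_zero]

omit [CharZero k] in
theorem pol2 (f : Fin r → Fin r → k) (h : ∀ d : Fin r → k, ∑ a, ∑ b, f a b * (d a * d b) = 0)
    (a b : Fin r) : f a b + f b a = 0 := by
  have key : ∀ x y : Fin r → k, ∑ a, ∑ b, f a b * (x a * y b + y a * x b) = 0 := by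
    intro x y
    have := congr($(h (x + y)) - $(h x) - $(h y))
    simp only [← Finset.sum_sub_distrib, sub_zero] at this
    rw [← this]
    exact Finset.sum_congr rfl fun a _ => Finset.sum_congr rfl fun b _ => by
      simp only [Pi.add_apply]; ring
  simpa [mul_add, Finset.sum_add_distrib, Pi.single_apply] using
    key (Pi.single a 1) (Pi.single b 1)

omit [CharZero k] in
theorem pol3 (f : Fin r → Fin r → Fin r → k)
    (h : ∀ d : Fin r → k, ∑ a, ∑ b, ∑ c, f a b c * (d a * d b * d c) = 0) (a b c : Fin r) :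
    f a b c + f a c b + f b a c + f b c a + f c a b + f c b a = 0 := by
  have key : ∀ x y z : Fin r → k, ∑ a, ∑ b, ∑ c, f a b c * (x a * y b * z c + x a * z b * y c +
      y a * x b * z c + y a * z b * x c + z a * x b * y c + z a * y b * x c) = 0 := by
    intro x y z
    have := congr($(h (x + y + z)) - $(h (x + y)) - $(h (x + z)) - $(h (y + z)) +
      $(h x) + $(h y) + $(h z))
    simp only [← Finset.sum_sub_distrib, ← Finset.sum_add_distrib, sub_zero, add_zero] at this
    rw [← this]
    exact Finset.sum_congr rfl fun a _ => Finset.sum_congr rfl fun b _ =>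
      Finset.sum_congr rfl fun c _ => by simp only [Pi.add_apply]; ring
  simpa [mul_add, Finset.sum_add_distrib, Pi.single_apply] using
    key (Pi.single a 1) (Pi.single b 1) (Pi.single c 1)

omit [CharZero k] in
theorem tr2 (ξ A : Mat r k) (γ d : Fin r → k) :
    trace (ξ * wd A (diagonal γ) (diagonal d) 1 1) =
      ∑ a, ∑ b, (ξ * A) b a * γ a * A a b * (d a * d b) := by
  have : ξ * wd A (diagonal γ) (diagonal d) 1 1 =
      (ξ * A) * diagonal d * diagonal γ * A * diagonal d := by simp only [wd, pow_one, mul_assoc]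
  rw [this, Finset.sum_comm]
  generalize ξ * A = η
  simp only [trace, diag, mul_diagonal]
  refine Finset.sum_congr rfl fun b _ => ?_
  rw [mul_apply, Finset.sum_mul]
  exact Finset.sum_congr rfl fun a _ => by simp only [mul_diagonal]; ring

omit [CharZero k] in
theorem tr3 (η A : Mat r k) (γ γ' d : Fin r → k) :
    trace (η * diagonal d * diagonal γ * A * diagonal d * diagonal γ' * A * diagonal d) =
      ∑ a, ∑ b, ∑ c, η c a * γ a * A a b * γ' b * A b c * (d a * d b * d c) := by
  simp only [trace, diag, mul_diagonal]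
  rw [Finset.sum_comm]
  conv_rhs => enter [2, b]; rw [Finset.sum_comm]
  rw [Finset.sum_comm]
  refine Finset.sum_congr rfl fun c _ => ?_
  rw [mul_apply, Finset.sum_mul]
  refine Finset.sum_congr rfl fun b _ => ?_
  simp only [mul_diagonal]
  rw [mul_apply]
  simp only [Finset.sum_mul]
  exact Finset.sum_congr rfl fun a _ => by simp only [mul_diagonal]; ring

/-- genericity of the entries -/
def Gen (A : Mat r k) (e : Fin r) : Prop :=
  (∀ a b, A a b ≠ 0) ∧ ∀ b c, b ≠ e → c ≠ e → b ≠ c → A e b * A b c * A c e ≠ A e c * A c b * A b e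

theorem ann_words (ξ A : Mat r k) (e : Fin r) (hA : Gen A e) (γ : Fin r → k)
    (h : ∀ p q (d : Fin r → k), (∀ i, d i ≠ 0) →
      trace (ξ * wd A (diagonal γ) (diagonal d) p q) = 0) :
    ∃ μ : Fin r → k, μ e = 0 ∧ (∀ b c, (ξ * A) b c * γ c = A b c * (μ b - μ c)) ∧
      ∀ b c, μ c * (γ b - γ e) = μ b * (γ c - γ e) := by
  have h' := fun p q => polar ξ A (diagonal γ) p q (h p q)
  obtain ⟨σ, hσ⟩ : ∃ σ : Fin r → Fin r → k, ∀ b c, (ξ * A) b c * γ c = A b c * σ b c :=
    ⟨fun b c => (ξ * A) b c * γ c / A b c, fun b c => by field_simp [hA.1 b c]⟩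
  have h2 : ∀ a b, σ b a = -σ a b := by
    intro a b
    have := pol2 _ (fun d => (tr2 ξ A γ d).symm.trans (h' 1 1 d)) a b
    rw [hσ, hσ] at this
    have h3 : A a b * A b a * (σ b a + σ a b) = 0 := by linear_combination this
    exact eq_neg_of_add_eq_zero_left
      ((mul_eq_zero.1 h3).resolve_left (mul_ne_zero (hA.1 _ _) (hA.1 _ _)))
  have h0 : ∀ a, σ a a = 0 := fun a => by simpa [eq_neg_iff_add_eq_zero] using h2 a a
  have h3 : ∀ γ' : Fin r → k, (∀ d, trace (ξ * A * diagonal d * diagonal γ * A * diagonal d *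
      diagonal γ' * A * diagonal d) = 0) → ∀ b c, b ≠ e → c ≠ e → b ≠ c →
      σ c e * γ' b + σ e b * γ' c + σ b c * γ' e = 0 := by
    intro γ' hγ b c hb hc hbc
    have := pol3 _ (fun d => (tr3 (ξ * A) A γ γ' d).symm.trans (hγ d)) e b c
    simp only [hσ] at this
    rw [h2 e b, h2 c e, h2 b c] at this
    have h4 : (A e b * A b c * A c e - A e c * A c b * A b e) *
        (σ c e * γ' b + σ e b * γ' c + σ b c * γ' e) = 0 := by linear_combination this
    exact (mul_eq_zero.1 h4).resolve_left (sub_ne_zero.2 (hA.2 b c hb hc hbc))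
  have h4 := h3 1 fun d => by
    rw [← h' 2 1 d]
    simp only [wd, pow_succ, pow_zero, one_mul, mul_assoc, diagonal_one']
  have h5 := h3 γ fun d => by
    rw [← h' 1 2 d]
    simp only [wd, pow_succ, pow_zero, one_mul, mul_assoc]
  have h6 : ∀ b c, σ b c = σ b e - σ c e := by
    intro b c
    by_cases hb : b = e
    · rw [hb, h0, zero_sub, h2]
    by_cases hc : c = e
    · rw [hc, h0, sub_zero]
    by_cases hbc : b = c
    · rw [hbc, h0, sub_self]
    have := h4 b c hb hc hbc
    rw [h2 b e] at this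
    simp only [Pi.one_apply] at this
    linear_combination this
  refine ⟨fun b => σ b e, h0 e, fun b c => by rw [hσ, h6], fun b c => ?_⟩
  by_cases hb : b = e
  · simp [hb, h0]
  by_cases hc : c = e
  · simp [hc, h0]
  by_cases hbc : b = c
  · rw [hbc]
  have := h5 b c hb hc hbc
  rw [h2 b e, h6 b c] at this
  linear_combination this

omit [CharZero k] in
theorem exists_zz (β : Fin r → k) (hβ : Function.Injective β) (d : Fin r → k) :
    ∃ t : Fin r → k, zz t (diagonal β) = diagonal d := by
  obtain ⟨t, ht⟩ := (mulVec_surjective_iff_isUnit.2 ((isUnit_iff_isUnit_det _).2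
    (det_vandermonde_ne_zero_iff.2 hβ).isUnit)) d
  refine ⟨t, ?_⟩
  ext i j
  by_cases h : i = j
  · simp [zz, ← ht, h, diagonal_pow, Matrix.sum_apply, mulVec, dotProduct, vandermonde_apply,
      mul_comm]
  · simp [zz, h, diagonal_pow, Matrix.sum_apply]

omit [CharZero k] in
theorem sum_eq_trace {K : Type} [CommRing K] (c : Fin r × Fin r → K) (M : Mat r K) :
    ∑ a, c a * M a.1 a.2 = trace (Matrix.of (fun j i => c (i, j)) * M) := by
  rw [Fintype.sum_prod_type, Finset.sum_comm]
  rfl

theorem span1 (A B : GL (Fin r) k) (e : Fin r) (β : Fin r → k) (hβ : Function.Injective β)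
    (hB : B.val = diagonal β) (hA : Gen A.val e)
    (hW : trace (cm B A).val = r → B * A = A * B) : S1 k A.val B.val := by
  intro c h1 h2
  simp only [sum_eq_trace, mul_one] at h1 h2
  suffices h : (Matrix.of fun j i => c (i, j)) = 0 from funext fun a => congrFun (congrFun h _) _
  generalize (Matrix.of fun j i => c (i, j)) = ξ at *
  obtain ⟨μ, h3, h4, h5⟩ := ann_words ξ A.val e hA β fun p q d hd => by
    obtain ⟨t, ht⟩ := exists_zz β hβ d
    rw [← ht, ← hB]
    exact h2 t p q (by rw [hB, ht, det_diagonal]; exact Finset.prod_ne_zero_iff.2 fun i _ => hd i)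
  obtain ⟨κ, hκ⟩ : ∃ κ, ∀ b, μ b = κ * (β b - β e) := by
    by_cases h : ∃ b, b ≠ e
    · obtain ⟨b, hb⟩ := h
      have := sub_ne_zero.2 (hβ.ne hb)
      exact ⟨μ b / (β b - β e), fun c => by field_simp; linear_combination h5 b c⟩
    · push Not at h
      exact ⟨0, fun b => by rw [h b, h3, zero_mul]⟩
  have h6 : ξ * (A * B).val = κ • ((B * A).val - (A * B).val) := by
    ext b c
    rw [Units.val_mul, Units.val_mul, ← mul_assoc, hB, mul_diagonal, h4, hκ, hκ]
    simp; ring
  have h7 : ξ = κ • ((cm B A).val - 1) := by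
    rw [← Units.mul_inv_cancel_right ξ (A * B), h6, smul_mul_assoc, sub_mul, Units.mul_inv,
      ← Units.val_mul]
    congr 3
    unfold cm; group
  rw [h7, trace_smul, trace_sub, trace_one, Fintype.card_fin, smul_eq_mul, mul_eq_zero] at h1
  rcases h1 with h1 | h1
  · rw [h7, h1, zero_smul]
  · rw [hW (sub_eq_zero.1 h1), sub_self, smul_zero] at h6
    exact (Units.mul_left_eq_zero _).1 h6

theorem span2 (A B : GL (Fin r) k) (e : Fin r) (β : Fin r → k) (hβ : Function.Injective β)
    (hB : B.val = diagonal β) (hA : Gen A.val e) : S2 k A.val B.val e := by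
  classical
  intro c h2
  let c' : Fin r × Fin r → k := fun a => if h : a.2 ≠ e ∨ a.1 = e then c ⟨a, h⟩ else 0
  have hc : ∀ M : Mat r k, ∑ a, c a * M a.1.1 a.1.2 = ∑ a, c' a * M a.1 a.2 := by
    intro M
    rw [← Fintype.sum_subtype_add_sum_subtype (fun a : Fin r × Fin r => a.2 ≠ e ∨ a.1 = e)]
    rw [Finset.sum_eq_zero (s := Finset.univ) (f := fun a : {a : Fin r × Fin r //
      ¬ (a.2 ≠ e ∨ a.1 = e)} => c' a * M a.1.1 a.1.2) fun a _ => by
        simp only [c', dif_neg a.2, zero_mul],
      add_zero]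
    exact Finset.sum_congr rfl fun a _ => by simp only [c', dif_pos a.2]
  simp only [hc, sum_eq_trace] at h2
  suffices h : (Matrix.of fun j i => c' (i, j)) = 0 by
    ext a
    have : c' a = 0 := congrFun (congrFun h a.1.2) a.1.1
    simp only [c', dif_pos a.2] at this
    exact this
  have h0 : ∀ i, i ≠ e → (Matrix.of fun j i => c' (i, j)) e i = 0 := fun i hi => by simp [c', hi]
  generalize (Matrix.of fun j i => c' (i, j)) = ξ at *
  obtain ⟨μ, h3, h4, -⟩ := ann_words (ξ * B.val) A.val e hA 1 fun p q d hd => by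
    obtain ⟨t, ht⟩ := exists_zz β hβ d
    rw [← ht, ← hB, ← h2 t (p * q + 1)
      (by rw [hB, ht, det_diagonal]; exact Finset.prod_ne_zero_iff.2 fun i _ => hd i)]
    simp only [wd, diagonal_one', one_mul, ← pow_mul, ← pow_succ', mul_assoc]
  have h5 : ∀ j, (ξ * B.val) e e = -μ j := by
    intro j
    have := h4 e j
    rw [mul_apply, Finset.sum_eq_single e (fun i _ hi => by rw [hB, mul_diagonal, h0 i hi]; simp)
      (by simp), h3, Pi.one_apply, mul_one, mul_comm, zero_sub] at this
    exact mul_left_cancel₀ (hA.1 e j) this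
  have h6 : ∀ j, μ j = 0 := fun j => by
    have := (h5 j).symm.trans (h5 e)
    rwa [h3, neg_inj] at this
  have h7 : ξ * B.val * A.val = 0 := by
    ext b c
    simpa [h6] using h4 b c
  exact (Units.mul_left_eq_zero _).1 ((Units.mul_left_eq_zero _).1 h7)

end P002
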