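import Vale.Agent.P002.Defs

/-! Invariance of the Zariski closure under twists. -/

namespace P002
open Matrix

variable {m s r : ℕ} {k : Type} [Field k] {Λ Λ' : Type} [CommRing Λ] [CommRing Λ']
  [Algebra k Λ] [Algebra k Λ']

theorem Adm.coeff {γ ζ : GL (Fin r) Λ} (h : Adm γ ζ) :
    ∃ t : Fin r → Λ, ζ.val = ∑ i, t i • γ.val ^ i.val := by
  rcases subsingleton_or_nontrivial Λ with _ | _
  · exact ⟨0, Subsingleton.elim _ _⟩
  rcases Nat.eq_zero_or_pos r with rfl | hr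
  · exact ⟨0, Subsingleton.elim _ _⟩
  rw [Adm, Algebra.adjoin_singleton_eq_range_aeval] at h
  obtain ⟨p, hp⟩ := h
  have hd : (p %ₘ γ.val.charpoly).natDegree < r := by
    have h1 : γ.val.charpoly.natDegree = r := by simp
    have := Polynomial.natDegree_modByMonic_lt p γ.val.charpoly_monic (by
      intro h; rw [h] at h1; simp at h1; omega)
    omega
  refine ⟨fun i => (p %ₘ γ.val.charpoly).coeff i, ?_⟩
  rw [← hp]
  change Polynomial.aeval _ p = _
  rw [aeval_eq_aeval_mod_charpoly, Polynomial.aeval_eq_sum_range' hd, Finset.sum_range]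

theorem adm_of_coeff {γ ζ : GL (Fin r) Λ} {ι : Type} [Fintype ι] (t : ι → Λ) (e : ι → ℕ)
    (h : ζ.val = ∑ i, t i • γ.val ^ e i) : Adm γ ζ := by
  rw [Adm, h]
  exact Subalgebra.sum_mem _ fun i _ => Subalgebra.smul_mem _
    (Subalgebra.pow_mem _ (Algebra.self_mem_adjoin_singleton _ _) _) _

theorem Adm.self (γ : GL (Fin r) Λ) : Adm γ γ := Algebra.self_mem_adjoin_singleton _ _

theorem Adm.one (γ : GL (Fin r) Λ) : Adm γ 1 := Subalgebra.one_mem _

theorem Adm.mul {γ ζ ξ : GL (Fin r) Λ} (h : Adm γ ζ) (h' : Adm γ ξ) : Adm γ (ζ * ξ) :=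
  Subalgebra.mul_mem _ h h'

theorem Adm.pow {γ ζ : GL (Fin r) Λ} (h : Adm γ ζ) (n : ℕ) : Adm γ (ζ ^ n) := by
  rw [Adm, Units.val_pow_eq_pow_val]
  exact Subalgebra.pow_mem _ h n

theorem Adm.commute {γ ζ : GL (Fin r) Λ} (h : Adm γ ζ) : Commute ζ γ := by
  apply Units.ext
  have := Algebra.commute_of_mem_adjoin_self h
  simpa using this.symm.eq

theorem Adm.inv {γ ζ : GL (Fin r) Λ} (h : Adm γ ζ) : Adm γ ζ⁻¹ := by
  have h0 := ζ.val.aeval_self_charpoly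
  rw [← Polynomial.X_mul_divX_add ζ.val.charpoly, map_add, map_mul, Polynomial.aeval_X,
    Polynomial.aeval_C] at h0
  have hu : IsUnit (ζ.val.charpoly.coeff 0) := by
    have := (Matrix.isUnit_iff_isUnit_det _).1 ζ.isUnit
    rw [det_eq_sign_charpoly_coeff] at this
    exact isUnit_of_mul_isUnit_right this
  obtain ⟨u, hu⟩ := hu
  have h1 : (ζ⁻¹).val = (-(u⁻¹).val) • Polynomial.aeval ζ.val ζ.val.charpoly.divX := by
    have h2 := congrArg (fun x => (-(u⁻¹).val) • ((ζ⁻¹).val * x)) h0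
    simp only [mul_add, ← mul_assoc, Units.inv_mul, one_mul, ← hu, mul_zero, smul_zero, smul_add,
      Algebra.algebraMap_eq_smul_one, Matrix.mul_smul, mul_one, smul_smul, neg_mul] at h2
    simp only [Units.inv_mul, neg_smul, one_smul] at h2
    rw [neg_smul]
    exact (add_neg_eq_zero.1 h2).symm
  rw [Adm, h1]
  refine Subalgebra.smul_mem _ ?_ _
  exact Algebra.adjoin_le (Set.singleton_subset_iff.2 h) (Polynomial.aeval_mem_adjoin_singleton _ _)

theorem map_sum_pow (φ : Λ →ₐ[k] Λ') {ι : Type} [Fintype ι] (t : ι → Λ) (e : ι → ℕ) (γ : Mat r Λ) :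
    (∑ i, t i • γ ^ e i).map φ = ∑ i, φ (t i) • (γ.map φ) ^ e i := by
  change φ.mapMatrix _ = _
  rw [map_sum]
  refine Finset.sum_congr rfl fun i _ => ?_
  rw [← AlgHom.mapMatrix_apply, ← map_pow]
  ext a b
  simp

theorem Adm.map (φ : Λ →ₐ[k] Λ') {γ ζ : GL (Fin r) Λ} (h : Adm γ ζ) : Adm (gm φ γ) (gm φ ζ) := by
  obtain ⟨t, ht⟩ := h.coeff
  exact adm_of_coeff (fun i => φ (t i)) Fin.val (by rw [gm_val, ht, map_sum_pow, gm_val])

theorem Adm.lift (π : Λ →ₐ[k] Λ') (hs : Function.Surjective π)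
    (hl : ∀ a, IsUnit (π a) → IsUnit a) {γ : GL (Fin r) Λ} {ζ : GL (Fin r) Λ'}
    (h : Adm (gm π γ) ζ) : ∃ ξ, Adm γ ξ ∧ gm π ξ = ζ := by
  obtain ⟨t, ht⟩ := h.coeff
  choose u hu using fun i => hs (t i)
  have e : (∑ i, u i • γ.val ^ i.val).map π = ζ.val := by
    rw [map_sum_pow, ht]; simp [hu]
  have hd : IsUnit (∑ i, u i • γ.val ^ i.val).det := by
    apply hl
    rw [AlgHom.map_det, AlgHom.mapMatrix_apply, e]
    exact (Matrix.isUnit_iff_isUnit_det _).1 ζ.isUnit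
  exact ⟨GeneralLinearGroup.mk'' _ hd, adm_of_coeff u Fin.val rfl, Units.ext e⟩

variable {J : Fin s → GL (Fin r) k} {G : Subgroup (GL (Fin r) k)}

theorem InZ.map {p : Tup m s r Λ} (h : InZ J G p) (φ : Λ →ₐ[k] Λ') : InZ J G (gm φ ∘ p) := by
  intro F hF
  rw [cl_gm, AlgHom.comp_apply, h F hF, map_zero]

theorem InZ.of_map {p : Tup m s r Λ} (φ : Λ →ₐ[k] Λ') (hφ : Function.Injective φ)
    (h : InZ J G (gm φ ∘ p)) : InZ J G p := by
  intro F hF
  have := h F hF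
  rw [cl_gm, AlgHom.comp_apply] at this
  exact hφ (by rw [this, map_zero])

theorem InZ.of_DD {p : Tup m s r k} (h : p ∈ DD J G) : InZ J G p := fun _ hF => hF p h

theorem Sch.mem (S : Sch m s) {Γ : Type} [Group Γ] (H : Subgroup Γ) {J : Fin s → Γ}
    {M : Ix m s → Γ} {ζ : Γ} (hJ : ∀ j, J j ∈ H) (hM : ∀ x, M x ∈ H) (hζ : ζ ∈ H) :
    S.gam J M ∈ H ∧ ∀ x, S.mv J M ζ x ∈ H := by
  have h1 := S.gam_nat H.subtype (fun j => ⟨J j, hJ j⟩) fun x => ⟨M x, hM x⟩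
  have h2 := S.mv_nat H.subtype (fun j => ⟨J j, hJ j⟩) (fun x => ⟨M x, hM x⟩) ⟨ζ, hζ⟩
  refine ⟨?_, fun x => ?_⟩
  · change S.gam (H.subtype ∘ fun j => ⟨J j, hJ j⟩) (H.subtype ∘ fun x => ⟨M x, hM x⟩) ∈ H
    rw [← h1]; exact Subtype.property _
  · change S.mv (H.subtype ∘ fun j => ⟨J j, hJ j⟩) (H.subtype ∘ fun x => ⟨M x, hM x⟩)
      (H.subtype ⟨ζ, hζ⟩) x ∈ H
    rw [← h2]; exact Subtype.property _

theorem twist_key (S : Sch m s) (J : Fin s → GL (Fin r) k) (F : UU m s r k) :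
    ∃ (N : ℕ) (P : MvPolynomial (Fin r) (UU m s r k)), ∀ (Λ : Type) [CommRing Λ] [Algebra k Λ]
      (p : Tup m s r Λ) (ζ : GL (Fin r) Λ) (t : Fin r → Λ),
      ζ.val = ∑ i, t i • (S.gam (Jm Λ J) p).val ^ i.val →
      MvPolynomial.eval t (MvPolynomial.map (cl k p).toRingHom P) =
        cl k (S.mv (Jm Λ J) p ζ) F * ζ.val.det ^ N := by
  let U := UU m s r k
  let R := MvPolynomial (Fin r) U
  let c : U →ₐ[k] R := IsScalarTower.toAlgHom k U R
  let Z : Mat r R := ∑ i : Fin r, (MvPolynomial.X i : R) • (S.gam (Jm R J) (gm c ∘ up m s r k)).val ^ i.val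
  let U' := Localization.Away Z.det
  let a : R →ₐ[k] U' := IsScalarTower.toAlgHom k R U'
  let ζu : GL (Fin r) U' := GeneralLinearGroup.mk'' (Z.map a) (by
    rw [← AlgHom.mapMatrix_apply, ← AlgHom.map_det]
    exact IsLocalization.Away.algebraMap_isUnit Z.det)
  obtain ⟨⟨P, _, N, rfl⟩, hP⟩ := IsLocalization.surj (Submonoid.powers Z.det)
    (cl k (S.mv (Jm U' J) (gm a ∘ gm c ∘ up m s r k) ζu) F)
  refine ⟨N, P, fun Λ _ _ p ζ t ht => ?_⟩
  let ψ0 : R →ₐ[k] Λ := MvPolynomial.aevalTower (cl k p) t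
  have h1 : gm ψ0 ∘ gm c ∘ up m s r k = p := by
    have e : ψ0.comp c = cl k p := AlgHom.ext fun u => MvPolynomial.aevalTower_C _ _ u
    rw [← gm_cl_up (k := k) p, ← e]
    rfl
  have h2 : Z.map ψ0 = ζ.val := by
    rw [map_sum_pow, ht, ← gm_val, S.gam_nat, gm_Jm, h1]
    exact Finset.sum_congr rfl fun i _ => by rw [MvPolynomial.aevalTower_X]
  have h3 : ψ0 Z.det = ζ.val.det := by rw [AlgHom.map_det, AlgHom.mapMatrix_apply, h2]
  let ψ : U' →ₐ[k] Λ := IsLocalization.liftAlgHom (M := Submonoid.powers Z.det) (f := ψ0) (by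
    rintro ⟨_, n, rfl⟩
    rw [map_pow, h3]
    exact ((Matrix.isUnit_iff_isUnit_det _).1 ζ.isUnit).pow n)
  have h4 : ∀ x, ψ (algebraMap R U' x) = ψ0 x := fun x => by simp [ψ]
  have h5 : gm ψ ∘ gm a ∘ gm c ∘ up m s r k = p := by
    rw [← h1]
    ext x : 1
    exact Units.ext (Matrix.ext fun i j => h4 _)
  have h6 : gm ψ ζu = ζ := Units.ext (by rw [← h2]; exact Matrix.ext fun i j => h4 _)
  have h7 := congrArg ψ hP
  rw [map_mul, h4, h4, map_pow, h3, ← AlgHom.comp_apply, ← cl_gm, S.mv_nat, gm_Jm, h5, h6] at h7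
  rw [h7, MvPolynomial.eval_map]
  rfl

theorem InZ.twist (S : Sch m s) (hJ : ∀ j, J j ∈ G) (hU : HU G) {p : Tup m s r Λ}
    (hp : InZ J G p) {ζ : GL (Fin r) Λ} (hζ : Adm (S.gam (Jm Λ J) p) ζ) :
    InZ J G (S.mv (Jm Λ J) p ζ) := by
  intro F hF
  obtain ⟨N, P, hP⟩ := twist_key S J F
  obtain ⟨t, ht⟩ := hζ.coeff
  have h1 : ∀ q ∈ DD J G, MvPolynomial.map (cl k q).toRingHom P = 0 := by
    intro q hq
    apply hU (S.gam J q) (S.mem G hJ hq.1 G.one_mem).1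
    rintro t ⟨ξ, hξ, e⟩
    rw [hP k q ξ t (by rwa [Jm_self]), Jm_self, hF, zero_mul]
    refine ⟨(S.mem G hJ hq.1 hξ).2, ?_⟩
    rw [Rel, S.rel_mv _ _ _ (adm_of_coeff t Fin.val e).commute]
    exact hq.2
  have h2 : MvPolynomial.map (cl k p).toRingHom P = 0 := by
    ext d
    rw [MvPolynomial.coeff_map, MvPolynomial.coeff_zero]
    refine hp _ fun q hq => ?_
    have := congrArg (MvPolynomial.coeff d) (h1 q hq)
    rwa [MvPolynomial.coeff_map, MvPolynomial.coeff_zero] at this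
  have h3 := hP Λ p ζ t ht
  rw [h2, map_zero] at h3
  exact (((Matrix.isUnit_iff_isUnit_det _).1 ζ.isUnit).pow N).mul_left_eq_zero.1 h3.symm

theorem InZ.isRel {p : Tup m s r Λ} (hp : InZ J G p) : Rel (Jm Λ J) p := by
  have e : ∀ (Λ : Type) [CommRing Λ] [Algebra k Λ] (p : Tup m s r Λ),
      gm (cl k p) (rel (Jm _ J) (up m s r k)) = rel (Jm Λ J) p := by
    intro Λ _ _ p
    rw [map_rel, gm_Jm, gm_cl_up]
  rw [Rel, ← e]
  ext i j
  have := hp ((rel (Jm _ J) (up m s r k)).val i j - (1 : Mat r _) i j) fun q hq => by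
    have h := congrArg (fun g => g.val i j) (e k q)
    have hq2 : rel J q = 1 := hq.2
    simp only [gm_val, map_apply, Jm_self, hq2] at h
    rw [map_sub, h]
    simp [one_apply]
  rw [map_sub, sub_eq_zero] at this
  simp only [gm_val, map_apply, this]
  simp [one_apply]

end P002
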