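import Vale.Agent.P002.Chart
import Vale.Agent.P002.Deriv

/-! The generic point of any component of the representation variety. -/

namespace P002
open Matrix Module

variable {m s r : ℕ} {k K : Type} [Field k] [Field K] [Algebra k K]

/-- logarithmic derivatives of a family -/
def thL (k : Type) [Field k] [Algebra k K] {I : Type} (M : I → GL (Fin r) K) :
    Derivation k K K →ₗ[K] (I → Mat r K) where
  toFun D x := th D (M x)
  map_add' D D' := by
    ext1 x
    have : (M x).val.map (D + D') = (M x).val.map D + (M x).val.map D' := rfl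
    simp only [th, this, mul_add, Pi.add_apply]
  map_smul' c D := by
    ext1 x
    have : (M x).val.map (c • D) = c • (M x).val.map D := rfl
    simp only [th, this, Matrix.mul_smul, Pi.smul_apply, RingHom.id_apply]

section two
variable {I : Type} [Fintype I] [DecidableEq I]

theorem finrank_fun_Mat (I : Type) [Fintype I] :
    finrank K (I → Mat r K) = Fintype.card I * (r * r) := by
  rw [Module.finrank_pi_fintype]; simp [finrank_Mat]

theorem card_off {a b : I} (h : a ≠ b) :
    Fintype.card {x // x ≠ a ∧ x ≠ b} + 2 = Fintype.card I := by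
  have h1 : Fintype.card {x // x ≠ a ∧ x ≠ b} = ({a, b}ᶜ : Finset I).card :=
    Fintype.card_of_subtype _ (by simp)
  rw [h1, ← Finset.card_pair h, Finset.card_compl_add_card]

/-- restriction to the complement of a handle -/
def off (K : Type) [Field K] (r : ℕ) (a b : I) :
    (I → Mat r K) →ₗ[K] ({x // x ≠ a ∧ x ≠ b} → Mat r K) := LinearMap.funLeft K _ Subtype.val

/-- restriction to a handle -/
def on (K : Type) [Field K] (r : ℕ) (a b : I) : (I → Mat r K) →ₗ[K] (Mat r K × Mat r K) :=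
  (LinearMap.proj a).prod (LinearMap.proj b)

omit [Fintype I] in
theorem off_on {a b : I} (v : I → Mat r K) (h1 : off K r a b v = 0) (h2 : on K r a b v = 0) :
    v = 0 := by
  ext1 x
  by_cases ha : x = a
  · rw [ha]; exact congrArg Prod.fst h2
  by_cases hb : x = b
  · rw [hb]; exact congrArg Prod.snd h2
  exact congrFun h1 ⟨x, ha, hb⟩

variable [IsAlgClosed K] (M : I → GL (Fin r) K)

theorem two_scalar {a b A B : I} (hab : a ≠ b) (hAB : A ≠ B) (h1 : A ≠ a ∧ A ≠ b)
    (h2 : B ≠ a ∧ B ≠ b)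
    (H : ∀ D : Derivation k K K, (∀ x, x ≠ a → x ≠ b → M x ∈ KD D r) → cm (M a) (M b) ∈ KD D r)
    (hd : Fintype.card I * (r * r) + 1 ≤ finrank K (LinearMap.range (thL k M)) + r * r)
    (ξ : Mat r K) (hA : (M A).val * ξ = ξ * (M A).val) (hB : (M B).val * ξ = ξ * (M B).val) :
    ∃ c : K, ξ = c • 1 := by
  by_contra hc
  obtain ⟨S1, hS1, h3⟩ := bound1 (k := k) (M A) (M B) ξ hA hB hc
  obtain ⟨S2, hS2, h4⟩ := bound2 (k := k) (M a) (M b)
  let A' : {x // x ≠ a ∧ x ≠ b} := ⟨A, h1⟩
  let B' : {x // x ≠ a ∧ x ≠ b} := ⟨B, h2⟩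
  have hAB' : A' ≠ B' := fun h => hAB (congrArg Subtype.val h)
  have h5 := fr_le (off K r a b) (on K r a b) (LinearMap.range (thL k M))
    (S1.comap (on K r A' B')) S2 (by rintro _ ⟨D, rfl⟩; exact h3 D)
    (by rintro _ ⟨D, rfl⟩ h; exact h4 D (H D fun x ha hb => congrFun h ⟨x, ha, hb⟩))
    (fun v _ => off_on v)
  have h6 := fr_le (on K r A' B') (off K r A' B') (S1.comap (on K r A' B')) S1 ⊤ (fun v hv => hv)
    (fun _ _ _ => trivial) (fun v _ h h' => off_on v h' h)
  rw [finrank_top, finrank_fun_Mat] at h6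
  have h7 := card_off hab
  have h8 := card_off hAB'
  rw [← h7, ← h8] at hd
  nlinarith

theorem two_surj {a b A B : I} (hab : a ≠ b) (hAB : A ≠ B) (h1 : A ≠ a ∧ A ≠ b)
    (h2 : B ≠ a ∧ B ≠ b)
    (H : ∀ D : Derivation k K K, (∀ x, x ≠ a → x ≠ b → M x ∈ KD D r) → cm (M a) (M b) ∈ KD D r)
    (H' : ∀ D : Derivation k K K, (∀ x, x ≠ A → x ≠ B → M x ∈ KD D r) → cm (M A) (M B) ∈ KD D r)
    (hd : Fintype.card I * (r * r) + 1 ≤ finrank K (LinearMap.range (thL k M)) + r * r) :
    (∀ T : I → Mat r K, ∃ D : Derivation k K K, ∀ x, x ≠ A → x ≠ B → (M x).val.map D = T x) ∧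
      ∀ y, nu (M A) (M B) y = 0 → ∃ D : Derivation k K K,
        (∀ x, x ≠ A → x ≠ B → (M x).val.map D = 0) ∧ th D (M B) = y.2 := by
  have h3 := bound3 _ _ (two_scalar M hab hAB h1 h2 H hd)
  have h7 := card_off hAB
  obtain ⟨h4, h5⟩ := fr_eq (off K r A B) (on K r A B) (LinearMap.range (thL k M)) ⊤
    (LinearMap.ker (nu (M A) (M B))) (fun _ _ => trivial)
    (by rintro _ ⟨D, rfl⟩ h; exact nu_th D (H' D fun x ha hb => congrFun h ⟨x, ha, hb⟩))
    (fun v _ => off_on v) (by
      rw [finrank_top, finrank_fun_Mat]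
      rw [← h7] at hd
      nlinarith)
  refine ⟨fun T => ?_, fun y hy => ?_⟩
  · obtain ⟨_, ⟨D, rfl⟩, h⟩ := h4 (fun x => (M x)⁻¹.val * T x) trivial
    refine ⟨D, fun x ha hb => ?_⟩
    have : th D (M x) = _ := congrFun h ⟨x, ha, hb⟩
    rw [← mul_th, this, Units.mul_inv_cancel_left]
  · obtain ⟨_, ⟨D, rfl⟩, h, h'⟩ := h5 y hy
    refine ⟨D, fun x ha hb => ?_, congrArg Prod.snd h'⟩
    have : th D (M x) = 0 := congrFun h ⟨x, ha, hb⟩
    rw [← mul_th, this, mul_zero]

end two

/-- the parameters of the chart -/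
abbrev Par (m s : ℕ) {r : ℕ} (e : Fin r) := (Old m s × Fin r × Fin r) ⊕ Sx e

def par {Λ : Type} [CommRing Λ] (e : Fin r) (p : Tup m s r Λ) : Par m s e → Λ :=
  Sum.elim (fun v => (p (.inl v.1)).val v.2.1 v.2.2) fun v => (p iB).val v.1.1 v.1.2

theorem xgen [CharZero k] [IsAlgClosed K] (i : Fin m) (e : Fin r) (J : Fin s → GL (Fin r) k)
    (x : Tup m s r K) (hx : Rel (Jm K J) x)
    (hd : Fintype.card (Ix m s) * (r * r) + 1 ≤ finrank K (LinearMap.range (thL k x)) + r * r) :
    AlgebraicIndependent k (par e x) ∧ Cy (x iB).val ∧ Ch (x iA).val (x iB).val e ∧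
      Sp (x iA).val (x iB).val := by
  have hp : ∀ D : Derivation k K K, (∀ j, x (ih j) ∈ KD D r) → pr (pf (Jm K J) x) ∈ KD D r :=
    fun D h => pr_mem _ fun j => mul_mem (mul_mem (h j) (gm_mem_KD D _)) (inv_mem (h j))
  have hc : ∀ (D : Derivation k K K) {a b : GL (Fin r) K}, a ∈ KD D r → b ∈ KD D r →
      cm a b ∈ KD D r := fun D a b ha hb =>
    mul_mem (mul_mem (mul_mem ha hb) (inv_mem ha)) (inv_mem hb)
  have H : ∀ D : Derivation k K K, (∀ y, y ≠ ia i → y ≠ ib i → x y ∈ KD D r) →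
      cm (x (ia i)) (x (ib i)) ∈ KD D r := by
    intro D h
    have e1 : cm (x (ia i)) (x (ib i)) = (pre (hf x) i)⁻¹ *
        (post (hf x) i * cm (x iA) (x iB) * pr (pf (Jm K J) x))⁻¹ := by
      have := hx
      rw [Rel, rel, pr_split _ i] at this
      rw [eq_inv_mul_iff_mul_eq, ← mul_eq_one_iff_eq_inv, ← this]
      simp only [mul_assoc, hf]
    have e2 : ∀ j, j ≠ i → hf x j ∈ KD D r := fun j hj =>
      hc D (h _ (by simp [hj]) (by simp)) (h _ (by simp) (by simp [hj]))
    rw [e1]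
    exact mul_mem (inv_mem (pre_mem _ e2)) (inv_mem (mul_mem (mul_mem (post_mem _ e2)
      (hc D (h _ (by simp) (by simp)) (h _ (by simp) (by simp))))
      (hp D fun j => h _ (by simp) (by simp))))
  have H' : ∀ D : Derivation k K K, (∀ y, y ≠ iA → y ≠ iB → x y ∈ KD D r) →
      cm (x iA) (x iB) ∈ KD D r := by
    intro D h
    have e1 : cm (x iA) (x iB) = (pr (hf x))⁻¹ * (pr (pf (Jm K J) x))⁻¹ := by
      rw [eq_inv_mul_iff_mul_eq, ← mul_eq_one_iff_eq_inv]
      exact hx
    rw [e1]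
    exact mul_mem (inv_mem (pr_mem _ fun j => hc D (h _ (by simp) (by simp))
      (h _ (by simp) (by simp)))) (inv_mem (hp D fun j => h _ (by simp) (by simp)))
  obtain ⟨h1, -⟩ := two_surj x (a := iA) (b := iB) (A := ia i) (B := ib i) (by simp) (by simp)
    (by simp) (by simp) H' H hd
  obtain ⟨h2, h3⟩ := two_surj x (A := iA) (B := iB) (a := ia i) (b := ib i) (by simp) (by simp)
    (by simp) (by simp) H H' hd
  obtain ⟨c1, c2, c3⟩ := generic_chart (k := k) (x iA).val (x iB).val e (beta_der _ fun w => by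
    obtain ⟨D, hD⟩ := h1 fun y => Matrix.of fun a b => w (decide (y = iB), a, b)
    refine ⟨D, fun ⟨c, a, b⟩ => ?_⟩
    cases c
    · simpa using congrFun (congrFun (hD iA (by simp) (by simp)) a) b
    · simpa using congrFun (congrFun (hD iB (by simp) (by simp)) a) b)
  refine ⟨beta_der _ fun w => ?_, c1, c2, c3⟩
  obtain ⟨D, hD⟩ := h2 (Sum.elim (fun y => Matrix.of fun a b => w (.inl (y, a, b))) 0)
  obtain ⟨y, hy, hy'⟩ := bound4 (x iA) (x iB) e c1 c2
    fun v => w (.inr v) - D ((x iB).val v.1.1 v.1.2)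
  obtain ⟨D', h4, h5⟩ := h3 y hy
  refine ⟨D + D', fun v => ?_⟩
  rcases v with ⟨y, a, b⟩ | v
  · have h6 := congrFun (congrFun (hD (.inl y) (by simp) (by simp)) a) b
    have h7 := congrFun (congrFun (h4 (.inl y) (by simp) (by simp)) a) b
    simp only [map_apply, Sum.elim_inl, of_apply, Matrix.zero_apply] at h6 h7
    simp [par, h6, h7]
  · have h6 := hy' v
    rw [← h5, mul_th, map_apply] at h6
    simp [par, h6]

theorem finrank_ev_le (x : Tup m s r K) :
    finrank K (LinearMap.range (ev k (ent x))) ≤ finrank K (LinearMap.range (thL k x)) := by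
  let f : (Ix m s → Mat r K) →ₗ[K] (Var m s r → K) :=
    { toFun := fun T v => ((x v.1).val * T v.1) v.2.1 v.2.2
      map_add' := fun a b => by ext v; simp [mul_add]
      map_smul' := fun a b => by ext v; simp }
  have : ev k (ent x) = f.comp (thL k x) := by
    ext D v
    change _ = ((x v.1).val * th D (x v.1)) v.2.1 v.2.2
    rw [mul_th]; rfl
  rw [this, LinearMap.range_comp]
  exact Submodule.finrank_map_le _ _

theorem exists_gp (P : Ideal (UU m s r k)) [P.IsPrime] :
    ∃ (Ω : Type) (_ : Field Ω) (_ : Algebra k Ω) (_ : IsAlgClosed Ω) (x : Tup m s r Ω),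
      RingHom.ker (cl k x) = P ∧ Algebra.IsAlgebraic (Algebra.adjoin k (Set.range (ent x))) Ω := by
  let U := UU m s r k
  let F := FractionRing (U ⧸ P)
  let Ω := AlgebraicClosure F
  let φ : U →ₐ[k] Ω := (IsScalarTower.toAlgHom k (U ⧸ P) Ω).comp (Ideal.Quotient.mkₐ k P)
  have hi : Function.Injective (algebraMap (U ⧸ P) Ω) := by
    rw [IsScalarTower.algebraMap_eq (U ⧸ P) F Ω]
    exact (algebraMap F Ω).injective.comp (IsFractionRing.injective _ _)
  let x : Tup m s r Ω := gm φ ∘ up m s r k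
  have hx : cl k x = φ := cl_gm_up φ
  refine ⟨Ω, inferInstance, inferInstance, inferInstance, x, ?_, ?_⟩
  · rw [hx]
    ext u
    rw [RingHom.mem_ker, ← Ideal.Quotient.eq_zero_iff_mem]
    exact map_eq_zero_iff _ hi
  · let S := Algebra.adjoin k (Set.range (ent x))
    have h1 : ∀ u, IsAlgebraic S (φ u) := by
      intro u
      obtain ⟨⟨a, d⟩, h⟩ := IsLocalization.surj (Submonoid.powers (Del m s r k)) u
      have hS : ∀ a, φ (algebraMap _ U a) ∈ S := fun a => by
        rw [← hx, cl_algebraMap]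
        exact (Algebra.adjoin_range_eq_range_aeval k (ent x)).ge ⟨a, rfl⟩
      have hd : φ (algebraMap _ U d.1) ≠ 0 := ((IsLocalization.map_units U d).map φ).ne_zero
      have h2 := congrArg φ h
      rw [map_mul, ← eq_div_iff hd] at h2
      rw [h2, div_eq_mul_inv]
      exact (isAlgebraic_algebraMap (⟨_, hS a⟩ : S)).mul
        (isAlgebraic_algebraMap (⟨_, hS d⟩ : S)).inv
    let T := (Subalgebra.algebraicClosure S Ω)
    let ψ : (U ⧸ P) →+* T := (algebraMap (U ⧸ P) Ω).codRestrict T fun z => by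
      obtain ⟨u, rfl⟩ := Ideal.Quotient.mk_surjective z
      exact h1 u
    have h2 : Algebra.IsAlgebraic (U ⧸ P) F := IsLocalization.isAlgebraic _ (nonZeroDivisors _)
    have h3 : Algebra.IsAlgebraic (U ⧸ P) Ω := Algebra.IsAlgebraic.trans _ F _
    have h4 : Algebra.IsAlgebraic T Ω := ⟨fun z =>
      IsAlgebraic.ringHom_of_comp_eq ψ (RingHom.id Ω) (h3.isAlgebraic z)
        (fun a b h => hi (congrArg Subtype.val h)) rfl⟩
    exact Algebra.IsAlgebraic.trans S T Ω

theorem det_rel {Λ : Type} [CommRing Λ] [Algebra k Λ] (J : Fin s → GL (Fin r) k)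
    (hJ : ∀ j, (J j).val.det = 1) (p : Tup m s r Λ) : (rel (Jm Λ J) p).val.det = 1 := by
  have : rel (Jm Λ J) p ∈ (GeneralLinearGroup.det : GL (Fin r) Λ →* Λˣ).ker := by
    have hc : ∀ a b : GL (Fin r) Λ, cm a b ∈ (GeneralLinearGroup.det : GL (Fin r) Λ →* Λˣ).ker :=
      fun a b => by rw [MonoidHom.mem_ker, map_cm, cm, mul_comm _ (_ : Λˣ)⁻¹]; simp
    refine mul_mem (mul_mem (pr_mem _ fun i => hc _ _) (hc _ _)) (pr_mem _ fun j => ?_)
    refine (MonoidHom.normal_ker _).conj_mem _ (Units.ext ?_) _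
    change ((J j).val.map (Algebra.ofId k Λ)).det = 1
    rw [← AlgHom.mapMatrix_apply, ← AlgHom.map_det, hJ, map_one]
  exact congrArg Units.val this

theorem eq_one_of_off {W : Mat r K} (e : Fin r) (hd : W.det = 1)
    (h : ∀ v : Fin r × Fin r, v ≠ (e, e) → W v.1 v.2 = (1 : Mat r K) v.1 v.2) : W = 1 := by
  have : W = diagonal (Function.update 1 e (W e e)) := by
    ext i j
    by_cases hv : (i, j) = (e, e)
    · obtain ⟨rfl, rfl⟩ := Prod.mk.inj hv; simp
    · rw [h (i, j) hv]
      by_cases hij : i = j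
      · subst hij
        have : i ≠ e := fun h => hv (by rw [h])
        simp [this]
      · simp [hij]
  rw [this, det_diagonal, Finset.prod_update_of_mem (Finset.mem_univ _)] at hd
  simp only [Pi.one_apply, Finset.prod_const_one, mul_one] at hd
  rw [this, hd]
  simp

theorem comp_gp [CharZero k] (i : Fin m) (e : Fin r) (J : Fin s → GL (Fin r) k)
    (hJ : ∀ j, (J j).val.det = 1) (p : Tup m s r K) (hp : Rel (Jm K J) p) :
    ∃ (Ω : Type) (_ : Field Ω) (_ : Algebra k Ω) (x : Tup m s r Ω),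
      RingHom.ker (cl k x) ≤ RingHom.ker (cl k p) ∧ Rel (Jm Ω J) x ∧
      AlgebraicIndependent k (par e x) ∧ Cy (x iB).val ∧ Ch (x iA).val (x iB).val e ∧
      Sp (x iA).val (x iB).val := by
  classical
  let U := UU m s r k
  let f : Fin r × Fin r → U := fun v =>
    (rel (Jm U J) (up m s r k)).val v.1 v.2 - (1 : Mat r U) v.1 v.2
  have hf : ∀ (Λ : Type) [CommRing Λ] [Algebra k Λ] (q : Tup m s r Λ) (v : Fin r × Fin r),
      cl k q (f v) = (rel (Jm Λ J) q).val v.1 v.2 - (1 : Mat r Λ) v.1 v.2 := by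
    intro Λ _ _ q v
    have : gm (cl k q) (rel (Jm U J) (up m s r k)) = rel (Jm Λ J) q := by
      rw [map_rel, gm_Jm, gm_cl_up]
    rw [← this, map_sub]
    simp [one_apply]
  let t : Finset U := (Finset.univ.erase (e, e)).image f
  have : (RingHom.ker (cl k p)).IsPrime := RingHom.ker_isPrime _
  obtain ⟨P, hP, hle⟩ := Ideal.exists_minimalPrimes_le (I := Ideal.span (t : Set U))
    (J := RingHom.ker (cl k p)) (Ideal.span_le.2 fun u hu => by
      obtain ⟨v, -, rfl⟩ := Finset.mem_image.1 hu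
      have : rel (Jm K J) p = 1 := hp
      simp [RingHom.mem_ker, hf, this])
  have := hP.1.1
  obtain ⟨Ω, _, _, _, x, hx, halg⟩ := exists_gp P
  have hr : Rel (Jm Ω J) x := Units.ext (eq_one_of_off e (det_rel J hJ x) fun v hv => by
    rw [← sub_eq_zero, ← hf, ← RingHom.mem_ker, hx]
    exact hP.1.2 (Ideal.subset_span (Finset.mem_image_of_mem f (by simp [hv]))))
  refine ⟨Ω, inferInstance, inferInstance, x, hx ▸ hle, hr, xgen i e J x hr ?_⟩
  have : IsNoetherianRing U := IsLocalization.isNoetherianRing (Submonoid.powers (Del m s r k)) _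
    inferInstance
  have h1 := Ideal.height_le_card_of_mem_minimalPrimes_span_finset hP
  rw [← IsLocalization.height_under (Submonoid.powers (Del m s r k))] at h1
  have h2 : P.under (MvPolynomial (Var m s r) k) =
      RingHom.ker (MvPolynomial.aeval (ent x) : _ →ₐ[k] Ω) := by
    ext F
    rw [Ideal.mem_comap, ← hx, RingHom.mem_ker, RingHom.mem_ker, cl_algebraMap]
  rw [h2] at h1
  have h3 := krull (ent x) _ h1
  have h4 := finrank_ev_le (k := k) x
  have h5 : t.card + 1 ≤ r * r := by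
    have : t.card ≤ _ := Finset.card_image_le
    have h6 := Finset.card_erase_add_one (Finset.mem_univ (e, e))
    simp only [Finset.card_univ, Fintype.card_prod, Fintype.card_fin] at h6
    omega
  rw [Fintype.card_prod, Fintype.card_prod, Fintype.card_fin] at h3
  omega

end P002
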