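import Vale.Agent.P002.Span
import Vale.Agent.P002.XGen
import Vale.Agent.P002.Twist
import Vale.Agent.P002.Moves

/-! A component of the Zariski closure of the integral points dominates the chart. -/

namespace P002
open Matrix PowerSeries

variable {m s r : ℕ} {k K : Type} [Field k] [Field K] [Algebra k K]

variable (k K) in
noncomputable def c0 : K⟦X⟧ →ₐ[k] K :=
  { constantCoeff (R := K) with commutes' := fun a => by simp [PowerSeries.algebraMap_apply] }

variable (k K) in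
noncomputable def cc : K →ₐ[k] K⟦X⟧ := IsScalarTower.toAlgHom k K K⟦X⟧

theorem c0_apply (f : K⟦X⟧) : c0 k K f = constantCoeff f := rfl
theorem cc_apply (a : K) : cc k K a = C a := rfl

theorem c0_cc (g : GL (Fin r) K) : gm (c0 k K) (gm (cc k K) g) = g := by
  ext i j; simp [c0_apply, cc_apply]

theorem coeff_one_mul' (f g : K⟦X⟧) :
    coeff 1 (f * g) = constantCoeff f * coeff 1 g + constantCoeff g * coeff 1 f := by
  rw [coeff_mul, Finset.Nat.antidiagonal_succ]
  simp [mul_comm]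

/-- first order term -/
noncomputable def d1 (g : GL (Fin r) K⟦X⟧) : Mat r K := g.val.map (coeff 1)

theorem d1_mul (g h : GL (Fin r) K⟦X⟧) :
    d1 (g * h) = d1 g * (gm (c0 k K) h).val + (gm (c0 k K) g).val * d1 h := by
  ext i j
  simp only [d1, Units.val_mul, map_apply, mul_apply, map_sum, coeff_one_mul', Matrix.add_apply,
    gm_val, c0_apply, ← Finset.sum_add_distrib]
  exact Finset.sum_congr rfl fun l _ => by ring

theorem d1_cc (g : GL (Fin r) K) : d1 (gm (cc k K) g) = 0 := by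
  ext i j; simp [d1, cc_apply, coeff_C]

theorem exists_curve (γ : GL (Fin r) K) (n : ℕ) : ∃ ζ : GL (Fin r) K⟦X⟧,
    Adm (gm (cc k K) γ) ζ ∧ gm (c0 k K) ζ = 1 ∧ d1 ζ = γ.val ^ n ∧ d1 ζ⁻¹ = -γ.val ^ n := by
  let Z : Mat r K⟦X⟧ := 1 + (X : K⟦X⟧) • (gm (cc k K) (γ ^ n)).val
  have h0 : Z.map (c0 k K) = 1 := by
    ext i j; simp [Z, c0_apply, one_apply, apply_ite]
  have hd : IsUnit Z.det := by
    rw [isUnit_iff_constantCoeff, ← c0_apply (k := k), AlgHom.map_det, AlgHom.mapMatrix_apply, h0,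
      det_one]
    exact isUnit_one
  let ζ : GL (Fin r) K⟦X⟧ := GeneralLinearGroup.mk'' Z hd
  have h1 : gm (c0 k K) ζ = 1 := Units.ext h0
  have h2 : d1 ζ = γ.val ^ n := by
    ext i j
    change coeff 1 (Z i j) = _
    simp [Z, -map_pow, cc_apply, one_apply, apply_ite, coeff_succ_X_mul, coeff_one]
  refine ⟨ζ, ?_, h1, h2, ?_⟩
  · refine Subalgebra.add_mem _ (Subalgebra.one_mem _) (Subalgebra.smul_mem _ ?_ _)
    rw [map_pow]
    exact (Adm.self _).pow n
  · have h3 := d1_mul (k := k) ζ ζ⁻¹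
    rw [mul_inv_cancel, map_inv, h1, h2, ← map_one (gm (cc k K)), d1_cc] at h3
    simpa using (neg_eq_of_add_eq_zero_right h3.symm).symm

variable (J : Fin s → GL (Fin r) k) (G : Subgroup (GL (Fin r) k))

/-- curves through `y'` give curves through `y` -/
def Back (P : Ix m s → Prop) (y y' : Tup m s r K) : Prop :=
  (InZ J G y → InZ J G y') ∧ rel (Jm K J) y' = rel (Jm K J) y ∧ (∀ x, P x → y' x = y x) ∧
    ∀ z' : Tup m s r K⟦X⟧, InZ J G z' → gm (c0 k K) ∘ z' = y' →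
      ∃ z : Tup m s r K⟦X⟧, InZ J G z ∧ gm (c0 k K) ∘ z = y ∧ ∀ x, P x → z x = z' x

variable {J G}

theorem Back.trans {P : Ix m s → Prop} {y y' y'' : Tup m s r K} (h : Back J G P y y')
    (h' : Back J G P y' y'') : Back J G P y y'' := by
  refine ⟨fun a => h'.1 (h.1 a), h'.2.1.trans h.2.1,
    fun x hx => (h'.2.2.1 x hx).trans (h.2.2.1 x hx), fun z hz e => ?_⟩
  obtain ⟨z1, h1, h2, h3⟩ := h'.2.2.2 z hz e
  obtain ⟨z2, h4, h5, h6⟩ := h.2.2.2 z1 h1 h2
  exact ⟨z2, h4, h5, fun x hx => (h6 x hx).trans (h3 x hx)⟩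

theorem Back.refl (P : Ix m s → Prop) (y : Tup m s r K) : Back J G P y y :=
  ⟨id, rfl, fun _ _ => rfl, fun z hz e => ⟨z, hz, e, fun _ _ => rfl⟩⟩

theorem c0_lift {γ : GL (Fin r) K⟦X⟧} {ζ : GL (Fin r) K} (h : Adm (gm (c0 k K) γ) ζ) :
    ∃ ξ, Adm γ ξ ∧ gm (c0 k K) ξ = ζ :=
  h.lift _ (fun a => ⟨C a, constantCoeff_C a⟩) fun _ ha => isUnit_iff_constantCoeff.2 ha

variable (hJ : ∀ j, J j ∈ G) (hU : HU G)
include hJ hU

theorem back_RA {P : Ix m s → Prop} (hP : ¬ P iA) (y : Tup m s r K) {ζ : GL (Fin r) K}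
    (h : Adm (y iB) ζ) : Back J G P y ((RA m s).mv (Jm K J) y ζ) := by
  have hx : ∀ x, P x → x ≠ iA := fun x hx e => hP (e ▸ hx)
  refine ⟨fun a => a.twist _ hJ hU h, (RA m s).rel_mv _ _ _ h.commute,
    fun x h => if_neg (hx x h), fun z hz e => ?_⟩
  have e1 : gm (c0 k K) (z iB) = y iB := congrFun e iB
  obtain ⟨ξ, h1, h2⟩ := c0_lift (k := k) (γ := z iB) (e1 ▸ h.inv)
  refine ⟨(RA m s).mv (Jm _ J) z ξ, hz.twist _ hJ hU h1, ?_, fun x h => if_neg (hx x h)⟩
  rw [Sch.mv_nat, e, h2]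
  ext1 x
  by_cases h : x = iA <;> simp [RA, h]

theorem back_RB {P : Ix m s → Prop} (hP : ¬ P iB) (y : Tup m s r K) {ζ : GL (Fin r) K}
    (h : Adm (y iA) ζ) : Back J G P y ((RB m s).mv (Jm K J) y ζ) := by
  have hx : ∀ x, P x → x ≠ iB := fun x hx e => hP (e ▸ hx)
  refine ⟨fun a => a.twist _ hJ hU h, (RB m s).rel_mv _ _ _ h.commute,
    fun x h => if_neg (hx x h), fun z hz e => ?_⟩
  have e1 : gm (c0 k K) (z iA) = y iA := congrFun e iA
  obtain ⟨ξ, h1, h2⟩ := c0_lift (k := k) (γ := z iA) (e1 ▸ h.inv)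
  refine ⟨(RB m s).mv (Jm _ J) z ξ, hz.twist _ hJ hU h1, ?_, fun x h => if_neg (hx x h)⟩
  rw [Sch.mv_nat, e, h2]
  ext1 x
  by_cases h : x = iB <;> simp [RB, h]

theorem back_word (y : Tup m s r K) {ζ : GL (Fin r) K} (h : Adm (y iB) ζ) (p q : ℕ) :
    ∃ y', Back J G (fun x => x.isLeft) y y' ∧ y' iA = wd (y iA) (y iB) ζ p q := by
  have h1 := back_RA hJ hU (P := fun x => x.isLeft) (by simp) y h
  have h2 := back_RB hJ hU (P := fun x => x.isLeft) (by simp) ((RA m s).mv (Jm K J) y ζ)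
    ((Adm.self _).pow p)
  exact ⟨_, (h1.trans h2).trans (back_RA hJ hU (by simp) _ ((Adm.self _).pow q)),
    by simp [RA, RB, wd]⟩

theorem curve_sch (S : Sch m s) {P : Ix m s → Prop} {y y' : Tup m s r K} (hy : InZ J G y)
    (h : Back J G P y y') (n : ℕ) : ∃ (z : Tup m s r K⟦X⟧) (ζ : GL (Fin r) K⟦X⟧),
      InZ J G z ∧ gm (c0 k K) ∘ z = y ∧ gm (c0 k K) ζ = 1 ∧ d1 ζ = (S.gam (Jm K J) y').val ^ n ∧
      d1 ζ⁻¹ = -(S.gam (Jm K J) y').val ^ n ∧
      ∀ x, P x → z x = S.mv (gm (cc k K) ∘ Jm K J) (gm (cc k K) ∘ y') ζ x := by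
  obtain ⟨ζ, h1, h2, h3, h4⟩ := exists_curve (k := k) (S.gam (Jm K J) y') n
  rw [S.gam_nat, gm_Jm] at h1
  obtain ⟨z, h5, h6, h7⟩ := h.2.2.2 _ (((h.1 hy).map (cc k K)).twist S hJ hU h1) (by
    rw [S.mv_nat, h2, S.mv_one]
    exact funext fun x => c0_cc _)
  exact ⟨z, ζ, h5, h6, h2, h3, h4, by rwa [gm_Jm]⟩

omit hJ hU

theorem par_gm {Λ Λ' : Type} [CommRing Λ] [CommRing Λ'] [Algebra k Λ] [Algebra k Λ']
    (φ : Λ →ₐ[k] Λ') (e : Fin r) (p : Tup m s r Λ) (v : Par m s e) :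
    par e (gm φ ∘ p) v = φ (par e p v) := by
  rcases v with v | v <;> rfl

theorem cl_par {Λ : Type} [CommRing Λ] [Algebra k Λ] (e : Fin r) (p : Tup m s r Λ)
    (F : MvPolynomial (Par m s e) k) :
    cl k p (MvPolynomial.aeval (par e (up m s r k)) F) = MvPolynomial.aeval (par e p) F := by
  rw [← AlgHom.comp_apply, MvPolynomial.comp_aeval]
  congr 2
  ext v
  rw [← par_gm, gm_cl_up]

theorem tan_curve (e : Fin r) {y : Tup m s r K} {z : Tup m s r K⟦X⟧} (h : gm (c0 k K) ∘ z = y)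
    (hk : RingHom.ker (cl k y) ≤ RingHom.ker (cl k z)) :
    Tan k (par e y) fun v => coeff 1 (par e z v) := by
  intro F hF
  have h1 : MvPolynomial.aeval (par e z) F = 0 := by
    rw [← cl_par] at hF ⊢
    exact hk hF
  have := chain (c0 k K) ((coeff 1 : K⟦X⟧ →ₗ[K] K).restrictScalars k) (by simp [coeff_one])
    coeff_one_mul' (par e z) F
  rw [h1, map_zero] at this
  simp only [← par_gm, h] at this
  exact this.symm

theorem S1.lin {A B : Mat r K} (h : S1 k A B) (φ : Mat r K →ₗ[K] K) (h1 : φ 1 = 0)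
    (h2 : ∀ (t : Fin r → k) (p q : ℕ), (zz t B).det ≠ 0 → φ (wd A B (zz t B) p q) = 0) :
    φ = 0 := by
  obtain ⟨ξ, hξ⟩ := exists_trace_rep φ
  have := h (fun a => ξ a.2 a.1) (by rw [sum_eq_trace, ← h1, hξ]; rfl) fun t p q hd => by
    rw [sum_eq_trace, ← h2 t p q hd, hξ]; rfl
  have h3 : ξ = 0 := by ext i j; exact congrFun this (j, i)
  ext1 w
  rw [hξ, h3]; simp

/-- pairing with a matrix of coefficients -/
def pa (c : Fin r × Fin r → K) : Mat r K →ₗ[K] K where
  toFun M := ∑ a, c a * M a.1 a.2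
  map_add' M N := by simp [mul_add, Finset.sum_add_distrib]
  map_smul' t M := by simp [Finset.mul_sum, mul_left_comm]

theorem pa_eq_zero {c : Fin r × Fin r → K} (h : ∀ M, pa c M = 0) : c = 0 := by
  ext a
  have := h (single a.1 a.2 1)
  change ∑ b, c b * _ = 0 at this
  rw [Finset.sum_eq_single a] at this
  · simpa using this
  · intro b _ hb
    rw [single_apply_of_ne, mul_zero]
    exact fun h => hb (Prod.ext h.1 h.2).symm
  · simp

theorem adm_zz (B : GL (Fin r) K) (t : Fin r → k) (h : (zz t B.val).det ≠ 0) :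
    ∃ ζ : GL (Fin r) K, ζ.val = zz t B.val ∧ Adm B ζ :=
  ⟨GeneralLinearGroup.mk'' _ h.isUnit, rfl, adm_of_coeff (fun i => algebraMap k K (t i)) Fin.val
    (by simp only [algebraMap_smul]; rfl)⟩

theorem Back.old {y y' : Tup m s r K} (h : Back J G (fun x => x.isLeft) y y') (o : Old m s) :
    y' (.inl o) = y (.inl o) := h.2.2.1 _ rfl

theorem Back.eqs {y y' : Tup m s r K} (h : Back J G (fun x => x.isLeft) y y') :
    hf y' = hf y ∧ pf (Jm K J) y' = pf (Jm K J) y ∧ cm (y' iA) (y' iB) = cm (y iA) (y iB) := by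
  have h1 : hf y' = hf y := by ext1 i; simp only [hf, h.old]
  have h2 : pf (Jm K J) y' = pf (Jm K J) y := by ext1 i; simp only [pf, h.old]
  have h3 := h.2.1
  rw [rel, rel, h1, h2] at h3
  exact ⟨h1, h2, mul_left_cancel (mul_right_cancel h3)⟩

variable (J G) in
/-- the coefficients annihilate the cross twists -/
def Kil (y : Tup m s r K) (C : Old m s → Fin r × Fin r → K) : Prop :=
  ∀ (S : Sch m s) {y' : Tup m s r K}, Back J G (fun x => x.isLeft) y y' →
    ∃ ζ : GL (Fin r) K⟦X⟧, gm (c0 k K) ζ = 1 ∧ d1 ζ = (S.gam (Jm K J) y').val ∧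
      d1 ζ⁻¹ = -(S.gam (Jm K J) y').val ∧ ∑ o : Old m s, pa (C o)
        (d1 (S.mv (gm (cc k K) ∘ Jm K J) (gm (cc k K) ∘ y') ζ (.inl o))) = 0

theorem Kil.xh {y y' : Tup m s r K} {C : Old m s → Fin r × Fin r → K} (h : Kil J G y C)
    (i : Fin m) (two fl : Bool) (hb : Back J G (fun x => x.isLeft) y y') (γ : Mat r K)
    (hγ : γ = ((XH i two fl).gam (Jm K J) y').val) :
    pa (C (.inl i)) (-((y (ia i)).val * γ)) + pa (C (.inr (.inl i)))
      (γ * (y (ib i)).val - if two then 0 else (y (ib i)).val * γ) = 0 := by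
  obtain ⟨ζ, a1, a2, a3, a4⟩ := h (XH i two fl) hb
  rw [← hγ] at a2 a3
  rw [Fintype.sum_sum_type, Fintype.sum_sum_type, Finset.sum_eq_single i,
    Finset.sum_eq_single i, Finset.sum_eq_zero, add_zero] at a4
  · cases two <;>
      simpa [XH, d1_mul (k := k), d1_cc, c0_cc, a1, a2, a3, hb.old, sub_eq_add_neg] using a4
  all_goals simp +contextual [XH, d1_cc]

theorem Kil.xp {y y' : Tup m s r K} {C : Old m s → Fin r × Fin r → K} (h : Kil J G y C)
    (j : Fin s) (fl : Bool) (hb : Back J G (fun x => x.isLeft) y y') :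
    pa (C (.inr (.inr j))) ((pre (pf (Jm K J) y) j)⁻¹.val * ((XP j fl).gam (Jm K J) y').val *
      (pre (pf (Jm K J) y) j * y (ih j)).val) = 0 := by
  obtain ⟨ζ, a1, a2, a3, a4⟩ := h (XP j fl) hb
  generalize ((XP j fl).gam (Jm K J) y').val = γ at *
  rw [Fintype.sum_sum_type, Fintype.sum_sum_type, Finset.sum_eq_zero,
    Finset.sum_eq_zero, Finset.sum_eq_single j, zero_add, zero_add] at a4
  · simp only [XP, if_true, ← map_pf, ← map_pre, hb.eqs.2.1, ← map_inv] at a4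
    simp only [Function.comp, d1_mul (k := k), d1_cc, c0_cc, a2, hb.old] at a4
    simpa [mul_assoc] using a4
  all_goals simp +contextual [XP, d1_cc]

theorem exists_conj (u v : GL (Fin r) K) : ∃ f : Mat r K →ₗ[K] Mat r K,
    Function.Surjective f ∧ ∀ g : GL (Fin r) K, f g.val = (u * g * v).val :=
  ⟨(LinearMap.mulRight K v.val).comp (LinearMap.mulLeft K u.val), fun M =>
    ⟨u⁻¹.val * M * v⁻¹.val, by
      change u.val * _ * v.val = _
      simp only [mul_assoc, Units.mul_inv_cancel_left, Units.inv_mul, mul_one]⟩, fun _ => rfl⟩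

include hJ hU

theorem lin_words {y : Tup m s r K} (h1 : S1 k (y iA).val (y iB).val) (φ : Mat r K →ₗ[K] K)
    (a1 : φ (1 : GL (Fin r) K).val = 0) (a2 : ∀ y' : Tup m s r K,
      Back J G (fun x => x.isLeft) y y' → φ (y' iA).val = 0) (M : Mat r K) : φ M = 0 := by
  rw [h1.lin φ a1 fun t p q hd => ?_]; · rfl
  obtain ⟨ζ0, e0, h0⟩ := adm_zz (y iB) t hd
  obtain ⟨y', b1, b2⟩ := back_word hJ hU y h0 p q
  rw [← a2 y' b1, b2, ← e0]
  exact congrArg φ (map_wd (Units.coeHom _) _ _ _ p q).symm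

theorem Kil.handle {y : Tup m s r K} {C : Old m s → Fin r × Fin r → K} (h : Kil J G y C)
    (h1 : S1 k (y iA).val (y iB).val) (i : Fin m) : C (.inl i) = 0 ∧ C (.inr (.inl i)) = 0 := by
  have hY : ∀ (two : Bool) (γ : Mat r K), pa (C (.inl i)) (-((y (ia i)).val * γ)) +
      pa (C (.inr (.inl i))) (γ * (y (ib i)).val - if two then 0 else (y (ib i)).val * γ) = 0 := by
    intro two γ
    obtain ⟨f, hf1, hf2⟩ := exists_conj
      ((if two then (y (ib i) * y (ia i))⁻¹ else (y (ib i))⁻¹) * post (hf y) i) (post (hf y) i)⁻¹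
    obtain ⟨φ, hφ⟩ : ∃ φ : Mat r K →ₗ[K] K, ∀ γ, φ γ = pa (C (.inl i)) (-((y (ia i)).val * γ)) +
        pa (C (.inr (.inl i))) (γ * (y (ib i)).val - if two then 0 else (y (ib i)).val * γ) :=
      ⟨(pa (C (.inl i))).comp (-LinearMap.mulLeft K (y (ia i)).val) +
        (pa (C (.inr (.inl i)))).comp (LinearMap.mulRight K (y (ib i)).val -
          if two then 0 else LinearMap.mulLeft K (y (ib i)).val), fun γ => by cases two <;> rfl⟩
    obtain ⟨M, rfl⟩ := hf1 γ
    rw [← hφ]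
    refine lin_words hJ hU h1 (φ.comp f) ?_ (fun y' hb => ?_) M
    · rw [LinearMap.comp_apply, hφ]
      refine h.xh i two false (Back.refl _ y) _ ((hf2 _).trans (congrArg Units.val ?_))
      simp only [XH, Bool.false_eq_true, if_false]
      group
    · rw [LinearMap.comp_apply, hφ]
      refine h.xh i two true hb _ ((hf2 _).trans (congrArg Units.val ?_))
      simp only [XH, if_true, hb.eqs.1, hb.old]
      group
  have hb : C (.inr (.inl i)) = 0 := pa_eq_zero fun M => by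
    have a1 := hY true ((y (ib i))⁻¹.val * M)
    have a2 := hY false ((y (ib i))⁻¹.val * M)
    simp only [if_true, sub_zero, Bool.false_eq_true, if_false, map_sub,
      Units.mul_inv_cancel_left] at a1 a2
    linear_combination a1 - a2
  refine ⟨pa_eq_zero fun M => ?_, hb⟩
  have a1 := hY true (-((y (ia i))⁻¹.val * M))
  rw [hb, mul_neg, neg_neg, Units.mul_inv_cancel_left] at a1
  simpa [pa] using a1

theorem Kil.punct {y : Tup m s r K} {C : Old m s → Fin r × Fin r → K} (h : Kil J G y C)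
    (h1 : S1 k (y iA).val (y iB).val) (j : Fin s) : C (.inr (.inr j)) = 0 := by
  obtain ⟨f, hf1, hf2⟩ := exists_conj ((pre (pf (Jm K J) y) j)⁻¹ * (cm (y iA) (y iB))⁻¹)
    (cm (y iA) (y iB) * (pre (pf (Jm K J) y) j * pf (Jm K J) y j * (pre (pf (Jm K J) y) j)⁻¹) *
      (pre (pf (Jm K J) y) j * y (ih j)))
  refine pa_eq_zero fun M => ?_
  obtain ⟨M, rfl⟩ := hf1 M
  refine lin_words hJ hU h1 ((pa (C (.inr (.inr j)))).comp f) ?_ (fun y' hb => ?_) M
  · rw [LinearMap.comp_apply, ← h.xp j false (Back.refl _ y), hf2, ← Units.val_mul, ← Units.val_mul]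
    congr 2
    simp only [XP, Bool.false_eq_true, if_false]
    group
  · rw [LinearMap.comp_apply, ← h.xp j true hb, hf2, ← Units.val_mul, ← Units.val_mul]
    congr 2
    simp only [XP, if_true, hb.eqs.2.1, hb.eqs.2.2]
    group

theorem ygen [CharZero k] (e : Fin r) (y : Tup m s r K) (hy : InZ J G y)
    (hmin : ∀ z : Tup m s r K⟦X⟧, InZ J G z → gm (c0 k K) ∘ z = y →
      RingHom.ker (cl k y) ≤ RingHom.ker (cl k z))
    (h1 : S1 k (y iA).val (y iB).val) (h2 : S2 k (y iA).val (y iB).val e) :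
    AlgebraicIndependent k (par e y) := by
  refine beta _ fun c hc => ?_
  have key : ∀ z : Tup m s r K⟦X⟧, InZ J G z → gm (c0 k K) ∘ z = y →
      ∑ o : Old m s, pa (fun a => c (.inl (o, a))) (d1 (z (.inl o))) +
        ∑ v : Sx e, c (.inr v) * d1 (z iB) v.1.1 v.1.2 = 0 := by
    intro z hz e1
    have := hc _ (tan_curve e e1 (hmin z hz e1))
    rw [Fintype.sum_sum_type, Fintype.sum_prod_type] at this
    exact this
  have hB : (fun v => c (.inr v)) = 0 := by
    refine h2 _ fun t n hd => ?_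
    obtain ⟨ζ0, e0, h0⟩ := adm_zz (y iB) t hd
    obtain ⟨z, ζ, a1, a2, a3, a4, -, a6⟩ := curve_sch hJ hU (RB m s) hy
      (back_RA hJ hU (P := (· ≠ iA)) (by simp) y h0) n
    have := key z a1 a2
    rw [Finset.sum_eq_zero, zero_add, a6 _ (by simp)] at this
    · simpa [RA, RB, d1_mul (k := k), d1_cc, c0_cc, a4, e0] using this
    · intro o _
      rw [a6 _ (by simp)]
      simp [RB, d1_cc]
  have hK : Kil J G y fun o a => c (.inl (o, a)) := by
    intro S y' hb
    obtain ⟨z, ζ, a1, a2, a3, a4, a5, a6⟩ := curve_sch hJ hU S hy hb 1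
    refine ⟨ζ, a3, by simpa using a4, by simpa using a5, ?_⟩
    have := key z a1 a2
    simp only [fun v => congrFun hB v, Pi.zero_apply, zero_mul, Finset.sum_const_zero,
      add_zero] at this
    rw [← this]
    exact Finset.sum_congr rfl fun o _ => by rw [a6 _ rfl]
  ext v
  rcases v with ⟨i | i | j, a⟩ | v
  · exact congrFun (hK.handle hJ hU h1 i).1 a
  · exact congrFun (hK.handle hJ hU h1 i).2 a
  · exact congrFun (hK.punct hJ hU h1 j) a
  · exact congrFun hB v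

end P002
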